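import Vale.Agent.P088.R2.H932.EP.CutV

/-!
# P088: the cut variables of stage 3

Data: `u`, `ρ` (half of the square of the distance) and `K = Φ''`. For each cut variable `τ` the
bounds for its first and second derivatives on the layer `0 < τ < 1`.
-/

open Set Filter
open scoped Topology ContDiff

noncomputable section

namespace Vale.Agent.P088.R2.H932.EP

variable {E : Type*} [NormedAddCommGroup E] [NormedSpace ℝ E] {ι : Type*}
variable {e : ι → E} {s : ι → ℝ} {u ρ : E → ℝ} {a b A c₀ : ℝ} {z : E}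

/-- The cut variable `(2ρ - c₀²) / (3 c₀²)`: the distance `r = √(2ρ)` between `c₀` and `2 c₀`. -/
def tauR (c₀ : ℝ) (ρ : E → ℝ) (z : E) : ℝ := (2 * ρ z - c₀ ^ 2) / (3 * c₀ ^ 2)

/-- The cut variable `(u - u₀) / w₀`. -/
def tauU (u₀ w₀ : ℝ) (u : E → ℝ) (z : E) : ℝ := (u z - u₀) / w₀

/-- The cut variable `2 E ρ / (c K(u)) - 1`, `E = e^u`. -/
def tauT (c : ℝ) (K : ℝ → ℝ) (u ρ : E → ℝ) (z : E) : ℝ :=
  2 * Real.exp (u z) * ρ z / (c * K (u z)) - 1

/-- `min(E, B)` in a smooth form, `E = e^u`. -/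
def mEB (B : ℝ) (u : E → ℝ) (z : E) : ℝ := Real.exp (u z) * B / (Real.exp (u z) + B)

/-- The cut variable `100 (log (1 + 2 E ρ) / log (1 + E B / (E + B)) - .26)`. -/
def tauC (B : ℝ) (u ρ : E → ℝ) (z : E) : ℝ :=
  100 * (Real.log (1 + 2 * Real.exp (u z) * ρ z) / Real.log (1 + mEB B u z) - 26 / 100)

/-- The cut `r`. -/
theorem jb_tauR (hs : ∀ i, 0 ≤ s i) (hc : 0 < c₀) (hA : 0 ≤ A)
    (hρ : JB e s ρ (A * ρ z) (A * ρ z) z) (hz : tauR c₀ ρ z ≤ 1) :
    JB e s (tauR c₀ ρ) (2 * A) (2 * A) z := by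
  have h1 := (hρ.cmul (2 / (3 * c₀ ^ 2))).addc (-(1 / 3))
  have h2 : JB e s (tauR c₀ ρ) _ _ z := h1.congr (Eventually.of_forall fun y => by
    unfold tauR; field_simp; ring)
  unfold tauR at hz
  rw [div_le_one (by positivity)] at hz
  have h3 : |2 / (3 * c₀ ^ 2)| * (A * ρ z) ≤ 2 * A := by
    rw [abs_of_pos (by positivity), div_mul_eq_mul_div, div_le_iff₀ (by positivity)]
    nlinarith [mul_le_mul_of_nonneg_left hz hA, mul_nonneg hA (sq_nonneg c₀)]
  exact h2.mono hs h3 h3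

/-- The cuts in `u`. -/
theorem jb_tauU {u₀ w₀ : ℝ} (hw : 0 < w₀) (hu : JB e s u a b z) :
    JB e s (tauU u₀ w₀ u) (a / w₀) (b / w₀) z := by
  have h1 := (hu.cmul (1 / w₀)).addc (-(u₀ / w₀))
  have e1 : |1 / w₀| * a = a / w₀ := by rw [abs_of_pos (by positivity)]; ring
  have e2 : |1 / w₀| * b = b / w₀ := by rw [abs_of_pos (by positivity)]; ring
  rw [e1, e2] at h1
  exact h1.congr (Eventually.of_forall fun y => by unfold tauU; ring)

/-- The composite `log K(u)`. -/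
theorem jb_logK {K : ℝ → ℝ} {C : ℝ} (hu : JB e s u a b z) (hK : ContDiffAt ℝ 2 K (u z))
    (K0 : 0 < K (u z)) (K1 : |deriv K (u z)| ≤ C * K (u z))
    (K2 : |deriv (deriv K) (u z)| ≤ C * K (u z)) :
    JB e s (fun y => Real.log (K (u y))) (C * a) ((C + C ^ 2) * a ^ 2 + C * b) z := by
  have hev : ∀ᶠ t in 𝓝 (u z), HasDerivAt K (deriv K t) t := by
    filter_upwards [ev_diff hK] with t ht
    exact ht.hasDerivAt
  have hd : DifferentiableAt ℝ (deriv K) (u z) := by
    have h1 := (hK.fderiv_right (m := 1) (by norm_num)).differentiableAt (by norm_num)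
    have h2 : deriv K = fun t => fderiv ℝ K t 1 := funext fun t => fderiv_apply_one_eq_deriv.symm
    rw [h2]
    exact h1.clm_apply (differentiableAt_const _)
  have hpos : ∀ᶠ t in 𝓝 (u z), 0 < K t := hK.continuousAt.eventually (lt_mem_nhds K0)
  refine hu.comp (φ := fun t => Real.log (K t)) (φ' := fun t => deriv K t / K t)
    (c := (deriv (deriv K) (u z) * K (u z) - deriv K (u z) * deriv K (u z)) / K (u z) ^ 2)
    (A := C) (B := C + C ^ 2) (hK.log K0.ne') ?_ ?_ ?_ ?_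
  · filter_upwards [hev, hpos] with t h1 h2
    exact h1.log h2.ne'
  · exact hd.hasDerivAt.fun_div hev.self_of_nhds K0.ne'
  · rw [abs_div, abs_of_pos K0, div_le_iff₀ K0]
    exact K1
  · rw [abs_div, abs_of_pos (by positivity : 0 < K (u z) ^ 2), div_le_iff₀ (by positivity)]
    refine (abs_sub _ _).trans ?_
    rw [abs_mul, abs_mul, abs_of_pos K0]
    have h0 : 0 ≤ C * K (u z) := (abs_nonneg _).trans K1
    have h1 : |deriv (deriv K) (u z)| * K (u z) ≤ C * K (u z) * K (u z) :=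
      mul_le_mul_of_nonneg_right K2 K0.le
    have h2 : |deriv K (u z)| * |deriv K (u z)| ≤ C * K (u z) * (C * K (u z)) :=
      mul_le_mul K1 K1 (abs_nonneg _) h0
    calc _ ≤ C * K (u z) * K (u z) + C * K (u z) * (C * K (u z)) := add_le_add h1 h2
      _ = _ := by ring

/-- The cut `t`. -/
theorem jb_tauT {K : ℝ → ℝ} {C c : ℝ} (hs : ∀ i, 0 ≤ s i) (hc : 0 < c) (h0 : 0 < ρ z)
    (ha : 0 ≤ a) (hb : 0 ≤ b) (hA : 0 ≤ A) (hC : 0 ≤ C)
    (hu : JB e s u a b z) (hρ : JB e s ρ (A * ρ z) (A * ρ z) z)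
    (hK : ContDiffAt ℝ 2 K (u z))
    (K0 : 0 < K (u z)) (K1 : |deriv K (u z)| ≤ C * K (u z))
    (K2 : |deriv (deriv K) (u z)| ≤ C * K (u z)) (hz : tauT c K u ρ z ≤ 1) :
    JB e s (tauT c K u ρ) (2 * (a + A + C * a))
      (2 * ((a + A + C * a) ^ 2 + (b + (A ^ 2 + A) + ((C + C ^ 2) * a ^ 2 + C * b)))) z := by
  have h1 := ((hu.add (hρ.log h0)).sub (jb_logK hu hK K0 K1 K2)).addc (Real.log (2 / c))
  have h2 := h1.exp.addc (-1)
  have hpK : ∀ᶠ y in 𝓝 z, 0 < K (u y) :=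
    (hK.continuousAt.comp hu.sm.continuousAt).eventually (lt_mem_nhds K0)
  have hpρ : ∀ᶠ y in 𝓝 z, 0 < ρ y := hρ.sm.continuousAt.eventually (lt_mem_nhds h0)
  have key : ∀ y, 0 < K (u y) → 0 < ρ y → Real.exp (u y + Real.log (ρ y) -
      Real.log (K (u y)) + Real.log (2 / c)) = 2 * Real.exp (u y) * ρ y / (c * K (u y)) := by
    intro y k1 k2
    rw [Real.exp_add, Real.exp_sub, Real.exp_add, Real.exp_log k1, Real.exp_log k2,
      Real.exp_log (by positivity)]
    field_simp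
  have h3 : JB e s (tauT c K u ρ) _ _ z := h2.congr (by
    filter_upwards [hpK, hpρ] with y k1 k2
    rw [key y k1 k2]
    unfold tauT; ring)
  have h4 : Real.exp (u z + Real.log (ρ z) - Real.log (K (u z)) + Real.log (2 / c)) ≤ 2 := by
    rw [key z K0 h0]
    unfold tauT at hz
    linarith
  refine h3.mono hs ?_ ?_
  · exact mul_le_mul_of_nonneg_right h4 (by positivity)
  · rw [← mul_add]
    exact mul_le_mul_of_nonneg_right h4 (by positivity)

/-- The numerator of the core cut. -/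
theorem jb_L1 (h0 : 0 < ρ z) (hu : JB e s u a b z) (hρ : JB e s ρ (A * ρ z) (A * ρ z) z) :
    JB e s (fun y => Real.log (1 + 2 * Real.exp (u y) * ρ y)) (a + A)
      ((a + A) ^ 2 + (b + (A ^ 2 + A))) z := by
  have h1 := (hu.add (hρ.log h0)).logexp (α := 2) (β := 1) (by norm_num) (by norm_num)
  have hpρ : ∀ᶠ y in 𝓝 z, 0 < ρ y := hρ.sm.continuousAt.eventually (lt_mem_nhds h0)
  refine h1.congr ?_
  filter_upwards [hpρ] with y k2
  rw [Real.exp_add, Real.exp_log k2]
  congr 1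
  ring

/-- The denominator of the core cut. -/
theorem jb_L2 {B : ℝ} (hB : 0 < B) (hu : JB e s u a b z) :
    JB e s (fun y => Real.log (1 + mEB B u y)) (2 * a) (2 * (a ^ 2 + b)) z := by
  have h1 := (hu.logexp (α := 1 + B) (β := B) (by positivity) hB).sub
    (hu.logexp (α := 1) (β := B) one_pos hB)
  have h2 : JB e s (fun y => Real.log (1 + mEB B u y)) _ _ z := h1.congr
    (Eventually.of_forall fun y => by
      have h3 := Real.exp_pos (u y)
      beta_reduce
      rw [← Real.log_div (by positivity) (by positivity)]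
      congr 1
      unfold mEB
      field_simp
      ring)
  have e1 : a + a = 2 * a := by ring
  have e2 : a ^ 2 + b + (a ^ 2 + b) = 2 * (a ^ 2 + b) := by ring
  rwa [e1, e2] at h2

/-- **The core cut**: an extra factor `1 / log (1 + min (E, B))`. -/
theorem jb_tauC {B ℓ : ℝ} (hs : ∀ i, 0 ≤ s i) (hB : 0 < B) (hℓ : 0 < ℓ) (h0 : 0 < ρ z)
    (ha : 0 ≤ a) (hA : 0 ≤ A)
    (hu : JB e s u a b z) (hρ : JB e s ρ (A * ρ z) (A * ρ z) z)
    (hL : ℓ ≤ Real.log (1 + mEB B u z)) (hz : tauC B u ρ z ≤ 1) :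
    JB e s (tauC B u ρ) (100 * (3 * a + A) / Real.log (1 + mEB B u z))
      (100 * ((a + A) ^ 2 + (b + (A ^ 2 + A)) + 2 * (a ^ 2 + b) +
        2 * (2 * a) * (3 * a + A) / ℓ) / Real.log (1 + mEB B u z)) z := by
  have hL0 : 0 < Real.log (1 + mEB B u z) := hℓ.trans_le hL
  have hn : 0 ≤ Real.log (1 + 2 * Real.exp (u z) * ρ z) := by
    refine Real.log_nonneg ?_
    have := Real.exp_pos (u z)
    have : 0 < 2 * Real.exp (u z) * ρ z := by positivity
    linarith
  have hF : |Real.log (1 + 2 * Real.exp (u z) * ρ z)| ≤ 1 * Real.log (1 + mEB B u z) := by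
    rw [abs_of_nonneg hn, one_mul, ← div_le_one hL0]
    unfold tauC at hz
    linarith
  have h1 := (((jb_L1 h0 hu hρ).div hℓ (jb_L2 hB hu) (by positivity) (by positivity) hs
    zero_le_one hL hF).addc (-(26 / 100))).cmul 100
  have h2 : JB e s (tauC B u ρ) _ _ z := h1.congr (Eventually.of_forall fun y => by
    unfold tauC; ring)
  refine h2.mono hs (le_of_eq ?_) (le_of_eq ?_)
  · rw [abs_of_pos (by norm_num)]; ring
  · rw [abs_of_pos (by norm_num)]; ring

end Vale.Agent.P088.R2.H932.EP
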