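import Vale.Agent.P088.R2.H932.EP.CutK

/-!
# P088: cuts in the distance `r = √(2ρ)` off the diagonal

Weights `1` in all directions: `|D r| ≤ A`, `|D² r| ≤ (A + A²) / r`, where `A = 6 n² (1 + T)`,
`n δ₁ √ρ ≤ T`, `n² δ₂ ρ ≤ T`; and `u` in the transition `1 ≤ r ≤ 2` of the correction.
-/

open Set Filter
open scoped Topology ContDiff Matrix

noncomputable section

namespace Vale.Agent.P088.R2.H932.EP

open Vale.Agent.P088.LR Vale.Agent.P088.HY Vale.Agent.P088.R2.H961.GW Vale.Agent.P088.R2.H464.Cu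

/-- `r = √(2ρ)`. -/
def rad {E : Type*} (ρ : E → ℝ) (z : E) : ℝ := √(2 * ρ z)

/-- The cut variable `(r - r₀) / w₀`. -/
def tauF {E : Type*} (r₀ w₀ : ℝ) (ρ : E → ℝ) (z : E) : ℝ := (rad ρ z - r₀) / w₀

section gen

variable {E : Type*} [NormedAddCommGroup E] [NormedSpace ℝ E] {ι : Type*}
variable {e : ι → E} {s : ι → ℝ} {ρ f : E → ℝ} {a b A : ℝ} {z : E}

theorem jb_rad (hs : ∀ i, 0 ≤ s i) (hA : 0 ≤ A) (h0 : 0 < ρ z) (hρ : JB e s ρ (A * √(ρ z)) A z) :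
    JB e s (rad ρ) A ((A + A ^ 2) / rad ρ z) z := by
  have hr : 0 < rad ρ z := Real.sqrt_pos.2 (by linarith)
  have hr2 : rad ρ z ^ 2 = 2 * ρ z := Real.sq_sqrt (by linarith)
  have hs0 : 0 < √(ρ z) := Real.sqrt_pos.2 h0
  have hs2 : √(ρ z) ^ 2 = ρ z := Real.sq_sqrt h0.le
  have hle : √(ρ z) ≤ rad ρ z := Real.sqrt_le_sqrt (by linarith)
  have hd : ∀ t : ℝ, 0 < t → HasDerivAt (fun t => √(2 * t)) ((√(2 * t))⁻¹) t := by
    intro t ht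
    have h1 := ((hasDerivAt_id t).const_mul 2).sqrt (by simp only [id]; positivity)
    refine h1.congr_deriv ?_
    simp only [id]
    field_simp
  have h1 := hρ.comp (φ := fun t => √(2 * t)) (φ' := fun t => (√(2 * t))⁻¹)
    (c := -(rad ρ z)⁻¹ / rad ρ z ^ 2) (A := (rad ρ z)⁻¹) (B := (rad ρ z)⁻¹ / rad ρ z ^ 2)
    ((contDiffAt_const.mul contDiffAt_id).sqrt (by simp only [id]; positivity))
    ((lt_mem_nhds h0).mono hd)
    (by
      have h3 := (hd _ h0).fun_inv (by positivity)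
      exact h3)
    (by
      show |(rad ρ z)⁻¹| ≤ _
      rw [abs_of_pos (inv_pos.2 hr)])
    (by rw [neg_div, abs_neg, abs_of_pos (by positivity)])
  have h2 : JB e s (rad ρ) _ _ z := h1
  refine h2.mono hs ?_ ?_
  · rw [inv_mul_eq_div, div_le_iff₀ hr]
    exact mul_le_mul_of_nonneg_left hle hA
  · have e1 : (rad ρ z)⁻¹ / rad ρ z ^ 2 * (A * √(ρ z)) ^ 2 + (rad ρ z)⁻¹ * A =
        (A + A ^ 2 * (√(ρ z) ^ 2 / rad ρ z ^ 2)) / rad ρ z := by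
      field_simp
      ring
    rw [e1]
    refine div_le_div_of_nonneg_right ?_ hr.le
    have h4 : √(ρ z) ^ 2 / rad ρ z ^ 2 ≤ 1 := by
      rw [div_le_one (by positivity)]
      exact pow_le_pow_left₀ hs0.le hle 2
    have := mul_le_mul_of_nonneg_left h4 (sq_nonneg A)
    linarith

theorem jb_tauF {r₀ w₀ : ℝ} (hw : 0 < w₀) (h : JB e s (rad ρ) a b z) :
    JB e s (tauF r₀ w₀ ρ) (a / w₀) (b / w₀) z := by
  have h1 := (h.cmul (1 / w₀)).addc (-(r₀ / w₀))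
  have e1 : |1 / w₀| * a = a / w₀ := by rw [abs_of_pos (by positivity)]; ring
  have e2 : |1 / w₀| * b = b / w₀ := by rw [abs_of_pos (by positivity)]; ring
  rw [e1, e2] at h1
  exact h1.congr (Eventually.of_forall fun y => by unfold tauF; ring)

end gen

variable {n : ℕ} {O : Set (V n)} {ε δ₁ δ₂ T : ℝ} {g : MF n} {l : V n → ℝ} {μ χ : ℝ → ℝ}
  {L₁ L₂ : ℝ} {z : VV n}

/-- **`ρ` with the weights `1`**, also on the diagonal. -/
theorem jb_rq1 (hO : IsOpen O) (h : Nr O ε δ₁ δ₂ g) (hε : n * ε ≤ 1 / 2) (hε1 : ε ≤ 1) (hδ : 0 ≤ δ₁)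
    (hδ' : 0 ≤ δ₂) (hz : mid z ∈ O) (h0 : 0 ≤ rq g z) (h1 : n * δ₁ * √(rq g z) ≤ T)
    (h2 : n ^ 2 * δ₂ * rq g z ≤ T) :
    JB ep (fun _ => 1) (rq g) (6 * n ^ 2 * (1 + T) * √(rq g z)) (6 * n ^ 2 * (1 + T)) z := by
  have hq := nd_le h hε hz
  have hq0 := norm_nonneg (dif z)
  have hs : 0 ≤ √(rq g z) := Real.sqrt_nonneg _
  have hss : √(rq g z) * √(rq g z) = rq g z := Real.mul_self_sqrt h0
  have hqq : ‖dif z‖ * ‖dif z‖ ≤ 9 * rq g z := by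
    rw [← hss]; nlinarith
  have hn : (0 : ℝ) ≤ n := Nat.cast_nonneg n
  have p0 : 0 ≤ (n : ℝ) ^ 2 := by positivity
  have hT : 0 ≤ T := le_trans (by positivity) h1
  have q1 : (n : ℝ) * δ₁ * ‖dif z‖ ≤ 3 * T := by
    have := mul_le_mul_of_nonneg_left hq (by positivity : 0 ≤ (n : ℝ) * δ₁)
    linarith
  have q2 : (n : ℝ) * δ₁ * ‖dif z‖ * ‖dif z‖ ≤ 9 * (T * √(rq g z)) := by
    have := mul_le_mul q1 hq hq0 (by positivity)
    linarith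
  have q3 : (n : ℝ) ^ 2 * δ₂ * ‖dif z‖ * ‖dif z‖ ≤ 9 * T := by
    have := mul_le_mul_of_nonneg_left hqq (by positivity : 0 ≤ (n : ℝ) ^ 2 * δ₂)
    linarith
  have q2' := mul_le_mul_of_nonneg_left q2 p0
  have q3' := mul_le_mul_of_nonneg_left q3 p0
  have q1' := mul_le_mul_of_nonneg_left q1 p0
  have q0' := mul_le_mul_of_nonneg_left hq p0
  have p1 : 0 ≤ (n : ℝ) ^ 2 * T := by positivity
  have p2 : 0 ≤ (n : ℝ) ^ 2 * √(rq g z) := by positivity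
  have p3 : 0 ≤ (n : ℝ) ^ 2 * (T * √(rq g z)) := by positivity
  refine ⟨rq_c2 hO h hz, ?_, ?_⟩
  · rintro (i | i)
    · refine (rq_1 hO h hε1 hδ hz i).1.trans ?_
      linarith
    · refine (rq_1 hO h hε1 hδ hz i).2.trans ?_
      linarith
  · rintro (i | i) (j | j)
    · refine (rq_2 hO h hε1 hδ hδ' hz i j).1.trans ?_
      linarith
    · refine (rq_2 hO h hε1 hδ hδ' hz i j).2.1.trans ?_
      linarith
    · refine (rq_2 hO h hε1 hδ hδ' hz i j).2.2.1.trans ?_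
      linarith
    · refine (rq_2 hO h hε1 hδ hδ' hz i j).2.2.2.trans ?_
      linarith

/-- **The distance off the diagonal.** -/
theorem jb_rad1 (hO : IsOpen O) (h : Nr O ε δ₁ δ₂ g) (hε : n * ε ≤ 1 / 2) (hε1 : ε ≤ 1)
    (hδ : 0 ≤ δ₁) (hδ' : 0 ≤ δ₂) (hz : mid z ∈ O) (h0 : 0 < rq g z)
    (h1 : n * δ₁ * √(rq g z) ≤ T) (h2 : n ^ 2 * δ₂ * rq g z ≤ T) :
    JB ep (fun _ => 1) (rad (rq g)) (6 * n ^ 2 * (1 + T))
      ((6 * n ^ 2 * (1 + T) + (6 * n ^ 2 * (1 + T)) ^ 2) / rad (rq g) z) z := by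
  have hT : 0 ≤ T := le_trans (by positivity) h1
  exact jb_rad (fun _ => zero_le_one) (by positivity) h0
    (jb_rq1 hO h hε hε1 hδ hδ' hz h0.le h1 h2)

/-- **`u` in the transition of the correction**, with the weights `1`. -/
theorem jb_uc {M₀ M₁ M₂ X P Q : ℝ} (hO : IsOpen O) (hl : Lb O L₁ L₂ l) (hx : z.1 ∈ O)
    (hy : z.2 ∈ O) (hz : mid z ∈ O) (hμ : ContDiffAt ℝ 2 μ (l (mid z))) (h0 : |μ (l (mid z))| ≤ M₀)
    (h1 : |deriv μ (l (mid z))| ≤ M₁) (h2 : |deriv (deriv μ) (l (mid z))| ≤ M₂)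
    (hχ : ContDiffAt ℝ 2 χ (2 * rq g z)) (k0 : |χ (2 * rq g z)| ≤ 1)
    (k1 : |deriv χ (2 * rq g z)| ≤ X) (k2 : |deriv (deriv χ) (2 * rq g z)| ≤ X)
    (hρ : JB ep (fun _ => 1) (rq g) P Q z) :
    JB ep (fun _ => 1) (uc χ μ l g)
      (2 * L₁ + 2 * (X * (2 * P) * M₀ + M₁ * L₁))
      (2 * L₂ + 2 * ((X * (2 * P) ^ 2 + X * (2 * Q)) * M₀ + 2 * (X * (2 * P) * (M₁ * L₁)) +
        (M₂ * L₁ ^ 2 + M₁ * L₂))) z := by
  have hev : ∀ᶠ t in 𝓝 (2 * rq g z), HasDerivAt χ (deriv χ t) t := by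
    filter_upwards [ev_diff hχ] with t ht
    exact ht.hasDerivAt
  have hd : DifferentiableAt ℝ (deriv χ) (2 * rq g z) := by
    have h1 := (hχ.fderiv_right (m := 1) (by norm_num)).differentiableAt (by norm_num)
    have h2 : deriv χ = fun t => fderiv ℝ χ t 1 := funext fun t => fderiv_apply_one_eq_deriv.symm
    rw [h2]
    exact h1.clm_apply (differentiableAt_const _)
  have hρ2 := hρ.cmul 2
  rw [abs_of_pos (by norm_num : (0 : ℝ) < 2)] at hρ2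
  have hc := hρ2.comp hχ hev hd.hasDerivAt k1 k2
  have hm := hc.mul (jb_mu hO hl hz hμ h1 h2) k0 h0
  have h := ((jb_fst hO hl hx).add (jb_snd hO hl hy)).add (hm.cmul 2)
  have e1 : L₁ + L₁ + |(2 : ℝ)| * (X * (2 * P) * M₀ + 1 * (M₁ * L₁)) =
      2 * L₁ + 2 * (X * (2 * P) * M₀ + M₁ * L₁) := by
    rw [abs_of_pos (by norm_num)]; ring
  have e2 : L₂ + L₂ + |(2 : ℝ)| * ((X * (2 * P) ^ 2 + X * (2 * Q)) * M₀ +
      2 * (X * (2 * P) * (M₁ * L₁)) + 1 * (M₂ * L₁ ^ 2 + M₁ * L₂)) =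
      2 * L₂ + 2 * ((X * (2 * P) ^ 2 + X * (2 * Q)) * M₀ + 2 * (X * (2 * P) * (M₁ * L₁)) +
        (M₂ * L₁ ^ 2 + M₁ * L₂)) := by
    rw [abs_of_pos (by norm_num)]; ring
  rw [e1, e2] at h
  exact h

end Vale.Agent.P088.R2.H932.EP
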