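import Vale.Agent.P088.R2.H464.EP.SymU
import Vale.Agent.P088.R2.H932.EP.Cuts

/-!
# P088: the cut variables for the curved data

Directions: `D_p^i = (e_i, e_i)` and `D_q^i = (e_i, -e_i) / 2`. The bounds of `ρ = g(p)(q, q) / 2` and
of `u = l(x) + l(y) + 2 χ(2ρ) μ(l(p))` in these directions, with the weights `1` and `1/√ρ`.
-/

open Set Filter
open scoped Topology ContDiff Matrix

noncomputable section

namespace Vale.Agent.P088.R2.H932.EP

open Vale.Agent.P088.LR Vale.Agent.P088.HY Vale.Agent.P088.R2.H961.GW Vale.Agent.P088.R2.H464.Cu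

section mono

variable {E : Type*} [NormedAddCommGroup E] [NormedSpace ℝ E] {ι : Type*}
variable {e : ι → E} {s s' : ι → ℝ} {f : E → ℝ} {a b Λ : ℝ} {z : E}

/-- Larger weights. -/
theorem JB.mono_s (hf : JB e s f a b z) (ha : 0 ≤ a) (hb : 0 ≤ b) (hs : ∀ i, 0 ≤ s i)
    (h : ∀ i, s i ≤ Λ * s' i) : JB e s' f (Λ * a) (Λ ^ 2 * b) z where
  sm := hf.sm
  d1 i := (hf.d1 i).trans (by
    have := mul_le_mul_of_nonneg_left (h i) ha
    linarith)
  d2 i j := (hf.d2 i j).trans (by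
    have h1 : s i * s j ≤ (Λ * s' i) * (Λ * s' j) :=
      mul_le_mul (h i) (h j) (hs j) ((hs i).trans (h i))
    have := mul_le_mul_of_nonneg_left h1 hb
    calc b * (s i * s j) ≤ b * ((Λ * s' i) * (Λ * s' j)) := this
      _ = Λ ^ 2 * b * (s' i * s' j) := by ring)

end mono

variable {n : ℕ}

/-- The directions `D_p^i` and `D_q^i`. -/
def ep : Fin n ⊕ Fin n → VV n
  | Sum.inl i => (Pi.single i 1, Pi.single i 1)
  | Sum.inr i => (Pi.single i (1 / 2), -Pi.single i (1 / 2))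

/-- The weights. -/
def wt (ρ : ℝ) : Fin n ⊕ Fin n → ℝ
  | Sum.inl _ => 1
  | Sum.inr _ => (√ρ)⁻¹

theorem wt_nonneg (ρ : ℝ) (i : Fin n ⊕ Fin n) : 0 ≤ wt ρ i := by
  rcases i with i | i
  · exact zero_le_one
  · exact inv_nonneg.2 (Real.sqrt_nonneg _)

theorem mid_inl (i : Fin n) : mid (ep (Sum.inl i) : VV n) = Pi.single i 1 := by
  funext j
  simp only [mid, ep, Pi.smul_apply, Pi.add_apply, smul_eq_mul]
  ring

theorem mid_inr (i : Fin n) : mid (ep (Sum.inr i) : VV n) = 0 := by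
  funext j
  simp [mid, ep]

theorem dif_inl (i : Fin n) : dif (ep (Sum.inl i) : VV n) = 0 := by
  funext j
  simp [dif, ep]

theorem dif_inr (i : Fin n) : dif (ep (Sum.inr i) : VV n) = Pi.single i 1 := by
  funext j
  simp only [dif, ep, Pi.sub_apply, Pi.neg_apply, Pi.single_apply]
  split_ifs <;> norm_num

theorem norm_single (i : Fin n) : ‖(Pi.single i 1 : V n)‖ = 1 := by
  simp [Pi.norm_single]

theorem mid_le (i : Fin n ⊕ Fin n) : ‖mid (ep i : VV n)‖ ≤ 1 := by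
  rcases i with i | i
  · rw [mid_inl, norm_single]
  · rw [mid_inr]; simp

theorem dif_le1 (i : Fin n ⊕ Fin n) : ‖dif (ep i : VV n)‖ ≤ 1 := by
  rcases i with i | i
  · rw [dif_inl]; simp
  · rw [dif_inr, norm_single]

theorem bf_zero (G : Matrix (Fin n) (Fin n) ℝ) (b : V n) : bf G 0 b = 0 := by
  unfold bf; simp

/-! ## The function `ρ` -/

section rho

variable {O : Set (V n)} {ε δ₁ δ₂ : ℝ} {g : MF n} {z : VV n}

theorem bf_comm0 (G : Matrix (Fin n) (Fin n) ℝ) (a : V n) : bf G a 0 = 0 := by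
  unfold bf; simp

theorem dg_zero (g : MF n) (x : V n) (i j : Fin n) : dg 0 g x i j = 0 := by
  unfold dg; simp

theorem bf_dg0 (g : MF n) (x a b : V n) : bf (dg 0 g x) a b = 0 := by
  unfold bf; simp [dg_zero]

theorem bf_dg00 (g : MF n) (w x a b : V n) : bf (dg 0 (dg w g) x) a b = 0 := bf_dg0 _ _ _ _

theorem dg_dg0 (g : MF n) (w x : V n) (i j : Fin n) : dg w (dg 0 g) x i j = 0 := by
  have h : (fun y => dg 0 g y i j) = fun _ => 0 := funext fun y => dg_zero g y i j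
  unfold dg at h ⊢
  rw [h]; simp

theorem bf_dg01 (g : MF n) (w x a b : V n) : bf (dg w (dg 0 g) x) a b = 0 := by
  unfold bf; simp [dg_dg0]

/-- The constant of `jb_rq`. -/
def cA (n : ℕ) (δ₁ δ₂ : ℝ) : ℝ := 6 * (n ^ 2 * (1 + n * δ₁ + n ^ 2 * δ₂))

/-- `ρ` is twice continuously differentiable. -/
theorem rq_c2 (hO : IsOpen O) (h : Nr O ε δ₁ δ₂ g) (hz : mid z ∈ O) : ContDiffAt ℝ 2 (rq g) z := by
  have ho : IsOpen {z : VV n | mid z ∈ O} := hO.preimage contDiff_mid.continuous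
  exact ((sm_rq h.sm z hz).contDiffAt (ho.mem_nhds hz)).of_le
    (WithTop.coe_le_coe.2 le_top)

theorem nd_le {O : Set (V n)} {g : MF n} (h : Nr O ε δ₁ δ₂ g) (hε : n * ε ≤ 1 / 2)
    (hz : mid z ∈ O) : ‖dif z‖ ≤ 3 * √(rq g z) := by
  rw [pi_norm_le_iff_of_nonneg (by positivity)]
  intro i
  rw [Real.norm_eq_abs]
  exact dif_le h hε hz i

/-- The four entries of the first derivative. -/
theorem rq_1 (hO : IsOpen O) (h : Nr O ε δ₁ δ₂ g) (hε1 : ε ≤ 1) (hδ : 0 ≤ δ₁) (hz : mid z ∈ O)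
    (i : Fin n) :
    |fderiv ℝ (rq g) z (ep (Sum.inl i))| ≤ 1 / 2 * (n ^ 2 * (n * δ₁ * ‖dif z‖ * ‖dif z‖)) ∧
    |fderiv ℝ (rq g) z (ep (Sum.inr i))| ≤ n ^ 2 * (2 * ‖dif z‖) := by
  have hd : ∀ i j, DifferentiableAt ℝ (fun x => g x i j) (mid z) := fun i j =>
    df_of hO (h.sm i j) hz
  constructor
  · rw [(rq_d hd h.sy (ep (Sum.inl i))).e, dif_inl, bf_zero, mid_inl, zero_add, abs_mul,
      abs_of_pos (by norm_num : (0 : ℝ) < 1 / 2)]
    refine mul_le_mul_of_nonneg_left ?_ (by norm_num)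
    refine bf_le (by positivity) (fun a b => ?_) _ _
    have := h.dg hz (Pi.single i 1) a b
    rwa [norm_single, one_mul] at this
  · rw [(rq_d hd h.sy (ep (Sum.inr i))).e, dif_inr, mid_inr, bf_dg0, mul_zero, add_zero]
    refine (bf_le (by norm_num) (h.le2 hε1 hz) _ _).trans (le_of_eq ?_)
    rw [norm_single]; ring

/-- The four entries of the second derivative. -/
theorem rq_2 (hO : IsOpen O) (h : Nr O ε δ₁ δ₂ g) (hε1 : ε ≤ 1) (hδ : 0 ≤ δ₁) (hδ' : 0 ≤ δ₂)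
    (hz : mid z ∈ O) (i j : Fin n) :
    |fderiv ℝ (fun y => fderiv ℝ (rq g) y (ep (Sum.inl i))) z (ep (Sum.inl j))| ≤
      1 / 2 * (n ^ 2 * (n ^ 2 * δ₂ * ‖dif z‖ * ‖dif z‖)) ∧
    |fderiv ℝ (fun y => fderiv ℝ (rq g) y (ep (Sum.inl i))) z (ep (Sum.inr j))| ≤
      n ^ 2 * (n * δ₁ * ‖dif z‖) ∧
    |fderiv ℝ (fun y => fderiv ℝ (rq g) y (ep (Sum.inr i))) z (ep (Sum.inl j))| ≤
      n ^ 2 * (n * δ₁ * ‖dif z‖) ∧
    |fderiv ℝ (fun y => fderiv ℝ (rq g) y (ep (Sum.inr i))) z (ep (Sum.inr j))| ≤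
      n ^ 2 * 2 := by
  have e := fun w w' => (rq_dd (z := z) hO h.sm h.sy w w' hz).e
  refine ⟨?_, ?_, ?_, ?_⟩
  · rw [e, dif_inl, dif_inl, mid_inl, mid_inl, bf_zero, bf_zero, bf_zero, zero_add, zero_add,
      zero_add, abs_mul, abs_of_pos (by norm_num : (0 : ℝ) < 1 / 2)]
    refine mul_le_mul_of_nonneg_left ?_ (by norm_num)
    refine bf_le (by positivity) (fun a b => ?_) _ _
    have := h.dg2 hO hz (Pi.single i 1) (Pi.single j 1) a b
    rwa [norm_single, norm_single, one_mul, one_mul] at this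
  · rw [e, dif_inl, dif_inr, mid_inl, mid_inr, bf_zero, bf_zero, bf_dg00, zero_add, mul_zero,
      add_zero, zero_add]
    refine (bf_le (c := n * δ₁) (by positivity) (fun a b => ?_) _ _).trans (le_of_eq ?_)
    · have := h.dg hz (Pi.single i 1) a b
      rwa [norm_single, one_mul] at this
    · rw [norm_single]; ring
  · rw [e, dif_inl, dif_inr, mid_inl, mid_inr, bf_comm0, bf_zero, bf_dg01, zero_add, mul_zero,
      add_zero, add_zero]
    refine (bf_le (c := n * δ₁) (by positivity) (fun a b => ?_) _ _).trans (le_of_eq ?_)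
    · have := h.dg hz (Pi.single j 1) a b
      rwa [norm_single, one_mul] at this
    · rw [norm_single]; ring
  · rw [e, dif_inr, dif_inr, mid_inr, mid_inr, bf_dg0, bf_dg0, bf_dg00, add_zero, mul_zero,
      add_zero, add_zero]
    refine (bf_le (by norm_num) (h.le2 hε1 hz) _ _).trans (le_of_eq ?_)
    rw [norm_single, norm_single]; ring

/-- **`ρ` in the natural scale.** -/
theorem jb_rq (hO : IsOpen O) (h : Nr O ε δ₁ δ₂ g) (hε : n * ε ≤ 1 / 2) (hε1 : ε ≤ 1) (hδ : 0 ≤ δ₁)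
    (hδ' : 0 ≤ δ₂) (hz : mid z ∈ O) (h0 : 0 < rq g z) :
    JB ep (wt (rq g z)) (rq g) (cA n δ₁ δ₂ * rq g z) (cA n δ₁ δ₂ * rq g z) z := by
  have hq := nd_le h hε hz
  have hq0 := norm_nonneg (dif z)
  have hs : 0 < √(rq g z) := Real.sqrt_pos.2 h0
  have hss : √(rq g z) * √(rq g z) = rq g z := Real.mul_self_sqrt h0.le
  have e1 : rq g z * (√(rq g z))⁻¹ = √(rq g z) := by
    rw [← div_eq_mul_inv, div_eq_iff hs.ne', hss]
  have e2 : rq g z * ((√(rq g z))⁻¹ * (√(rq g z))⁻¹) = 1 := by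
    rw [← mul_assoc, e1, mul_inv_cancel₀ hs.ne']
  have hqq : ‖dif z‖ * ‖dif z‖ ≤ 9 * rq g z := by
    rw [← hss]; nlinarith
  have hn : (0 : ℝ) ≤ n := Nat.cast_nonneg n
  have p1 : 0 ≤ (n : ℝ) ^ 2 * (n * δ₁) := by positivity
  have p2 : 0 ≤ (n : ℝ) ^ 2 * (n ^ 2 * δ₂) := by positivity
  have p0 : 0 ≤ (n : ℝ) ^ 2 := by positivity
  refine ⟨rq_c2 hO h hz, ?_, ?_⟩
  · rintro (i | i)
    · refine (rq_1 hO h hε1 hδ hz i).1.trans ?_
      simp only [wt, cA]
      nlinarith [mul_le_mul_of_nonneg_left hqq p1, mul_nonneg p0 h0.le, mul_nonneg p2 h0.le,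
        mul_nonneg p1 h0.le]
    · refine (rq_1 hO h hε1 hδ hz i).2.trans ?_
      simp only [wt]
      rw [mul_assoc (cA n δ₁ δ₂), e1]
      unfold cA
      nlinarith [mul_le_mul_of_nonneg_left hq p0, mul_nonneg p0 hs.le, mul_nonneg p2 hs.le,
        mul_nonneg p1 hs.le]
  · rintro (i | i) (j | j)
    · refine (rq_2 hO h hε1 hδ hδ' hz i j).1.trans ?_
      simp only [wt, cA]
      nlinarith [mul_le_mul_of_nonneg_left hqq p2, mul_nonneg p0 h0.le, mul_nonneg p2 h0.le,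
        mul_nonneg p1 h0.le]
    · refine (rq_2 hO h hε1 hδ hδ' hz i j).2.1.trans ?_
      simp only [wt]
      rw [one_mul, mul_assoc (cA n δ₁ δ₂), e1]
      unfold cA
      nlinarith [mul_le_mul_of_nonneg_left hq p1, mul_nonneg p0 hs.le, mul_nonneg p2 hs.le,
        mul_nonneg p1 hs.le]
    · refine (rq_2 hO h hε1 hδ hδ' hz i j).2.2.1.trans ?_
      simp only [wt]
      rw [mul_one, mul_assoc (cA n δ₁ δ₂), e1]
      unfold cA
      nlinarith [mul_le_mul_of_nonneg_left hq p1, mul_nonneg p0 hs.le, mul_nonneg p2 hs.le,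
        mul_nonneg p1 hs.le]
    · refine (rq_2 hO h hε1 hδ hδ' hz i j).2.2.2.trans ?_
      simp only [wt]
      rw [mul_assoc (cA n δ₁ δ₂), e2, mul_one]
      unfold cA
      nlinarith [p0, p1, p2]

end rho

/-! ## The function `u` -/

/-- Bounds for the first and second derivatives of the level `l`. -/
structure Lb (O : Set (V n)) (L₁ L₂ : ℝ) (l : V n → ℝ) : Prop where
  sm : ContDiffOn ℝ ∞ l O
  d1 : ∀ x ∈ O, ∀ k, |pd k l x| ≤ L₁
  d2 : ∀ x ∈ O, ∀ k j, |pd k (pd j l) x| ≤ L₂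

section lvl

variable {O : Set (V n)} {L₁ L₂ : ℝ} {l : V n → ℝ} {z : VV n}

/-- The composite of the level and a linear map. -/
theorem jb_lin (hO : IsOpen O) (hl : Lb O L₁ L₂ l) (L : VV n →L[ℝ] V n)
    (hL : ∀ k, ∃ (c : ℝ) (i : Fin n), |c| ≤ 1 ∧ L (ep k) = c • Pi.single i 1)
    (hz : L z ∈ O) : JB ep (fun _ => 1) (fun z => l (L z)) L₁ L₂ z := by
  have ho : IsOpen {y : VV n | L y ∈ O} := hO.preimage L.continuous
  have hcd : ContDiffAt ℝ 2 l (L z) := ((hl.sm _ hz).contDiffAt (hO.mem_nhds hz)).of_le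
    (WithTop.coe_le_coe.2 le_top)
  have fd : ∀ (f : V n → ℝ) (y : VV n) (w : VV n), DifferentiableAt ℝ f (L y) →
      fderiv ℝ (fun z => f (L z)) y w = fderiv ℝ f (L y) (L w) := by
    intro f y w hf
    have h : HasFDerivAt (fun z : VV n => f (L z)) ((fderiv ℝ f (L y)).comp L) y :=
      HasFDerivAt.comp y hf.hasFDerivAt L.hasFDerivAt
    rw [h.fderiv]; rfl
  refine ⟨hcd.comp z L.contDiff.contDiffAt, fun k => ?_, fun k k' => ?_⟩
  · obtain ⟨c, i, hc, e⟩ := hL k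
    rw [fd l z _ (df_of hO hl.sm hz), e, map_smul, smul_eq_mul, abs_mul, mul_one]
    have h1 := hl.d1 _ hz i
    have h2 : 0 ≤ L₁ := (abs_nonneg _).trans h1
    calc |c| * |fderiv ℝ l (L z) (Pi.single i 1)| ≤ 1 * L₁ :=
          mul_le_mul hc h1 (abs_nonneg _) zero_le_one
      _ = L₁ := one_mul _
  · obtain ⟨c, i, hc, e⟩ := hL k
    obtain ⟨c', i', hc', e'⟩ := hL k'
    have h1 : (fun y => fderiv ℝ (fun z => l (L z)) y (ep k)) =ᶠ[𝓝 z]
        fun y => (fun x => c * pd i l x) (L y) := by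
      filter_upwards [ho.mem_nhds hz] with y hy
      rw [fd l y _ (df_of hO hl.sm hy), e, map_smul, smul_eq_mul]
      rfl
    have hd : DifferentiableAt ℝ (pd i l) (L z) := df_of hO (sm_pd hO hl.sm i) hz
    rw [h1.fderiv_eq, fd _ z _ (hd.const_mul c), fderiv_const_mul hd, e']
    rw [_root_.smul_apply, map_smul, smul_eq_mul, smul_eq_mul, ← mul_assoc, abs_mul, abs_mul,
      mul_one, mul_one]
    have h1 := hl.d2 _ hz i' i
    have h2 : 0 ≤ L₂ := (abs_nonneg _).trans h1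
    have h3 : |c| * |c'| ≤ 1 := by
      calc |c| * |c'| ≤ 1 * 1 := mul_le_mul hc hc' (abs_nonneg _) zero_le_one
        _ = 1 := one_mul _
    calc |c| * |c'| * |fderiv ℝ (pd i l) (L z) (Pi.single i' 1)| ≤ 1 * L₂ :=
          mul_le_mul h3 h1 (abs_nonneg _) zero_le_one
      _ = L₂ := one_mul _

theorem jb_fst (hO : IsOpen O) (hl : Lb O L₁ L₂ l) (hz : z.1 ∈ O) :
    JB ep (fun _ => 1) (fun z => l z.1) L₁ L₂ z := by
  refine jb_lin hO hl (ContinuousLinearMap.fst ℝ (V n) (V n)) (fun k => ?_) hz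
  rcases k with i | i
  · exact ⟨1, i, by simp, by simp [ep]⟩
  · refine ⟨1 / 2, i, by rw [abs_of_pos (by norm_num)]; norm_num, ?_⟩
    funext j
    simp [ep, Pi.single_apply]

theorem jb_snd (hO : IsOpen O) (hl : Lb O L₁ L₂ l) (hz : z.2 ∈ O) :
    JB ep (fun _ => 1) (fun z => l z.2) L₁ L₂ z := by
  refine jb_lin hO hl (ContinuousLinearMap.snd ℝ (V n) (V n)) (fun k => ?_) hz
  rcases k with i | i
  · exact ⟨1, i, by simp, by simp [ep]⟩
  · refine ⟨-(1 / 2), i, by rw [abs_neg, abs_of_pos (by norm_num)]; norm_num, ?_⟩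
    funext j
    simp only [ep, ContinuousLinearMap.coe_snd', Pi.neg_apply, Pi.smul_apply, Pi.single_apply,
      smul_eq_mul]
    split_ifs <;> norm_num

theorem jb_mid (hO : IsOpen O) (hl : Lb O L₁ L₂ l) (hz : mid z ∈ O) :
    JB ep (fun _ => 1) (fun z => l (mid z)) L₁ L₂ z := by
  refine jb_lin hO hl (midL n) (fun k => ?_) hz
  rcases k with i | i
  · exact ⟨1, i, by simp, by rw [midL_apply, mid_inl, one_smul]⟩
  · exact ⟨0, i, by simp, by rw [midL_apply, mid_inr, zero_smul]⟩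

/-- `u = l(x) + l(y) + 2 χ(2ρ) μ(l(p))`. -/
def uc (χ μ : ℝ → ℝ) (l : V n → ℝ) (g : MF n) (z : VV n) : ℝ :=
  l z.1 + l z.2 + 2 * (χ (2 * rq g z) * μ (l (mid z)))

/-- `u = l(x) + l(y) + 2 μ(l(p))`. -/
def u1 (μ : ℝ → ℝ) (l : V n → ℝ) (z : VV n) : ℝ := l z.1 + l z.2 + 2 * μ (l (mid z))

theorem uc_near {χ μ : ℝ → ℝ} {g : MF n} (hc : ContinuousAt (rq g) z)
    (hχ : ∀ᶠ t in 𝓝 (2 * rq g z), χ t = 1) : u1 μ l =ᶠ[𝓝 z] uc χ μ l g := by
  have h : ContinuousAt (fun y => 2 * rq g y) z := continuousAt_const.mul hc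
  filter_upwards [h.eventually hχ] with y hy
  unfold uc u1
  rw [hy, one_mul]

theorem uc_far {χ μ : ℝ → ℝ} {g : MF n} (hc : ContinuousAt (rq g) z)
    (hχ : ∀ᶠ t in 𝓝 (2 * rq g z), χ t = 0) : u1 (fun _ => 0) l =ᶠ[𝓝 z] uc χ μ l g := by
  have h : ContinuousAt (fun y => 2 * rq g y) z := continuousAt_const.mul hc
  filter_upwards [h.eventually hχ] with y hy
  unfold uc u1
  rw [hy]; ring

variable {μ : ℝ → ℝ} {M₁ M₂ : ℝ}

theorem jb_mu (hO : IsOpen O) (hl : Lb O L₁ L₂ l) (hz : mid z ∈ O)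
    (hμ : ContDiffAt ℝ 2 μ (l (mid z))) (h1 : |deriv μ (l (mid z))| ≤ M₁)
    (h2 : |deriv (deriv μ) (l (mid z))| ≤ M₂) :
    JB ep (fun _ => 1) (fun z => μ (l (mid z))) (M₁ * L₁) (M₂ * L₁ ^ 2 + M₁ * L₂) z := by
  have hev : ∀ᶠ t in 𝓝 (l (mid z)), HasDerivAt μ (deriv μ t) t := by
    filter_upwards [ev_diff hμ] with t ht
    exact ht.hasDerivAt
  have hd : DifferentiableAt ℝ (deriv μ) (l (mid z)) := by
    have h1 := (hμ.fderiv_right (m := 1) (by norm_num)).differentiableAt (by norm_num)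
    have h2 : deriv μ = fun t => fderiv ℝ μ t 1 := funext fun t => fderiv_apply_one_eq_deriv.symm
    rw [h2]
    exact h1.clm_apply (differentiableAt_const _)
  exact (jb_mid hO hl hz).comp hμ hev hd.hasDerivAt h1 h2

/-- **`u` near the diagonal, also on the diagonal.** -/
theorem jb_u1 (hO : IsOpen O) (hl : Lb O L₁ L₂ l) (hx : z.1 ∈ O) (hy : z.2 ∈ O) (hz : mid z ∈ O)
    (hμ : ContDiffAt ℝ 2 μ (l (mid z))) (h1 : |deriv μ (l (mid z))| ≤ M₁)
    (h2 : |deriv (deriv μ) (l (mid z))| ≤ M₂) :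
    JB ep (fun _ => 1) (u1 μ l) (2 * (1 + M₁) * L₁) (2 * ((1 + M₁) * L₂ + M₂ * L₁ ^ 2)) z := by
  have h := ((jb_fst hO hl hx).add (jb_snd hO hl hy)).add ((jb_mu hO hl hz hμ h1 h2).cmul 2)
  have e1 : L₁ + L₁ + |(2 : ℝ)| * (M₁ * L₁) = 2 * (1 + M₁) * L₁ := by
    rw [abs_of_pos (by norm_num)]; ring
  have e2 : L₂ + L₂ + |(2 : ℝ)| * (M₂ * L₁ ^ 2 + M₁ * L₂) =
      2 * ((1 + M₁) * L₂ + M₂ * L₁ ^ 2) := by
    rw [abs_of_pos (by norm_num)]; ring
  rw [e1, e2] at h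
  exact h

/-- The derivative of `u` in the directions `D_q` is small. -/
theorem u1_q (hO : IsOpen O) (hc : Convex ℝ O) (hl : Lb O L₁ L₂ l) (hL : 0 ≤ L₂) (hx : z.1 ∈ O)
    (hy : z.2 ∈ O) (hz : mid z ∈ O) (hμ : DifferentiableAt ℝ μ (l (mid z))) (i : Fin n) :
    |fderiv ℝ (u1 μ l) z (ep (Sum.inr i))| ≤ n / 2 * L₂ * ‖dif z‖ := by
  have d1 : DifferentiableAt ℝ (fun z : VV n => l z.1) z :=
    (df_of hO hl.sm hx).comp z differentiableAt_fst
  have d2 : DifferentiableAt ℝ (fun z : VV n => l z.2) z :=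
    (df_of hO hl.sm hy).comp z differentiableAt_snd
  have f1 : fderiv ℝ (fun z : VV n => l z.1) z (ep (Sum.inr i)) = 1 / 2 * pd i l z.1 := by
    rw [show (ep (Sum.inr i) : VV n) = (Pi.single i (1 / 2), -Pi.single i (1 / 2)) from rfl,
      fd_fst (df_of hO hl.sm hx)]
    have : (Pi.single i (1 / 2) : V n) = (1 / 2 : ℝ) • Pi.single i 1 := by
      funext j; simp [Pi.single_apply]
    rw [this, map_smul, smul_eq_mul]; rfl
  have f2 : fderiv ℝ (fun z : VV n => l z.2) z (ep (Sum.inr i)) = -(1 / 2 * pd i l z.2) := by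
    rw [show (ep (Sum.inr i) : VV n) = (Pi.single i (1 / 2), -Pi.single i (1 / 2)) from rfl,
      fd_snd (df_of hO hl.sm hy)]
    have : (-Pi.single i (1 / 2) : V n) = (-(1 / 2) : ℝ) • Pi.single i 1 := by
      funext j
      simp only [Pi.neg_apply, Pi.smul_apply, Pi.single_apply, smul_eq_mul]
      split_ifs <;> norm_num
    rw [this, map_smul, smul_eq_mul]
    show -(1 / 2) * pd i l z.2 = _
    ring
  have h3 := Hv.mid (g := fun x => μ (l x)) (ep (Sum.inr i)) z (hμ.comp (mid z) (df_of hO hl.sm hz))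
  have f3 : fderiv ℝ (fun z : VV n => μ (l (mid z))) z (ep (Sum.inr i)) = 0 := by
    rw [h3.e, mid_inr, map_zero]
  have e : fderiv ℝ (u1 μ l) z (ep (Sum.inr i)) = 1 / 2 * (pd i l z.1 - pd i l z.2) := by
    unfold u1
    rw [fderiv_fun_add (d1.fun_add d2) (h3.d.const_mul 2), fderiv_fun_add d1 d2,
      fderiv_const_mul h3.d]
    simp only [_root_.add_apply, _root_.smul_apply, smul_eq_mul, f1, f2, f3]
    ring
  rw [e, abs_mul, abs_of_pos (by norm_num : (0 : ℝ) < 1 / 2)]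
  have h4 := mv_le hO hc (sm_pd hO hl.sm i) hL (fun x hx k => hl.d2 x hx k i) hx hy
  have h5 : z.1 - z.2 = dif z := rfl
  rw [h5] at h4
  linarith

end lvl

/-! ## The cuts -/

/-- All bounds of the data by `D`; near the diagonal. -/
structure Cd (D : ℝ) (O : Set (V n)) (g : MF n) (l : V n → ℝ) (μ : ℝ → ℝ) (u : VV n → ℝ)
    (z : VV n) : Prop where
  op : IsOpen O
  gn : Nr O (1 / (2 * (n + 1))) D D g
  lb : Lb O D D l
  hx : z.1 ∈ O
  hy : z.2 ∈ O
  hm : mid z ∈ O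
  ρ1 : rq g z ≤ 1
  μs : ContDiffAt ℝ 2 μ (l (mid z))
  μ1 : |deriv μ (l (mid z))| ≤ D
  μ2 : |deriv (deriv μ) (l (mid z))| ≤ D
  uu : u1 μ l =ᶠ[𝓝 z] u

section cuts

variable {D : ℝ} {O : Set (V n)} {g : MF n} {l : V n → ℝ} {μ : ℝ → ℝ} {u : VV n → ℝ} {z : VV n}

theorem JB.le {E : Type*} [NormedAddCommGroup E] [NormedSpace ℝ E] {ι : Type*} {e : ι → E}
    {s : ι → ℝ} {f : E → ℝ} {a b a' b' : ℝ} {z : E} (h : JB e s f a b z) (hs : ∀ i, 0 ≤ s i)
    (h1 : a ≤ a') (h2 : b ≤ b') : JB e s f a' b' z := h.mono hs h1 h2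

/-- A common constant. -/
def cQ (n : ℕ) (D : ℝ) : ℝ := 2 * (1 + D) * D + 2 * ((1 + D) * D + D * D ^ 2) + cA n D D

theorem cA_nn (hD : 0 ≤ D) : 0 ≤ cA n D D := by unfold cA; positivity

theorem cQ_nn (hD : 0 ≤ D) : 0 ≤ cQ n D := by
  have := cA_nn (n := n) hD
  unfold cQ; positivity

/-- The diagonal is included: `u` with the weights `1`. -/
theorem Cd.ju1 (h : Cd D O g l μ u z) (hD : 0 ≤ D) :
    JB ep (fun _ => 1) u (cQ n D) (cQ n D) z := by
  have h1 := (jb_u1 h.op h.lb h.hx h.hy h.hm h.μs h.μ1 h.μ2).congr h.uu.symm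
  have h3 := cA_nn (n := n) hD
  refine h1.le (fun _ => zero_le_one) ?_ ?_ <;> unfold cQ
  · have : 0 ≤ 2 * ((1 + D) * D + D * D ^ 2) := by positivity
    linarith
  · have : 0 ≤ 2 * (1 + D) * D := by positivity
    linarith

theorem Cd.ju (h : Cd D O g l μ u z) (hD : 0 ≤ D) (h0 : 0 < rq g z) :
    JB ep (wt (rq g z)) u (cQ n D) (cQ n D) z := by
  have h1 := (h.ju1 hD).mono_s (Λ := 1) (s' := wt (rq g z)) (cQ_nn hD) (cQ_nn hD)
    (fun _ => zero_le_one) (fun i => by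
      rcases i with i | i
      · simp [wt]
      · rw [one_mul]
        refine (one_le_inv₀ (Real.sqrt_pos.2 h0)).2 ?_
        rw [Real.sqrt_le_one]
        exact h.ρ1)
  simpa using h1

theorem Cd.jr (h : Cd D O g l μ u z) (hD : 0 ≤ D) (h0 : 0 < rq g z) :
    JB ep (wt (rq g z)) (rq g) (cQ n D * rq g z) (cQ n D * rq g z) z := by
  have hn : (0 : ℝ) ≤ n := Nat.cast_nonneg n
  have e1 : (n : ℝ) * (1 / (2 * (n + 1))) ≤ 1 / 2 := by
    rw [mul_one_div, div_le_div_iff₀ (by positivity) (by norm_num)]; linarith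
  have e2 : 1 / (2 * ((n : ℝ) + 1)) ≤ 1 := by
    rw [div_le_one (by positivity)]; linarith
  have h1 := jb_rq h.op h.gn e1 e2 hD hD h.hm h0
  have h2 : cA n D D ≤ cQ n D := by
    have h4 : 0 ≤ 2 * ((1 + D) * D + D * D ^ 2) := by positivity
    have h5 : 0 ≤ 2 * (1 + D) * D := by positivity
    unfold cQ; linarith
  have h3 := mul_le_mul_of_nonneg_right h2 h0.le
  exact h1.le (wt_nonneg _) h3 h3

/-- The constant for the cuts. -/
def cC (n : ℕ) (D : ℝ) : ℝ :=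
  2 * cQ n D + cQ n D * D +
    2 * (cQ n D + cQ n D + D * cQ n D) +
    2 * ((cQ n D + cQ n D + D * cQ n D) ^ 2 + (cQ n D + (cQ n D ^ 2 + cQ n D) +
      ((D + D ^ 2) * cQ n D ^ 2 + D * cQ n D))) +
    100 * (3 * cQ n D + cQ n D) +
    100 * ((cQ n D + cQ n D) ^ 2 + (cQ n D + (cQ n D ^ 2 + cQ n D)) + 2 * (cQ n D ^ 2 + cQ n D) +
      2 * (2 * cQ n D) * (3 * cQ n D + cQ n D) / Real.log 2)

theorem cC_nn (hD : 0 ≤ D) : 0 ≤ cC n D := by
  have h1 := cQ_nn (n := n) hD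
  have h2 : 0 < Real.log 2 := Real.log_pos (by norm_num)
  unfold cC; positivity

/-- **The cut `r`.** -/
theorem Cd.tauR {c₀ : ℝ} (h : Cd D O g l μ u z) (hD : 0 ≤ D) (hc : 0 < c₀) (h0 : 0 < rq g z)
    (hz : tauR c₀ (rq g) z ≤ 1) : JB ep (wt (rq g z)) (EP.tauR c₀ (rq g)) (cC n D) (cC n D) z := by
  have h1 := cQ_nn (n := n) hD
  have h2 : 0 < Real.log 2 := Real.log_pos (by norm_num)
  have h3 : 2 * cQ n D ≤ cC n D := by
    unfold cC
    simp only [add_assoc]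
    exact le_add_of_nonneg_right (by positivity)
  exact (jb_tauR (wt_nonneg _) hc h1 (h.jr hD h0) hz).le (wt_nonneg _) h3 h3

/-- **The cuts in `u`**, also on the diagonal. -/
theorem Cd.tauU1 {u₀ w₀ : ℝ} (h : Cd D O g l μ u z) (hD : 0 ≤ D) (hw : 0 < w₀) (hw1 : 1 / w₀ ≤ D) :
    JB ep (fun _ => 1) (EP.tauU u₀ w₀ u) (cC n D) (cC n D) z := by
  have h1 := cQ_nn (n := n) hD
  have h2 : 0 < Real.log 2 := Real.log_pos (by norm_num)
  have h3 : cQ n D / w₀ ≤ cC n D := by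
    have h4 : cQ n D / w₀ ≤ cQ n D * D := by
      rw [div_eq_mul_one_div]
      exact mul_le_mul_of_nonneg_left hw1 h1
    refine h4.trans ?_
    unfold cC
    have h5 : 0 ≤ 2 * cQ n D := by positivity
    simp only [add_assoc]
    refine le_add_of_nonneg_of_le h5 (le_add_of_nonneg_right (by positivity))
  exact (jb_tauU hw (h.ju1 hD)).le (fun _ => zero_le_one) h3 h3

/-- **The cuts in `u`.** -/
theorem Cd.tauU {u₀ w₀ : ℝ} (h : Cd D O g l μ u z) (hD : 0 ≤ D) (hw : 0 < w₀) (hw1 : 1 / w₀ ≤ D)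
    (h0 : 0 < rq g z) : JB ep (wt (rq g z)) (EP.tauU u₀ w₀ u) (cC n D) (cC n D) z := by
  have h1 := (h.tauU1 (u₀ := u₀) hD hw hw1).mono_s (Λ := 1) (s' := wt (rq g z)) (cC_nn hD)
    (cC_nn hD) (fun _ => zero_le_one) (fun i => by
      rcases i with i | i
      · simp [wt]
      · rw [one_mul]
        refine (one_le_inv₀ (Real.sqrt_pos.2 h0)).2 ?_
        rw [Real.sqrt_le_one]
        exact h.ρ1)
  simpa using h1

/-- **The cut `t`.** -/
theorem Cd.tauT {K : ℝ → ℝ} {c : ℝ} (h : Cd D O g l μ u z) (hD : 0 ≤ D) (hc : 0 < c)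
    (h0 : 0 < rq g z) (hK : ContDiffAt ℝ 2 K (u z)) (K0 : 0 < K (u z))
    (K1 : |deriv K (u z)| ≤ D * K (u z)) (K2 : |deriv (deriv K) (u z)| ≤ D * K (u z))
    (hz : tauT c K u (rq g) z ≤ 1) :
    JB ep (wt (rq g z)) (EP.tauT c K u (rq g)) (cC n D) (cC n D) z := by
  have h1 := cQ_nn (n := n) hD
  have h2 : 0 < Real.log 2 := Real.log_pos (by norm_num)
  refine (jb_tauT (wt_nonneg _) hc h0 h1 h1 h1 hD (h.ju hD h0) (h.jr hD h0) hK K0 K1 K2 hz).le
    (wt_nonneg _) ?_ ?_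
  · unfold cC
    have h5 : 0 ≤ 2 * cQ n D + cQ n D * D := by positivity
    rw [add_assoc (2 * cQ n D + cQ n D * D + _), add_assoc (2 * cQ n D + cQ n D * D + _),
      add_assoc (2 * cQ n D + cQ n D * D)]
    refine le_add_of_nonneg_of_le h5 (le_add_of_nonneg_right (by positivity))
  · unfold cC
    have h5 : 0 ≤ 2 * cQ n D + cQ n D * D + 2 * (cQ n D + cQ n D + D * cQ n D) := by positivity
    rw [add_assoc _ (100 * (3 * cQ n D + cQ n D)), add_assoc
      (2 * cQ n D + cQ n D * D + 2 * (cQ n D + cQ n D + D * cQ n D))]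
    refine le_add_of_nonneg_of_le h5 (le_add_of_nonneg_right (by positivity))

/-- **The core cut.** -/
theorem Cd.tauC {B : ℝ} (h : Cd D O g l μ u z) (hD : 0 ≤ D) (hB : 0 < B) (h0 : 0 < rq g z)
    (hm : 1 ≤ mEB B u z) (hz : tauC B u (rq g) z ≤ 1) :
    JB ep (wt (rq g z)) (EP.tauC B u (rq g)) (cC n D / Real.log (1 + mEB B u z))
      (cC n D / Real.log (1 + mEB B u z)) z := by
  have h1 := cQ_nn (n := n) hD
  have h2 : 0 < Real.log 2 := Real.log_pos (by norm_num)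
  have hL : Real.log 2 ≤ Real.log (1 + mEB B u z) := Real.log_le_log (by norm_num) (by linarith)
  have hL0 : 0 < Real.log (1 + mEB B u z) := h2.trans_le hL
  refine (jb_tauC (wt_nonneg _) hB h2 h0 h1 h1 (h.ju hD h0) (h.jr hD h0) hL hz).le
    (wt_nonneg _) ?_ ?_
  · refine div_le_div_of_nonneg_right ?_ hL0.le
    unfold cC
    have h5 : 0 ≤ 2 * cQ n D + cQ n D * D +
      2 * (cQ n D + cQ n D + D * cQ n D) +
      2 * ((cQ n D + cQ n D + D * cQ n D) ^ 2 + (cQ n D + (cQ n D ^ 2 + cQ n D) +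
        ((D + D ^ 2) * cQ n D ^ 2 + D * cQ n D))) := by positivity
    rw [add_assoc (_ + _ + _ + _)]
    refine le_add_of_nonneg_of_le h5 (le_add_of_nonneg_right (by positivity))
  · refine div_le_div_of_nonneg_right ?_ hL0.le
    unfold cC
    exact le_add_of_nonneg_left (by positivity)

end cuts

end Vale.Agent.P088.R2.H932.EP
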