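import Vale.Agent.P088.R2.H932.EP.CutI

/-!
# P088: the core cut with a fixed ratio

`m = 2 e^u ρ`, `m₁ = (E^(-.26) + c)⁻¹` (a smooth form of `min (E^.26, 1/c)`, `c = σ / (C₁ R)`);
`τ = (log (1 + m / m₁) - log 2) / log Λ`: `τ ≤ 0` iff `m ≤ m₁`, `τ ≥ 1` iff `m ≥ (2 Λ - 1) m₁`. All
derivatives are `O(1 / log Λ)` in the natural scale.
-/

open Set Filter
open scoped Topology ContDiff Matrix

noncomputable section

namespace Vale.Agent.P088.R2.H932.EP

section gen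

variable {E : Type*} [NormedAddCommGroup E] [NormedSpace ℝ E] {ι : Type*}
variable {e : ι → E} {s : ι → ℝ} {u ρ : E → ℝ} {a b A c Λ : ℝ} {z : E}

/-- `m₁ = (e^(-.26 u) + c)⁻¹`. -/
def m1 (c u : ℝ) : ℝ := (Real.exp (-(26 / 100 * u)) + c)⁻¹

theorem m1_pos (hc : 0 ≤ c) (u : ℝ) : 0 < m1 c u := by
  have := Real.exp_pos (-(26 / 100 * u))
  unfold m1; positivity

theorem m1_le (hc : 0 ≤ c) (u : ℝ) : m1 c u ≤ Real.exp (26 / 100 * u) := by
  have h := Real.exp_pos (-(26 / 100 * u))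
  unfold m1
  rw [← inv_inv (Real.exp (26 / 100 * u)), ← Real.exp_neg]
  exact inv_anti₀ h (by linarith)

theorem m1_le' (hc : 0 < c) (u : ℝ) : m1 c u ≤ c⁻¹ := by
  have h := Real.exp_pos (-(26 / 100 * u))
  unfold m1
  exact inv_anti₀ hc (by linarith)

/-- `m₁ ≥ min / 2`. -/
theorem le_m1 (hc : 0 < c) (u : ℝ) : 1 / 2 * min (Real.exp (26 / 100 * u)) c⁻¹ ≤ m1 c u := by
  have h := Real.exp_pos (26 / 100 * u)
  have h3 : 0 < min (Real.exp (26 / 100 * u)) c⁻¹ := lt_min h (inv_pos.2 hc)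
  unfold m1
  rw [le_inv_comm₀ (by positivity) (by positivity), Real.exp_neg]
  have h1 : (Real.exp (26 / 100 * u))⁻¹ ≤ (min (Real.exp (26 / 100 * u)) c⁻¹)⁻¹ :=
    inv_anti₀ h3 (min_le_left _ _)
  have h2 : c ≤ (min (Real.exp (26 / 100 * u)) c⁻¹)⁻¹ := by
    rw [le_inv_comm₀ hc h3]
    exact min_le_right _ _
  have h4 : (1 / 2 * min (Real.exp (26 / 100 * u)) c⁻¹)⁻¹ =
      2 * (min (Real.exp (26 / 100 * u)) c⁻¹)⁻¹ := by
    rw [mul_inv]; norm_num
  rw [h4]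
  linarith

/-- The core cut variable, smooth also at `ρ = 0`. -/
def tauK (Λ c : ℝ) (u ρ : E → ℝ) (z : E) : ℝ :=
  (Real.log (1 + 2 * Real.exp (u z) * ρ z / m1 c (u z)) - Real.log 2) / Real.log Λ

omit [NormedAddCommGroup E] [NormedSpace ℝ E] in
theorem tauK_le (hΛ : 1 < Λ) (hc : 0 ≤ c) (h0 : 0 ≤ ρ z) :
    tauK Λ c u ρ z ≤ 0 ↔ 2 * Real.exp (u z) * ρ z ≤ m1 c (u z) := by
  have hm := m1_pos hc (u z)
  have h1 : 0 ≤ 2 * Real.exp (u z) * ρ z / m1 c (u z) := by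
    have := Real.exp_pos (u z)
    positivity
  unfold tauK
  rw [div_nonpos_iff]
  have hL := Real.log_pos hΛ
  have e1 : Real.log (1 + 2 * Real.exp (u z) * ρ z / m1 c (u z)) - Real.log 2 ≤ 0 ↔
      2 * Real.exp (u z) * ρ z ≤ m1 c (u z) := by
    rw [sub_nonpos, Real.log_le_log_iff (by linarith) (by norm_num), ← div_le_one hm]
    constructor <;> intro h <;> linarith
  rw [← e1]
  constructor
  · rintro (⟨_, h⟩ | ⟨h, _⟩)
    · linarith
    · exact h
  · intro h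
    exact Or.inr ⟨h, hL.le⟩

omit [NormedAddCommGroup E] [NormedSpace ℝ E] in
theorem le_tauK (hΛ : 1 < Λ) (hc : 0 ≤ c) (h0 : 0 ≤ ρ z) :
    1 ≤ tauK Λ c u ρ z ↔ (2 * Λ - 1) * m1 c (u z) ≤ 2 * Real.exp (u z) * ρ z := by
  have hm := m1_pos hc (u z)
  have h1 : 0 ≤ 2 * Real.exp (u z) * ρ z / m1 c (u z) := by
    have := Real.exp_pos (u z)
    positivity
  unfold tauK
  have hL := Real.log_pos hΛ
  rw [one_le_div hL, le_sub_iff_add_le, ← Real.log_mul (by linarith) (by norm_num),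
    Real.log_le_log_iff (by linarith) (by linarith), ← le_div_iff₀ hm]
  constructor <;> intro h <;> linarith

omit [NormedAddCommGroup E] [NormedSpace ℝ E] in
theorem tauK_eq (h0 : 0 < ρ z) (hc : 0 < c) : tauK Λ c u ρ z =
    1 / Real.log Λ * (Real.log (2 * Real.exp (Real.log (ρ z) + 74 / 100 * u z +
      Real.log (c * Real.exp (26 / 100 * u z) + 1)) + 1) + -Real.log 2) := by
  have h1 : 0 < c * Real.exp (26 / 100 * u z) + 1 := by
    have := Real.exp_pos (26 / 100 * u z)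
    positivity
  have e1 : Real.exp (u z) = Real.exp (74 / 100 * u z) * Real.exp (26 / 100 * u z) := by
    rw [← Real.exp_add]; congr 1; ring
  have e2 : 2 * Real.exp (u z) * ρ z / m1 c (u z) = 2 * Real.exp (Real.log (ρ z) +
      74 / 100 * u z + Real.log (c * Real.exp (26 / 100 * u z) + 1)) := by
    rw [Real.exp_add, Real.exp_add, Real.exp_log h0, Real.exp_log h1, m1, div_inv_eq_mul, e1,
      Real.exp_neg]
    have := (Real.exp_pos (26 / 100 * u z)).ne'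
    field_simp
    ring
  unfold tauK
  rw [e2, add_comm (1 : ℝ)]
  ring

/-- **The core cut with a fixed ratio `Λ`**: all derivatives are `O(1 / log Λ)`. -/
theorem jb_tauK (hs : ∀ i, 0 ≤ s i) (hΛ : 1 < Λ) (hc : 0 < c) (h0 : 0 < ρ z)
    (hu : JB e s u a b z) (hρ : JB e s ρ (A * ρ z) (A * ρ z) z) :
    JB e s (tauK Λ c u ρ) ((a + A) / Real.log Λ)
      (((a + A) ^ 2 + (a ^ 2 + b + A ^ 2 + A)) / Real.log Λ) z := by
  have hL := Real.log_pos hΛ
  have h1 := ((hρ.log h0).add (hu.cmul (74 / 100))).add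
    ((hu.cmul (26 / 100)).logexp (α := c) (β := 1) hc one_pos)
  have h2 := ((h1.logexp (α := 2) (β := 1) (by norm_num) (by norm_num)).addc
    (-Real.log 2)).cmul (1 / Real.log Λ)
  have h3 : JB e s (tauK Λ c u ρ) _ _ z := h2.congr (by
    filter_upwards [hρ.sm.continuousAt.eventually (lt_mem_nhds h0)] with y hy
    exact tauK_eq hy hc)
  rw [abs_of_pos (by norm_num : (0 : ℝ) < 74 / 100), abs_of_pos (by norm_num : (0 : ℝ) < 26 / 100),
    abs_of_pos (by positivity : (0 : ℝ) < 1 / Real.log Λ)] at h3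
  refine h3.mono hs (le_of_eq ?_) ?_
  · ring
  · rw [one_div, inv_mul_eq_div]
    refine div_le_div_of_nonneg_right ?_ hL.le
    nlinarith [sq_nonneg a, sq_nonneg A, sq_nonneg (a + A)]

end gen

open Vale.Agent.P088.LR Vale.Agent.P088.HY Vale.Agent.P088.R2.H961.GW Vale.Agent.P088.R2.H464.Cu

variable {n : ℕ} {D : ℝ} {O : Set (V n)} {g : MF n} {l : V n → ℝ} {μ : ℝ → ℝ} {u : VV n → ℝ}
  {z : VV n}

/-- **The core cut for the curved data.** -/
theorem Cd.tauK {Λ c : ℝ} (h : Cd D O g l μ u z) (hD : 0 ≤ D) (hΛ : 1 < Λ) (hc : 0 < c)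
    (h0 : 0 < rq g z) : JB ep (wt (rq g z)) (EP.tauK Λ c u (rq g)) (cC n D / Real.log Λ)
      (cC n D / Real.log Λ) z := by
  have h1 := cQ_nn (n := n) hD
  have h2 : 0 < Real.log 2 := Real.log_pos (by norm_num)
  have hL := Real.log_pos hΛ
  refine (jb_tauK (wt_nonneg _) hΛ hc h0 (h.ju hD h0) (h.jr hD h0)).le (wt_nonneg _) ?_ ?_
  · refine div_le_div_of_nonneg_right ?_ hL.le
    unfold cC
    have h5 : 0 ≤ cQ n D * D + 2 * (cQ n D + cQ n D + D * cQ n D) +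
      2 * ((cQ n D + cQ n D + D * cQ n D) ^ 2 + (cQ n D + (cQ n D ^ 2 + cQ n D) +
        ((D + D ^ 2) * cQ n D ^ 2 + D * cQ n D))) + 100 * (3 * cQ n D + cQ n D) +
      100 * ((cQ n D + cQ n D) ^ 2 + (cQ n D + (cQ n D ^ 2 + cQ n D)) +
        2 * (cQ n D ^ 2 + cQ n D) + 2 * (2 * cQ n D) * (3 * cQ n D + cQ n D) / Real.log 2) := by
      positivity
    linarith
  · refine div_le_div_of_nonneg_right ?_ hL.le
    unfold cC
    have h5 : 0 ≤ 2 * cQ n D + cQ n D * D + 2 * (cQ n D + cQ n D + D * cQ n D) +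
      2 * ((cQ n D + cQ n D + D * cQ n D) ^ 2 + (cQ n D + (cQ n D ^ 2 + cQ n D) +
        ((D + D ^ 2) * cQ n D ^ 2 + D * cQ n D))) + 100 * (3 * cQ n D + cQ n D) +
      100 * (2 * (2 * cQ n D) * (3 * cQ n D + cQ n D) / Real.log 2) := by positivity
    have h6 : 0 ≤ cQ n D ^ 2 := sq_nonneg _
    nlinarith

end Vale.Agent.P088.R2.H932.EP
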