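import Vale.Agent.P088.R2.H932.EP.Kk
import Vale.Agent.P088.R2.H867.EP.Var

/-!
# P088: the generic cuts `tauM`, `tauU (V ∘ u)` and the core threshold `M₁`

`M₁(u) = (e^(-.26 u) + c ξ(u))⁻¹`, where `ξ = 1` for `u ≤ u_f` and `ξ = e^(-3 (u - u_f))` for
`u ≥ u_f + 1`.
-/

open Set Filter
open scoped Topology ContDiff Matrix

noncomputable section

namespace Vale.Agent.P088.R2.H932.EP

open Vale.Agent.P088.R2.H867.EP (tauM)

section gen

variable {E : Type*} [NormedAddCommGroup E] [NormedSpace ℝ E] {ι : Type*}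
variable {e : ι → E} {s : ι → ℝ} {u ρ : E → ℝ} {a b A C D Λ : ℝ} {z : E} {M V : ℝ → ℝ}

/-- A function of `u`. -/
theorem jb_V (hs : ∀ i, 0 ≤ s i) (hu : JB e s u a b z) (hV : ContDiffAt ℝ 2 V (u z))
    (V1 : |deriv V (u z)| ≤ D) (V2 : |deriv (deriv V) (u z)| ≤ D) :
    JB e s (fun y => V (u y)) (D * a) (D * a ^ 2 + D * b) z := by
  have hev : ∀ᶠ t in 𝓝 (u z), HasDerivAt V (deriv V t) t := by
    filter_upwards [ev_diff hV] with t ht
    exact ht.hasDerivAt
  have hd : DifferentiableAt ℝ (deriv V) (u z) := by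
    have h1 := (hV.fderiv_right (m := 1) (by norm_num)).differentiableAt (by norm_num)
    have h2 : deriv V = fun t => fderiv ℝ V t 1 := funext fun t => fderiv_apply_one_eq_deriv.symm
    rw [h2]
    exact h1.clm_apply (differentiableAt_const _)
  exact (hu.comp hV hev hd.hasDerivAt V1 V2).mono hs le_rfl le_rfl

/-- **The cut `tauM`**: all derivatives are `O(1 / log Λ)`. -/
theorem jb_tauM (hs : ∀ i, 0 ≤ s i) (hΛ : 1 < Λ) (h0 : 0 < ρ z) (hu : JB e s u a b z)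
    (hρ : JB e s ρ (A * ρ z) (A * ρ z) z) (hM : ContDiffAt ℝ 2 M (u z)) (M0 : 0 < M (u z))
    (M1 : |deriv M (u z)| ≤ C * M (u z)) (M2 : |deriv (deriv M) (u z)| ≤ C * M (u z)) :
    JB e s (tauM Λ M u ρ) ((a + A + C * a) / Real.log Λ)
      (((a + A + C * a) ^ 2 + (b + (A ^ 2 + A) + ((C + C ^ 2) * a ^ 2 + C * b))) / Real.log Λ)
      z := by
  have hL := Real.log_pos hΛ
  have h1 := (jb_logm h0 hu hρ).sub (jb_logK hu hM M0 M1 M2)
  have h2 := ((h1.logexp (α := 1) (β := 1) one_pos one_pos).addc (-Real.log 2)).cmul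
    (1 / Real.log Λ)
  have hpM : ∀ᶠ y in 𝓝 z, 0 < M (u y) :=
    (hM.continuousAt.comp hu.sm.continuousAt).eventually (lt_mem_nhds M0)
  have h3 : JB e s (tauM Λ M u ρ) _ _ z := h2.congr (by
    filter_upwards [hρ.sm.continuousAt.eventually (lt_mem_nhds h0), hpM] with y k1 k2
    have hm := mm_pos (u := u) k1
    rw [Real.exp_sub, Real.exp_log hm, Real.exp_log k2]
    have e1 : 1 * (mm u ρ y / M (u y)) + 1 = 1 + 2 * Real.exp (u y) * ρ y / M (u y) := by
      unfold mm; ring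
    rw [e1]
    unfold tauM
    ring)
  rw [abs_of_pos (by positivity : (0 : ℝ) < 1 / Real.log Λ)] at h3
  exact h3.mono hs (le_of_eq (by ring)) (le_of_eq (by ring))

end gen

/-! ## The curved data -/

section cur

open Vale.Agent.P088.LR Vale.Agent.P088.HY Vale.Agent.P088.R2.H961.GW Vale.Agent.P088.R2.H464.Cu

variable {n : ℕ} {D Λ : ℝ} {O : Set (V n)} {g : MF n} {l : V n → ℝ} {μ : ℝ → ℝ} {u : VV n → ℝ}
  {z : VV n} {M F : ℝ → ℝ}

/-- **The cut `tauM` for the curved data.** -/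
theorem Cd.tauM (h : Cd D O g l μ u z) (hD : 0 ≤ D) (hΛ : 1 < Λ) (h0 : 0 < rq g z)
    (hM : ContDiffAt ℝ 2 M (u z)) (M0 : 0 < M (u z)) (M1 : |deriv M (u z)| ≤ D * M (u z))
    (M2 : |deriv (deriv M) (u z)| ≤ D * M (u z)) :
    JB ep (wt (rq g z)) (tauM Λ M u (rq g)) (cC n D / Real.log Λ) (cC n D / Real.log Λ) z := by
  have h1 := cQ_nn (n := n) hD
  have h2 : 0 < Real.log 2 := Real.log_pos (by norm_num)
  have hL := Real.log_pos hΛ
  refine (jb_tauM (wt_nonneg _) hΛ h0 (h.ju hD h0) (h.jr hD h0) hM M0 M1 M2).le (wt_nonneg _) ?_ ?_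
  · refine div_le_div_of_nonneg_right ?_ hL.le
    unfold cC
    have h5 : 0 ≤ 2 * cQ n D + cQ n D * D + 1 * (cQ n D + cQ n D + D * cQ n D) +
      2 * ((cQ n D + cQ n D + D * cQ n D) ^ 2 + (cQ n D + (cQ n D ^ 2 + cQ n D) +
        ((D + D ^ 2) * cQ n D ^ 2 + D * cQ n D))) + 100 * (3 * cQ n D + cQ n D) +
      100 * ((cQ n D + cQ n D) ^ 2 + (cQ n D + (cQ n D ^ 2 + cQ n D)) +
        2 * (cQ n D ^ 2 + cQ n D) + 2 * (2 * cQ n D) * (3 * cQ n D + cQ n D) / Real.log 2) := by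
      positivity
    linarith
  · refine div_le_div_of_nonneg_right ?_ hL.le
    unfold cC
    have h5 : 0 ≤ 2 * cQ n D + cQ n D * D + 2 * (cQ n D + cQ n D + D * cQ n D) +
      1 * ((cQ n D + cQ n D + D * cQ n D) ^ 2 + (cQ n D + (cQ n D ^ 2 + cQ n D) +
        ((D + D ^ 2) * cQ n D ^ 2 + D * cQ n D))) + 100 * (3 * cQ n D + cQ n D) +
      100 * ((cQ n D + cQ n D) ^ 2 + (cQ n D + (cQ n D ^ 2 + cQ n D)) +
        2 * (cQ n D ^ 2 + cQ n D) + 2 * (2 * cQ n D) * (3 * cQ n D + cQ n D) / Real.log 2) := by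
      positivity
    linarith

/-- The constant of the cuts in functions of `u`. -/
def cV (n : ℕ) (D : ℝ) : ℝ := (D * cQ n D + (D * cQ n D ^ 2 + D * cQ n D)) * D

theorem cV_nn (hD : 0 ≤ D) : 0 ≤ cV n D := by
  have := cQ_nn (n := n) hD
  unfold cV; positivity

/-- **The cuts in `F(u)`**, with the weights `1`, also on the diagonal. -/
theorem Cd.tauV1 {u₀ w₀ : ℝ} (h : Cd D O g l μ u z) (hD : 0 ≤ D) (hw : 0 < w₀)
    (hw1 : 1 / w₀ ≤ D) (hF : ContDiffAt ℝ 2 F (u z)) (F1 : |deriv F (u z)| ≤ D)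
    (F2 : |deriv (deriv F) (u z)| ≤ D) :
    JB ep (fun _ => 1) (EP.tauU u₀ w₀ fun y => F (u y)) (cV n D) (cV n D) z := by
  have h1 := cQ_nn (n := n) hD
  have h2 := jb_tauU (u₀ := u₀) hw (jb_V (fun _ => zero_le_one) (h.ju1 hD) hF F1 F2)
  have p1 : 0 ≤ D * cQ n D := by positivity
  have p2 : 0 ≤ D * cQ n D ^ 2 + D * cQ n D := by positivity
  refine h2.le (fun _ => zero_le_one) ?_ ?_
  · rw [div_eq_mul_one_div]
    unfold cV
    exact mul_le_mul (by linarith) hw1 (by positivity) (by linarith)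
  · rw [div_eq_mul_one_div]
    unfold cV
    exact mul_le_mul (by linarith) hw1 (by positivity) (by linarith)

/-- **The cuts in `F(u)`.** -/
theorem Cd.tauV {u₀ w₀ : ℝ} (h : Cd D O g l μ u z) (hD : 0 ≤ D) (hw : 0 < w₀)
    (hw1 : 1 / w₀ ≤ D) (h0 : 0 < rq g z) (hF : ContDiffAt ℝ 2 F (u z)) (F1 : |deriv F (u z)| ≤ D)
    (F2 : |deriv (deriv F) (u z)| ≤ D) :
    JB ep (wt (rq g z)) (EP.tauU u₀ w₀ fun y => F (u y)) (cV n D) (cV n D) z := by
  have h1 := (h.tauV1 (u₀ := u₀) hD hw hw1 hF F1 F2).mono_s (Λ := 1) (s' := wt (rq g z)) (cV_nn hD)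
    (cV_nn hD) (fun _ => zero_le_one) (fun i => by
      rcases i with i | i
      · simp [wt]
      · rw [one_mul]
        refine (one_le_inv₀ (Real.sqrt_pos.2 h0)).2 ?_
        rw [Real.sqrt_le_one]
        exact h.ρ1)
  simpa using h1

end cur

/-! ## The core threshold -/

section core

variable {c : ℝ} {ξ : ℝ → ℝ} {C u : ℝ}

/-- `M₁ = (e^(-.26 u) + c ξ)⁻¹`. -/
def m1x (c : ℝ) (ξ : ℝ → ℝ) (u : ℝ) : ℝ := (Real.exp (-(26 / 100 * u)) + c * ξ u)⁻¹

/-- The cut-off `ξ`. -/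
structure IsXi (C uf : ℝ) (ξ : ℝ → ℝ) : Prop where
  sm : ContDiff ℝ ∞ ξ
  pos : ∀ u, 0 < ξ u
  le : ∀ u, ξ u ≤ 1
  one : ∀ u ≤ uf, ξ u = 1
  ex : ∀ u, uf + 1 ≤ u → ξ u = Real.exp (-(3 * (u - uf)))
  ge : ∀ u, uf ≤ u → Real.exp (-(3 * (u - uf))) ≤ ξ u
  d1 : ∀ u, |deriv ξ u| ≤ C * ξ u
  d2 : ∀ u, |deriv (deriv ξ) u| ≤ C * ξ u

/-- `t` times the smooth transition. -/
def et (t : ℝ) : ℝ := t * Real.smoothTransition t

theorem et_smooth : ContDiff ℝ ∞ et := contDiff_id.mul Real.smoothTransition.contDiff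

theorem et_zero {t : ℝ} (h : t ≤ 0) : et t = 0 := by
  unfold et
  rw [Real.smoothTransition.zero_of_nonpos h, mul_zero]

theorem et_one {t : ℝ} (h : 1 ≤ t) : et t = t := by
  unfold et
  rw [Real.smoothTransition.one_of_one_le h, mul_one]

theorem et_nonneg (t : ℝ) : 0 ≤ et t := by
  rcases le_total t 0 with h | h
  · rw [et_zero h]
  · exact mul_nonneg h (Real.smoothTransition.nonneg t)

theorem et_le {t : ℝ} (h : 0 ≤ t) : et t ≤ t :=
  mul_le_of_le_one_right h (Real.smoothTransition.le_one t)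

theorem et_bd : ∃ C : ℝ, 0 ≤ C ∧ (∀ t, |deriv et t| ≤ C) ∧ ∀ t, |deriv (deriv et) t| ≤ C := by
  have s1 : ContDiff ℝ ∞ (deriv et) := (contDiff_infty_iff_deriv.1 et_smooth).2
  have s2 : ContDiff ℝ ∞ (deriv (deriv et)) := (contDiff_infty_iff_deriv.1 s1).2
  obtain ⟨C1, h1⟩ := isCompact_Icc.exists_bound_of_continuousOn (s := Icc (-1 : ℝ) 2)
    (f := deriv et) s1.continuous.continuousOn
  obtain ⟨C2, h2⟩ := isCompact_Icc.exists_bound_of_continuousOn (s := Icc (-1 : ℝ) 2)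
    (f := deriv (deriv et)) s2.continuous.continuousOn
  have lo : ∀ t < (0 : ℝ), deriv et t = 0 := by
    intro t ht
    have h : et =ᶠ[𝓝 t] fun _ => 0 := by
      filter_upwards [gt_mem_nhds ht] with y hy using et_zero hy.le
    rw [h.deriv_eq, deriv_const]
  have hi : ∀ t > (1 : ℝ), deriv et t = 1 := by
    intro t ht
    have h : et =ᶠ[𝓝 t] fun y => y := by
      filter_upwards [lt_mem_nhds ht] with y hy using et_one hy.le
    rw [h.deriv_eq]; simp
  have lo2 : ∀ t < (0 : ℝ), deriv (deriv et) t = 0 := by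
    intro t ht
    have h : deriv et =ᶠ[𝓝 t] fun _ => 0 := by
      filter_upwards [gt_mem_nhds ht] with y hy using lo y hy
    rw [h.deriv_eq, deriv_const]
  have hi2 : ∀ t > (1 : ℝ), deriv (deriv et) t = 0 := by
    intro t ht
    have h : deriv et =ᶠ[𝓝 t] fun _ => 1 := by
      filter_upwards [lt_mem_nhds ht] with y hy using hi y hy
    rw [h.deriv_eq, deriv_const]
  refine ⟨|C1| + |C2| + 1, by positivity, fun t => ?_, fun t => ?_⟩
  · by_cases a1 : t < -1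
    · rw [lo t (by linarith), abs_zero]; positivity
    by_cases a2 : 2 < t
    · rw [hi t (by linarith), abs_one]
      linarith [abs_nonneg C1, abs_nonneg C2]
    have := h1 t ⟨not_lt.1 a1, not_lt.1 a2⟩
    rw [Real.norm_eq_abs] at this
    linarith [le_abs_self C1, abs_nonneg C2]
  · by_cases a1 : t < -1
    · rw [lo2 t (by linarith), abs_zero]; positivity
    by_cases a2 : 2 < t
    · rw [hi2 t (by linarith), abs_zero]; positivity
    have := h2 t ⟨not_lt.1 a1, not_lt.1 a2⟩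
    rw [Real.norm_eq_abs] at this
    linarith [le_abs_self C2, abs_nonneg C1]

/-- **The cut-off `ξ` exists**, with an absolute constant. -/
theorem exists_xi : ∃ C : ℝ, 0 ≤ C ∧ ∀ uf : ℝ, ∃ ξ, IsXi C uf ξ := by
  obtain ⟨C, hC, h1, h2⟩ := et_bd
  refine ⟨3 * C + 9 * C ^ 2, by positivity, fun uf => ⟨fun u => Real.exp (-(3 * et (u - uf))), ?_⟩⟩
  have s1 : ContDiff ℝ ∞ (deriv et) := (contDiff_infty_iff_deriv.1 et_smooth).2
  have d0 : ∀ t, HasDerivAt et (deriv et t) t := fun t =>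
    (et_smooth.differentiable (by simp) t).hasDerivAt
  have d1 : ∀ t, HasDerivAt (deriv et) (deriv (deriv et) t) t := fun t =>
    (s1.differentiable (by simp) t).hasDerivAt
  have e0 : ∀ u, HasDerivAt (fun u => et (u - uf)) (deriv et (u - uf)) u := fun u =>
    (d0 (u - uf)).comp_sub_const u uf
  have e1 : ∀ u, HasDerivAt (fun u => deriv et (u - uf)) (deriv (deriv et) (u - uf)) u := fun u =>
    (d1 (u - uf)).comp_sub_const u uf
  have x1 : ∀ u, HasDerivAt (fun u => Real.exp (-(3 * et (u - uf))))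
      (Real.exp (-(3 * et (u - uf))) * -(3 * deriv et (u - uf))) u := fun u =>
    ((e0 u).const_mul 3).fun_neg.exp
  have x2 : ∀ u, HasDerivAt (fun u => Real.exp (-(3 * et (u - uf))) * -(3 * deriv et (u - uf)))
      (Real.exp (-(3 * et (u - uf))) * -(3 * deriv et (u - uf)) * -(3 * deriv et (u - uf)) +
        Real.exp (-(3 * et (u - uf))) * -(3 * deriv (deriv et) (u - uf))) u := fun u =>
    (x1 u).fun_mul ((e1 u).const_mul 3).fun_neg
  have f1 : deriv (fun u => Real.exp (-(3 * et (u - uf)))) = fun u =>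
      Real.exp (-(3 * et (u - uf))) * -(3 * deriv et (u - uf)) := funext fun u => (x1 u).deriv
  refine ⟨?_, fun u => Real.exp_pos _, fun u => ?_, fun u hu => ?_, fun u hu => ?_, fun u hu => ?_,
    fun u => ?_, fun u => ?_⟩
  · have : ContDiff ℝ ∞ fun u => et (u - uf) := et_smooth.comp (contDiff_id.sub contDiff_const)
    exact (contDiff_const.mul this).neg.exp
  · rw [Real.exp_le_one_iff]
    have := et_nonneg (u - uf)
    linarith
  · show Real.exp (-(3 * et (u - uf))) = 1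
    rw [et_zero (by linarith)]; simp
  · show Real.exp (-(3 * et (u - uf))) = _
    rw [et_one (by linarith)]
  · show _ ≤ Real.exp (-(3 * et (u - uf)))
    rw [Real.exp_le_exp]
    have := et_le (by linarith : 0 ≤ u - uf)
    linarith
  · rw [f1, abs_mul, abs_of_pos (Real.exp_pos _), abs_neg, abs_mul, abs_of_pos (by norm_num)]
    have k := h1 (u - uf)
    have p := Real.exp_pos (-(3 * et (u - uf)))
    have : 0 ≤ 9 * C ^ 2 := by positivity
    have k2 : 3 * |deriv et (u - uf)| ≤ 3 * C + 9 * C ^ 2 := by linarith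
    have := mul_le_mul_of_nonneg_left k2 p.le
    linarith
  · rw [f1, (x2 u).deriv]
    have p := Real.exp_pos (-(3 * et (u - uf)))
    have e : Real.exp (-(3 * et (u - uf))) * -(3 * deriv et (u - uf)) * -(3 * deriv et (u - uf)) +
        Real.exp (-(3 * et (u - uf))) * -(3 * deriv (deriv et) (u - uf)) =
        Real.exp (-(3 * et (u - uf))) * (9 * deriv et (u - uf) ^ 2 -
          3 * deriv (deriv et) (u - uf)) := by ring
    rw [e, abs_mul, abs_of_pos p]
    have k1 := h1 (u - uf)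
    have k2 := h2 (u - uf)
    have k3 : deriv et (u - uf) ^ 2 ≤ C ^ 2 := sq_le_sq' (abs_le.1 k1).1 (abs_le.1 k1).2
    have k4 : |9 * deriv et (u - uf) ^ 2 - 3 * deriv (deriv et) (u - uf)| ≤
        3 * C + 9 * C ^ 2 := by
      rw [abs_le] at k2 ⊢
      constructor <;> nlinarith [sq_nonneg (deriv et (u - uf)), k2.1, k2.2]
    have := mul_le_mul_of_nonneg_left k4 p.le
    linarith

section m1x

variable {uf : ℝ}

theorem hx_pos (hc : 0 ≤ c) (h : IsXi C uf ξ) (u : ℝ) : 0 < Real.exp (-(26 / 100 * u)) + c * ξ u := by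
  have := Real.exp_pos (-(26 / 100 * u))
  have := h.pos u
  positivity

theorem m1x_pos (hc : 0 ≤ c) (h : IsXi C uf ξ) (u : ℝ) : 0 < m1x c ξ u := inv_pos.2 (hx_pos hc h u)

theorem m1x_smooth (hc : 0 ≤ c) (h : IsXi C uf ξ) : ContDiff ℝ ∞ (m1x c ξ) := by
  have h1 : ContDiff ℝ ∞ fun u : ℝ => Real.exp (-(26 / 100 * u)) + c * ξ u := by
    have h2 : ContDiff ℝ ∞ fun u : ℝ => Real.exp (-(26 / 100 * u)) := by fun_prop
    exact h2.add (contDiff_const.mul h.sm)
  exact h1.inv fun u => (hx_pos hc h u).ne'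

theorem m1x_le (hc : 0 ≤ c) (h : IsXi C uf ξ) (u : ℝ) : m1x c ξ u ≤ Real.exp (26 / 100 * u) := by
  have h1 := Real.exp_pos (-(26 / 100 * u))
  have h2 := mul_nonneg hc (h.pos u).le
  unfold m1x
  rw [← inv_inv (Real.exp (26 / 100 * u)), ← Real.exp_neg]
  exact inv_anti₀ h1 (by linarith)

theorem m1x_le' (hc : 0 < c) (h : IsXi C uf ξ) (u : ℝ) : m1x c ξ u ≤ (c * ξ u)⁻¹ := by
  have h1 := Real.exp_pos (-(26 / 100 * u))
  unfold m1x
  exact inv_anti₀ (mul_pos hc (h.pos u)) (by linarith)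

theorem le_m1x (hc : 0 < c) (h : IsXi C uf ξ) (u : ℝ) :
    1 / 2 * min (Real.exp (26 / 100 * u)) (c * ξ u)⁻¹ ≤ m1x c ξ u := by
  have h0 := Real.exp_pos (26 / 100 * u)
  have hx := mul_pos hc (h.pos u)
  have h3 : 0 < min (Real.exp (26 / 100 * u)) (c * ξ u)⁻¹ := lt_min h0 (inv_pos.2 hx)
  unfold m1x
  rw [le_inv_comm₀ (by positivity) (hx_pos hc.le h u), Real.exp_neg]
  have h1 : (Real.exp (26 / 100 * u))⁻¹ ≤ (min (Real.exp (26 / 100 * u)) (c * ξ u)⁻¹)⁻¹ :=
    inv_anti₀ h3 (min_le_left _ _)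
  have h2 : c * ξ u ≤ (min (Real.exp (26 / 100 * u)) (c * ξ u)⁻¹)⁻¹ := by
    rw [le_inv_comm₀ hx h3]
    exact min_le_right _ _
  have h4 : (1 / 2 * min (Real.exp (26 / 100 * u)) (c * ξ u)⁻¹)⁻¹ =
      2 * (min (Real.exp (26 / 100 * u)) (c * ξ u)⁻¹)⁻¹ := by
    rw [mul_inv]; norm_num
  rw [h4]
  linarith

/-- **The logarithmic derivatives of `M₁`.** -/
theorem m1x_d (hc : 0 ≤ c) (hC : 0 ≤ C) (h : IsXi C uf ξ) (u : ℝ) :
    |deriv (m1x c ξ) u| ≤ (1 + C) * m1x c ξ u ∧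
    |deriv (deriv (m1x c ξ)) u| ≤ (2 * (1 + C) ^ 2 + (1 + C)) * m1x c ξ u := by
  set H : ℝ → ℝ := fun u => Real.exp (-(26 / 100 * u)) + c * ξ u with hH
  set H1 : ℝ → ℝ := fun u => -(26 / 100) * Real.exp (-(26 / 100 * u)) + c * deriv ξ u with hH1
  set H2 : ℝ → ℝ := fun u => (26 / 100) ^ 2 * Real.exp (-(26 / 100 * u)) +
    c * deriv (deriv ξ) u with hH2
  have s1 : ContDiff ℝ ∞ (deriv ξ) := (contDiff_infty_iff_deriv.1 h.sm).2
  have x0 : ∀ u, HasDerivAt ξ (deriv ξ u) u := fun u =>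
    (h.sm.differentiable (by simp) u).hasDerivAt
  have x1 : ∀ u, HasDerivAt (deriv ξ) (deriv (deriv ξ) u) u := fun u =>
    (s1.differentiable (by simp) u).hasDerivAt
  have ex : ∀ u : ℝ, HasDerivAt (fun u => Real.exp (-(26 / 100 * u)))
      (-(26 / 100) * Real.exp (-(26 / 100 * u))) u := fun u => by
    have := (((hasDerivAt_id u).const_mul (26 / 100)).fun_neg).exp
    refine this.congr_deriv ?_
    simp only [id]
    ring
  have d0 : ∀ u, HasDerivAt H (H1 u) u := fun u => (ex u).fun_add ((x0 u).const_mul c)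
  have d1 : ∀ u, HasDerivAt H1 (H2 u) u := fun u => by
    refine (((ex u).const_mul (-(26 / 100))).fun_add ((x1 u).const_mul c)).congr_deriv ?_
    simp only [hH2]; ring
  have hp : ∀ u, 0 < H u := hx_pos hc h
  have m0 : ∀ u, HasDerivAt (m1x c ξ) (-H1 u / H u ^ 2) u := fun u =>
    (d0 u).fun_inv (hp u).ne'
  have f1 : deriv (m1x c ξ) = fun u => -H1 u / H u ^ 2 := funext fun u => (m0 u).deriv
  have m2 : HasDerivAt (fun u => -H1 u / H u ^ 2)
      ((-H2 u * H u ^ 2 - -H1 u * (2 * H u * H1 u)) / (H u ^ 2) ^ 2) u := by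
    have h2 : HasDerivAt (fun u => H u ^ 2) (2 * H u * H1 u) u := by
      simpa using (d0 u).fun_pow 2
    exact (d1 u).fun_neg.fun_div h2 (pow_pos (hp u) 2).ne'
  have b1 : |H1 u| ≤ (1 + C) * H u := by
    have p1 := Real.exp_pos (-(26 / 100 * u))
    have p2 := mul_le_mul_of_nonneg_left (h.d1 u) hc
    have p3 := mul_nonneg hc (h.pos u).le
    have p4 : |c * deriv ξ u| ≤ c * (C * ξ u) := by rwa [abs_mul, abs_of_nonneg hc]
    simp only [hH1, hH]
    refine (abs_add_le _ _).trans ?_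
    rw [abs_mul, abs_neg, abs_of_pos (by norm_num : (0 : ℝ) < 26 / 100), abs_of_pos p1]
    nlinarith [mul_nonneg hC p1.le]
  have b2 : |H2 u| ≤ (1 + C) * H u := by
    have p1 := Real.exp_pos (-(26 / 100 * u))
    have p2 := mul_le_mul_of_nonneg_left (h.d2 u) hc
    have p3 := mul_nonneg hc (h.pos u).le
    have p4 : |c * deriv (deriv ξ) u| ≤ c * (C * ξ u) := by rwa [abs_mul, abs_of_nonneg hc]
    simp only [hH2, hH]
    refine (abs_add_le _ _).trans ?_
    rw [abs_mul, abs_of_pos (by norm_num : (0 : ℝ) < (26 / 100) ^ 2), abs_of_pos p1]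
    nlinarith [mul_nonneg hC p1.le]
  have hm : m1x c ξ u = (H u)⁻¹ := rfl
  have hu := hp u
  rw [f1, m2.deriv, hm]
  constructor
  · rw [abs_div, abs_neg, abs_of_pos (pow_pos hu 2), div_le_iff₀ (pow_pos hu 2)]
    have : (1 + C) * (H u)⁻¹ * H u ^ 2 = (1 + C) * H u := by field_simp
    rw [this]; exact b1
  · rw [abs_div, abs_of_pos (by positivity : 0 < (H u ^ 2) ^ 2), div_le_iff₀ (by positivity)]
    have e1 : (2 * (1 + C) ^ 2 + (1 + C)) * (H u)⁻¹ * (H u ^ 2) ^ 2 =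
        (2 * (1 + C) ^ 2 + (1 + C)) * H u ^ 3 := by field_simp
    rw [e1]
    have e2 : -H2 u * H u ^ 2 - -H1 u * (2 * H u * H1 u) = H1 u ^ 2 * (2 * H u) - H2 u * H u ^ 2 := by
      ring
    rw [e2]
    have c1 : H1 u ^ 2 ≤ ((1 + C) * H u) ^ 2 := sq_le_sq' (by linarith [(abs_le.1 b1).1]) (abs_le.1 b1).2
    have c2 := mul_le_mul_of_nonneg_right c1 (by positivity : 0 ≤ 2 * H u)
    have c3 : |H2 u * H u ^ 2| ≤ (1 + C) * H u * H u ^ 2 := by
      rw [abs_mul, abs_of_pos (pow_pos hu 2)]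
      exact mul_le_mul_of_nonneg_right b2 (pow_pos hu 2).le
    refine (abs_sub _ _).trans ?_
    rw [abs_of_nonneg (by positivity : 0 ≤ H1 u ^ 2 * (2 * H u))]
    calc _ ≤ ((1 + C) * H u) ^ 2 * (2 * H u) + (1 + C) * H u * H u ^ 2 := add_le_add c2 c3
      _ = _ := by ring

end m1x

end core

end Vale.Agent.P088.R2.H932.EP
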