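import Mathlib

/-!
# P088: first and second derivatives of the cut variables

`JB e s f a b z`: the function `f` is twice continuously differentiable at `z`, and its first and
second derivatives at `z` in the directions `e i`, `e j` are at most `a s_i` and `b s_i s_j`.
-/

open Set Filter
open scoped Topology ContDiff

noncomputable section

namespace Vale.Agent.P088.R2.H932.EP

variable {E : Type*} [NormedAddCommGroup E] [NormedSpace ℝ E] {ι : Type*}

/-- Bounds for the first and second derivatives of `f` at `z` in the directions `e`. -/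
structure JB (e : ι → E) (s : ι → ℝ) (f : E → ℝ) (a b : ℝ) (z : E) : Prop where
  sm : ContDiffAt ℝ 2 f z
  d1 : ∀ i, |fderiv ℝ f z (e i)| ≤ a * s i
  d2 : ∀ i j, |fderiv ℝ (fun y => fderiv ℝ f y (e i)) z (e j)| ≤ b * (s i * s j)

variable {e : ι → E} {s : ι → ℝ} {f h : E → ℝ} {a b a' b' : ℝ} {z : E}

theorem ev_diff (hf : ContDiffAt ℝ 2 f z) : ∀ᶠ y in 𝓝 z, DifferentiableAt ℝ f y := by
  filter_upwards [(hf.of_le (m := 1) (by norm_num)).eventually (by simp)] with y hy
  exact hy.differentiableAt (by norm_num)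

theorem diff_fd (hf : ContDiffAt ℝ 2 f z) (v : E) :
    DifferentiableAt ℝ (fun y => fderiv ℝ f y v) z :=
  ((hf.fderiv_right (m := 1) (by norm_num)).differentiableAt (by norm_num)).clm_apply
    (differentiableAt_const v)

theorem fd2_congr (hfh : f =ᶠ[𝓝 z] h) (v w : E) :
    fderiv ℝ (fun y => fderiv ℝ f y v) z w = fderiv ℝ (fun y => fderiv ℝ h y v) z w := by
  have h1 : (fun y => fderiv ℝ f y v) =ᶠ[𝓝 z] fun y => fderiv ℝ h y v := by
    filter_upwards [hfh.eventuallyEq_nhds] with y hy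
    rw [hy.fderiv_eq]
  rw [h1.fderiv_eq]

theorem fd2_add (hf : ContDiffAt ℝ 2 f z) (hh : ContDiffAt ℝ 2 h z) (v w : E) :
    fderiv ℝ (fun y => fderiv ℝ (fun y => f y + h y) y v) z w =
      fderiv ℝ (fun y => fderiv ℝ f y v) z w + fderiv ℝ (fun y => fderiv ℝ h y v) z w := by
  have h1 : (fun y => fderiv ℝ (fun y => f y + h y) y v) =ᶠ[𝓝 z]
      fun y => fderiv ℝ f y v + fderiv ℝ h y v := by
    filter_upwards [ev_diff hf, ev_diff hh] with y h1 h2
    rw [fderiv_fun_add h1 h2]; simp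
  rw [h1.fderiv_eq, fderiv_fun_add (diff_fd hf v) (diff_fd hh v)]
  simp

theorem fd2_mul (hf : ContDiffAt ℝ 2 f z) (hh : ContDiffAt ℝ 2 h z) (v w : E) :
    fderiv ℝ (fun y => fderiv ℝ (fun y => f y * h y) y v) z w =
      fderiv ℝ (fun y => fderiv ℝ f y v) z w * h z + fderiv ℝ f z v * fderiv ℝ h z w +
        (fderiv ℝ f z w * fderiv ℝ h z v + f z * fderiv ℝ (fun y => fderiv ℝ h y v) z w) := by
  have h1 : (fun y => fderiv ℝ (fun y => f y * h y) y v) =ᶠ[𝓝 z]
      fun y => fderiv ℝ f y v * h y + f y * fderiv ℝ h y v := by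
    filter_upwards [ev_diff hf, ev_diff hh] with y h1 h2
    rw [fderiv_fun_mul h1 h2]
    simp only [_root_.add_apply, _root_.smul_apply, smul_eq_mul]; ring
  have d1 := (ev_diff hf).self_of_nhds
  have d2 := (ev_diff hh).self_of_nhds
  rw [h1.fderiv_eq, fderiv_fun_add ((diff_fd hf v).fun_mul d2) (d1.fun_mul (diff_fd hh v)),
    fderiv_fun_mul (diff_fd hf v) d2, fderiv_fun_mul d1 (diff_fd hh v)]
  simp only [_root_.add_apply, _root_.smul_apply, smul_eq_mul]
  ring

/-- The chain rule for the first derivative. -/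
theorem fd_comp {φ : ℝ → ℝ} {c : ℝ} (hf : DifferentiableAt ℝ f z) (hφ : HasDerivAt φ c (f z))
    (v : E) : fderiv ℝ (fun y => φ (f y)) z v = c * fderiv ℝ f z v := by
  have h1 : HasFDerivAt (fun y => φ (f y)) (c • fderiv ℝ f z) z :=
    hφ.comp_hasFDerivAt z hf.hasFDerivAt
  rw [h1.fderiv]; simp

theorem fd2_comp {φ φ' : ℝ → ℝ} {c : ℝ} (hf : ContDiffAt ℝ 2 f z)
    (hφ : ∀ᶠ t in 𝓝 (f z), HasDerivAt φ (φ' t) t) (hφ' : HasDerivAt φ' c (f z)) (v w : E) :
    fderiv ℝ (fun y => fderiv ℝ (fun y => φ (f y)) y v) z w =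
      c * fderiv ℝ f z w * fderiv ℝ f z v +
        φ' (f z) * fderiv ℝ (fun y => fderiv ℝ f y v) z w := by
  have d1 := (ev_diff hf).self_of_nhds
  have h1 : (fun y => fderiv ℝ (fun y => φ (f y)) y v) =ᶠ[𝓝 z]
      fun y => φ' (f y) * fderiv ℝ f y v := by
    filter_upwards [ev_diff hf, d1.continuousAt.eventually hφ] with y h1 h2
    exact fd_comp h1 h2 v
  have d2 : DifferentiableAt ℝ (fun y => φ' (f y)) z :=
    (hφ'.comp_hasFDerivAt z d1.hasFDerivAt).differentiableAt
  rw [h1.fderiv_eq, fderiv_fun_mul d2 (diff_fd hf v)]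
  simp only [_root_.add_apply, _root_.smul_apply, smul_eq_mul]
  rw [fd_comp d1 hφ' w]
  ring

namespace JB

theorem nn (hs : ∀ i, 0 ≤ s i) {x y : ℝ} (hxy : x ≤ y) (i : ι) : x * s i ≤ y * s i :=
  mul_le_mul_of_nonneg_right hxy (hs i)

theorem mono (hs : ∀ i, 0 ≤ s i) (hf : JB e s f a b z) (ha : a ≤ a') (hb : b ≤ b') :
    JB e s f a' b' z where
  sm := hf.sm
  d1 i := (hf.d1 i).trans (mul_le_mul_of_nonneg_right ha (hs i))
  d2 i j := (hf.d2 i j).trans (mul_le_mul_of_nonneg_right hb (mul_nonneg (hs i) (hs j)))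

theorem congr (hf : JB e s f a b z) (h1 : h =ᶠ[𝓝 z] f) : JB e s h a b z where
  sm := hf.sm.congr_of_eventuallyEq h1
  d1 i := by rw [h1.fderiv_eq]; exact hf.d1 i
  d2 i j := by rw [fd2_congr h1]; exact hf.d2 i j

theorem const (c : ℝ) : JB e s (fun _ => c) 0 0 z where
  sm := contDiffAt_const
  d1 i := by simp
  d2 i j := by simp

theorem add (hf : JB e s f a b z) (hh : JB e s h a' b' z) :
    JB e s (fun y => f y + h y) (a + a') (b + b') z where
  sm := hf.sm.add hh.sm
  d1 i := by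
    rw [fderiv_fun_add (ev_diff hf.sm).self_of_nhds (ev_diff hh.sm).self_of_nhds,
      _root_.add_apply, add_mul]
    exact (abs_add_le _ _).trans (add_le_add (hf.d1 i) (hh.d1 i))
  d2 i j := by
    rw [fd2_add hf.sm hh.sm, add_mul]
    exact (abs_add_le _ _).trans (add_le_add (hf.d2 i j) (hh.d2 i j))

/-- Composition with a function of one variable. -/
theorem comp {φ φ' : ℝ → ℝ} {c A B : ℝ} (hf : JB e s f a b z)
    (hsm : ContDiffAt ℝ 2 φ (f z))
    (hφ : ∀ᶠ t in 𝓝 (f z), HasDerivAt φ (φ' t) t) (hφ' : HasDerivAt φ' c (f z))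
    (h1 : |φ' (f z)| ≤ A) (h2 : |c| ≤ B) :
    JB e s (fun y => φ (f y)) (A * a) (B * a ^ 2 + A * b) z where
  sm := hsm.comp z hf.sm
  d1 i := by
    rw [fd_comp (ev_diff hf.sm).self_of_nhds hφ.self_of_nhds, abs_mul, mul_assoc]
    exact mul_le_mul h1 (hf.d1 i) (abs_nonneg _) ((abs_nonneg _).trans h1)
  d2 i j := by
    rw [fd2_comp hf.sm hφ hφ']
    refine (abs_add_le _ _).trans ?_
    rw [abs_mul, abs_mul, abs_mul]
    have hB := (abs_nonneg _).trans h2
    have hA := (abs_nonneg _).trans h1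
    have e1 : |c| * |fderiv ℝ f z (e j)| * |fderiv ℝ f z (e i)| ≤ B * (a * s j) * (a * s i) := by
      have x1 := hf.d1 i
      have x2 := hf.d1 j
      have x3 := (abs_nonneg _).trans x2
      gcongr
    have e2 : |φ' (f z)| * |fderiv ℝ (fun y => fderiv ℝ f y (e i)) z (e j)| ≤
        A * (b * (s i * s j)) :=
      mul_le_mul h1 (hf.d2 i j) (abs_nonneg _) hA
    calc _ ≤ B * (a * s j) * (a * s i) + A * (b * (s i * s j)) := add_le_add e1 e2
      _ = (B * a ^ 2 + A * b) * (s i * s j) := by ring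

/-- Products. -/
theorem mul {F H : ℝ} (hf : JB e s f a b z) (hh : JB e s h a' b' z)
    (hF : |f z| ≤ F) (hH : |h z| ≤ H) :
    JB e s (fun y => f y * h y) (a * H + F * a') (b * H + 2 * (a * a') + F * b') z where
  sm := hf.sm.mul hh.sm
  d1 i := by
    rw [fderiv_fun_mul (ev_diff hf.sm).self_of_nhds (ev_diff hh.sm).self_of_nhds]
    simp only [_root_.add_apply, _root_.smul_apply, smul_eq_mul]
    refine (abs_add_le _ _).trans ?_
    rw [abs_mul, abs_mul]
    have e1 : |f z| * |fderiv ℝ h z (e i)| ≤ F * (a' * s i) :=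
      mul_le_mul hF (hh.d1 i) (abs_nonneg _) ((abs_nonneg _).trans hF)
    have e2 : |h z| * |fderiv ℝ f z (e i)| ≤ H * (a * s i) :=
      mul_le_mul hH (hf.d1 i) (abs_nonneg _) ((abs_nonneg _).trans hH)
    calc _ ≤ F * (a' * s i) + H * (a * s i) := add_le_add e1 e2
      _ = _ := by ring
  d2 i j := by
    rw [fd2_mul hf.sm hh.sm]
    have x1 : |fderiv ℝ (fun y => fderiv ℝ f y (e i)) z (e j) * h z| ≤
        (b * (s i * s j)) * H := by
      rw [abs_mul]
      exact mul_le_mul (hf.d2 i j) hH (abs_nonneg _) ((abs_nonneg _).trans (hf.d2 i j))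
    have x2 : |fderiv ℝ f z (e i) * fderiv ℝ h z (e j)| ≤ (a * s i) * (a' * s j) := by
      rw [abs_mul]
      exact mul_le_mul (hf.d1 i) (hh.d1 j) (abs_nonneg _) ((abs_nonneg _).trans (hf.d1 i))
    have x3 : |fderiv ℝ f z (e j) * fderiv ℝ h z (e i)| ≤ (a * s j) * (a' * s i) := by
      rw [abs_mul]
      exact mul_le_mul (hf.d1 j) (hh.d1 i) (abs_nonneg _) ((abs_nonneg _).trans (hf.d1 j))
    have x4 : |f z * fderiv ℝ (fun y => fderiv ℝ h y (e i)) z (e j)| ≤
        F * (b' * (s i * s j)) := by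
      rw [abs_mul]
      exact mul_le_mul hF (hh.d2 i j) (abs_nonneg _) ((abs_nonneg _).trans hF)
    refine (abs_add_le _ _).trans ((add_le_add ((abs_add_le _ _).trans (add_le_add x1 x2))
      ((abs_add_le _ _).trans (add_le_add x3 x4))).trans (le_of_eq ?_))
    ring

theorem cmul (c : ℝ) (hf : JB e s f a b z) : JB e s (fun y => c * f y) (|c| * a) (|c| * b) z where
  sm := contDiffAt_const.mul hf.sm
  d1 i := by
    rw [fderiv_const_mul (ev_diff hf.sm).self_of_nhds, _root_.smul_apply, smul_eq_mul, abs_mul,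
      mul_assoc]
    exact mul_le_mul_of_nonneg_left (hf.d1 i) (abs_nonneg _)
  d2 i j := by
    have h1 : (fun y => fderiv ℝ (fun y => c * f y) y (e i)) =ᶠ[𝓝 z]
        fun y => c * fderiv ℝ f y (e i) := by
      filter_upwards [ev_diff hf.sm] with y h1
      rw [fderiv_const_mul h1]; simp
    rw [h1.fderiv_eq, fderiv_const_mul (diff_fd hf.sm (e i)), _root_.smul_apply, smul_eq_mul,
      abs_mul, mul_assoc]
    exact mul_le_mul_of_nonneg_left (hf.d2 i j) (abs_nonneg _)

theorem addc (c : ℝ) (hf : JB e s f a b z) : JB e s (fun y => f y + c) a b z := by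
  simpa using hf.add (const (e := e) (s := s) (z := z) c)

/-! ## Composite functions -/

theorem sub (hf : JB e s f a b z) (hh : JB e s h a' b' z) :
    JB e s (fun y => f y - h y) (a + a') (b + b') z := by
  have h1 := hf.add (hh.cmul (-1))
  simpa [sub_eq_add_neg] using h1

theorem log (h0 : 0 < f z) (hf : JB e s f (a * f z) (b * f z) z) :
    JB e s (fun y => Real.log (f y)) a (a ^ 2 + b) z := by
  have h1 := hf.comp (φ := Real.log) (φ' := fun t => t⁻¹) (c := -(f z ^ 2)⁻¹)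
    (A := (f z)⁻¹) (B := (f z ^ 2)⁻¹) (Real.contDiffAt_log.2 h0.ne')
    ((lt_mem_nhds h0).mono fun t ht => Real.hasDerivAt_log (ne_of_gt ht))
    (hasDerivAt_inv h0.ne') (by rw [abs_of_pos (inv_pos.2 h0)])
    (by rw [abs_neg, abs_of_pos (by positivity)])
  have e1 : (f z)⁻¹ * (a * f z) = a := by field_simp
  have e2 : (f z ^ 2)⁻¹ * (a * f z) ^ 2 + (f z)⁻¹ * (b * f z) = a ^ 2 + b := by field_simp
  rwa [e1, e2] at h1

theorem exp (hf : JB e s f a b z) : JB e s (fun y => Real.exp (f y)) (Real.exp (f z) * a)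
    (Real.exp (f z) * a ^ 2 + Real.exp (f z) * b) z :=
  hf.comp (φ := Real.exp) (φ' := Real.exp) (c := Real.exp (f z)) Real.contDiff_exp.contDiffAt
    (Eventually.of_forall fun t => Real.hasDerivAt_exp t) (Real.hasDerivAt_exp _)
    (by rw [abs_of_pos (Real.exp_pos _)]) (by rw [abs_of_pos (Real.exp_pos _)])

/-- `log (α e^f + β)`. -/
theorem logexp {α β : ℝ} (hα : 0 < α) (hβ : 0 < β) (hf : JB e s f a b z) :
    JB e s (fun y => Real.log (α * Real.exp (f y) + β)) a (a ^ 2 + b) z := by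
  have h0 : ∀ t : ℝ, 0 < α * Real.exp t + β := fun t => by positivity
  have h1 := hf.comp (φ := fun t => Real.log (α * Real.exp t + β))
    (φ' := fun t => α * Real.exp t / (α * Real.exp t + β))
    (c := α * Real.exp (f z) * β / (α * Real.exp (f z) + β) ^ 2) (A := 1) (B := 1)
    (ContDiffAt.log (by fun_prop) (h0 _).ne')
    (Eventually.of_forall fun t => by
      have := (((Real.hasDerivAt_exp t).const_mul α).add_const β).log (h0 t).ne'
      simpa using this)
    (by
      have h2 := ((Real.hasDerivAt_exp (f z)).const_mul α)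
      have := h2.fun_div (h2.add_const β) (h0 _).ne'
      refine this.congr_deriv ?_
      ring)
    (by
      have h3 := Real.exp_pos (f z)
      rw [abs_of_nonneg (by positivity), div_le_one (h0 _)]
      linarith)
    (by
      have h3 := Real.exp_pos (f z)
      rw [abs_of_nonneg (by positivity), div_le_one (by positivity)]
      nlinarith [mul_pos hα h3, sq_nonneg (α * Real.exp (f z)), sq_nonneg β,
        mul_pos (mul_pos hα h3) hβ])
  simpa using h1

/-- Quotients: `|f| ≤ Q h`, `h ≥ ℓ`. -/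
theorem div {Q ℓ : ℝ} (hℓ : 0 < ℓ) (hf : JB e s f a b z) (hh : JB e s h a' b' z)
    (ha : 0 ≤ a) (ha' : 0 ≤ a') (hs : ∀ i, 0 ≤ s i) (hQ : 0 ≤ Q)
    (hz : ℓ ≤ h z) (hF : |f z| ≤ Q * h z) :
    JB e s (fun y => f y / h y) ((a + Q * a') / h z)
      ((b + Q * b' + 2 * a' * (a + Q * a') / ℓ) / h z) z := by
  have h0 : 0 < h z := hℓ.trans_le hz
  have h1 := hh.comp (φ := fun t => t⁻¹) (φ' := fun t => -(t ^ 2)⁻¹) (c := 2 / h z ^ 3)
    (A := (h z ^ 2)⁻¹) (B := 2 / h z ^ 3) (contDiffAt_inv _ h0.ne')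
    ((lt_mem_nhds h0).mono fun t ht => hasDerivAt_inv (ne_of_gt ht))
    (by
      have h3 : HasDerivAt (fun t : ℝ => (t ^ 2)⁻¹) (-(2 * h z) / (h z ^ 2) ^ 2) (h z) := by
        have := (hasDerivAt_pow 2 (h z)).fun_inv (by positivity)
        simpa using this
      refine h3.fun_neg.congr_deriv ?_
      field_simp)
    (by rw [abs_neg, abs_of_pos (by positivity)]) (by rw [abs_of_pos (by positivity)])
  have h2 := hf.mul h1 hF (H := (h z)⁻¹) (by rw [abs_of_pos (by positivity)])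
  have h3 : JB e s (fun y => f y / h y) _ _ z := h2.congr (Eventually.of_forall fun y => by
    simp [div_eq_mul_inv])
  refine h3.mono hs (le_of_eq ?_) ?_
  · field_simp
  · have e1 : b * (h z)⁻¹ + 2 * (a * ((h z ^ 2)⁻¹ * a')) +
        Q * h z * (2 / h z ^ 3 * a' ^ 2 + (h z ^ 2)⁻¹ * b') =
        (b + Q * b' + 2 * a' * (a + Q * a') / h z) / h z := by
      field_simp
      ring
    rw [e1]
    have h4 : 2 * a' * (a + Q * a') / h z ≤ 2 * a' * (a + Q * a') / ℓ :=
      div_le_div_of_nonneg_left (by positivity) hℓ hz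
    gcongr

end JB

end Vale.Agent.P088.R2.H932.EP
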