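import Vale.Agent.P088.R2.H932.EP.CutK

/-!
# P088, stage 3, zone II: the convexity `k`

`k = c₁ m (K / (K + m) + μ₂(l(p)) + S₀)`, `m = 2 e^u ρ`, `K = K(u)`, `S₀ = σ / R`, and
`μ₂(s) = (s^(5/2) / A + e^(-C (s - t₀)))⁻¹`: logarithmic derivatives in the natural scale.
-/

open Set Filter
open scoped Topology ContDiff Matrix

noncomputable section

namespace Vale.Agent.P088.R2.H932.EP

/-! ## The function `μ₂` -/

/-- `1 / μ₂`. -/
def hm (A C t₀ s : ℝ) : ℝ := s ^ (5 / 2 : ℝ) / A + Real.exp (-(C * (s - t₀)))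

/-- `μ₂`. -/
def mu2 (A C t₀ s : ℝ) : ℝ := (hm A C t₀ s)⁻¹

/-- The first derivative of `1 / μ₂`. -/
def hm1 (A C t₀ s : ℝ) : ℝ := 5 / 2 * s ^ (5 / 2 - 1 : ℝ) / A - C * Real.exp (-(C * (s - t₀)))

/-- The second derivative of `1 / μ₂`. -/
def hm2 (A C t₀ s : ℝ) : ℝ :=
  5 / 2 * ((5 / 2 - 1) * s ^ (5 / 2 - 1 - 1 : ℝ)) / A + C ^ 2 * Real.exp (-(C * (s - t₀)))

section mu

variable {A C t₀ s : ℝ}

theorem hm_pos (hA : 0 < A) (hs : 0 ≤ s) : 0 < hm A C t₀ s := by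
  have h1 := Real.exp_pos (-(C * (s - t₀)))
  have h2 := Real.rpow_nonneg hs (5 / 2)
  unfold hm; positivity

theorem mu2_pos (hA : 0 < A) (hs : 0 ≤ s) : 0 < mu2 A C t₀ s := inv_pos.2 (hm_pos hA hs)

/-- `μ₂ ≤ A s^(-5/2)`. -/
theorem mu2_le (hA : 0 < A) (hs : 0 < s) : mu2 A C t₀ s ≤ A * s ^ (-(5 / 2) : ℝ) := by
  have h1 := Real.exp_pos (-(C * (s - t₀)))
  have h2 := Real.rpow_pos_of_pos hs (5 / 2)
  have e : A * s ^ (-(5 / 2) : ℝ) = (s ^ (5 / 2 : ℝ) / A)⁻¹ := by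
    rw [Real.rpow_neg hs.le, inv_div]
    exact (div_eq_mul_inv _ _).symm
  rw [e]
  unfold mu2 hm
  exact inv_anti₀ (by positivity) (by linarith)

/-- `μ₂ ≤ e^(C (s - t₀))`. -/
theorem mu2_le2 (hA : 0 < A) (hs : 0 ≤ s) : mu2 A C t₀ s ≤ Real.exp (C * (s - t₀)) := by
  have h1 := Real.exp_pos (-(C * (s - t₀)))
  have h2 := Real.rpow_nonneg hs (5 / 2)
  have e : Real.exp (C * (s - t₀)) = (Real.exp (-(C * (s - t₀))))⁻¹ := by
    rw [Real.exp_neg, inv_inv]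
  rw [e]
  unfold mu2 hm
  exact inv_anti₀ h1 (by have : 0 ≤ s ^ (5 / 2 : ℝ) / A := by positivity
                         linarith)

/-- `μ₂ ≥ (A / 2) s^(-5/2)` above the window. -/
theorem le_mu2 (hA : 0 < A) (hs : 0 < s)
    (h : Real.exp (-(C * (s - t₀))) ≤ s ^ (5 / 2 : ℝ) / A) :
    A / 2 * s ^ (-(5 / 2) : ℝ) ≤ mu2 A C t₀ s := by
  have h2 := Real.rpow_pos_of_pos hs (5 / 2)
  have e : A / 2 * s ^ (-(5 / 2) : ℝ) = (2 * (s ^ (5 / 2 : ℝ) / A))⁻¹ := by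
    rw [Real.rpow_neg hs.le, mul_inv, inv_div]
    ring
  rw [e]
  unfold mu2 hm
  have h1 := Real.exp_pos (-(C * (s - t₀)))
  exact inv_anti₀ (by positivity) (by linarith)

theorem hm_d (hs : 0 < s) : HasDerivAt (hm A C t₀) (hm1 A C t₀ s) s := by
  have h1 := (Real.hasDerivAt_rpow_const (x := s) (p := 5 / 2) (Or.inl hs.ne')).div_const A
  have h2 : HasDerivAt (fun s : ℝ => -(C * (s - t₀))) (-(C * 1)) s :=
    (((hasDerivAt_id s).sub_const t₀).const_mul C).fun_neg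
  have h3 := h1.fun_add h2.exp
  refine h3.congr_deriv ?_
  unfold hm1
  ring

theorem hm_dd (hs : 0 < s) : HasDerivAt (hm1 A C t₀) (hm2 A C t₀ s) s := by
  have h1 := ((Real.hasDerivAt_rpow_const (x := s) (p := 5 / 2 - 1)
    (Or.inl hs.ne')).const_mul (5 / 2)).div_const A
  have h2 : HasDerivAt (fun s : ℝ => -(C * (s - t₀))) (-(C * 1)) s :=
    (((hasDerivAt_id s).sub_const t₀).const_mul C).fun_neg
  have h3 := h1.fun_sub (h2.exp.const_mul C)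
  refine h3.congr_deriv ?_
  unfold hm2
  ring

theorem hm_c2 (hs : 0 < s) : ContDiffAt ℝ 2 (hm A C t₀) s := by
  have h1 : ContDiffAt ℝ 2 (fun s : ℝ => s ^ (5 / 2 : ℝ)) s :=
    Real.contDiffAt_rpow_const_of_ne hs.ne'
  have h2 : ContDiffAt ℝ 2 (fun s : ℝ => Real.exp (-(C * (s - t₀)))) s := by fun_prop
  exact (h1.div_const A).add h2

theorem hm_smooth (hs : 0 < s) : ContDiffAt ℝ ∞ (hm A C t₀) s := by
  have h1 : ContDiffAt ℝ ∞ (fun s : ℝ => s ^ (5 / 2 : ℝ)) s :=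
    Real.contDiffAt_rpow_const_of_ne hs.ne'
  have h2 : ContDiffAt ℝ ∞ (fun s : ℝ => Real.exp (-(C * (s - t₀)))) s := by fun_prop
  exact (h1.div_const A).add h2

theorem hm_b1 (hA : 0 < A) (hC : 5 / 2 ≤ C) (hs : 1 ≤ s) :
    |hm1 A C t₀ s| ≤ C * hm A C t₀ s := by
  have h1 := Real.exp_pos (-(C * (s - t₀)))
  have h2 : s ^ (5 / 2 - 1 : ℝ) ≤ s ^ (5 / 2 : ℝ) :=
    Real.rpow_le_rpow_of_exponent_le hs (by norm_num)
  have h3 := Real.rpow_nonneg (by linarith : (0 : ℝ) ≤ s) (5 / 2 - 1)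
  have h4 : 5 / 2 * s ^ (5 / 2 - 1 : ℝ) / A ≤ C * (s ^ (5 / 2 : ℝ) / A) := by
    rw [mul_div_assoc]
    exact mul_le_mul hC (div_le_div_of_nonneg_right h2 hA.le) (by positivity) (by linarith)
  have h5 : 0 ≤ 5 / 2 * s ^ (5 / 2 - 1 : ℝ) / A := by positivity
  have h6 : 0 ≤ C * Real.exp (-(C * (s - t₀))) := mul_nonneg (by linarith) h1.le
  have h7 : 0 ≤ C * (s ^ (5 / 2 : ℝ) / A) := h5.trans h4
  unfold hm1 hm
  rw [mul_add, abs_le]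
  constructor <;> linarith

theorem hm_b2 (hA : 0 < A) (hC : 5 / 2 ≤ C) (hs : 1 ≤ s) :
    |hm2 A C t₀ s| ≤ C ^ 2 * hm A C t₀ s := by
  have h1 := Real.exp_pos (-(C * (s - t₀)))
  have h2 : s ^ (5 / 2 - 1 - 1 : ℝ) ≤ s ^ (5 / 2 : ℝ) :=
    Real.rpow_le_rpow_of_exponent_le hs (by norm_num)
  have h3 := Real.rpow_nonneg (by linarith : (0 : ℝ) ≤ s) (5 / 2 - 1 - 1)
  have hC2 : 15 / 4 ≤ C ^ 2 := by nlinarith
  have h4 : 5 / 2 * ((5 / 2 - 1) * s ^ (5 / 2 - 1 - 1 : ℝ)) / A ≤ C ^ 2 * (s ^ (5 / 2 : ℝ) / A) := by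
    have e : 5 / 2 * ((5 / 2 - 1) * s ^ (5 / 2 - 1 - 1 : ℝ)) / A =
      15 / 4 * (s ^ (5 / 2 - 1 - 1 : ℝ) / A) := by ring
    rw [e]
    exact mul_le_mul hC2 (div_le_div_of_nonneg_right h2 hA.le) (by positivity) (by positivity)
  have h5 : 0 ≤ 5 / 2 * ((5 / 2 - 1) * s ^ (5 / 2 - 1 - 1 : ℝ)) / A := by positivity
  unfold hm2 hm
  rw [mul_add, abs_of_nonneg (by positivity)]
  linarith

end mu

/-! ## Logarithmic bounds -/

section gen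

variable {E : Type*} [NormedAddCommGroup E] [NormedSpace ℝ E] {ι : Type*}
variable {e : ι → E} {s : ι → ℝ} {f h u ρ lm : E → ℝ} {a b a' b' A : ℝ} {z : E}

theorem JB.inv' (h0 : 0 < f z) (hf : JB e s f (a * f z) (b * f z) z) :
    JB e s (fun y => (f y)⁻¹) (a * (f z)⁻¹) ((2 * a ^ 2 + b) * (f z)⁻¹) z := by
  have h1 := hf.comp (φ := fun t => t⁻¹) (φ' := fun t => -(t ^ 2)⁻¹) (c := 2 / f z ^ 3)
    (A := (f z ^ 2)⁻¹) (B := 2 / f z ^ 3) (contDiffAt_inv _ h0.ne')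
    ((lt_mem_nhds h0).mono fun t ht => hasDerivAt_inv (ne_of_gt ht))
    (by
      have h3 : HasDerivAt (fun t : ℝ => (t ^ 2)⁻¹) (-(2 * f z) / (f z ^ 2) ^ 2) (f z) := by
        have := (hasDerivAt_pow 2 (f z)).fun_inv (by positivity)
        simpa using this
      refine h3.fun_neg.congr_deriv ?_
      field_simp)
    (by rw [abs_neg, abs_of_pos (by positivity)]) (by rw [abs_of_pos (by positivity)])
  have e1 : (f z ^ 2)⁻¹ * (a * f z) = a * (f z)⁻¹ := by field_simp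
  have e2 : 2 / f z ^ 3 * (a * f z) ^ 2 + (f z ^ 2)⁻¹ * (b * f z) =
      (2 * a ^ 2 + b) * (f z)⁻¹ := by field_simp
  rwa [e1, e2] at h1

/-- `m = 2 e^u ρ`. -/
def mm (u ρ : E → ℝ) (z : E) : ℝ := 2 * Real.exp (u z) * ρ z

omit [NormedAddCommGroup E] [NormedSpace ℝ E] in
theorem mm_pos (h0 : 0 < ρ z) : 0 < mm u ρ z := by
  have := Real.exp_pos (u z)
  unfold mm; positivity

theorem jb_logm (h0 : 0 < ρ z) (hu : JB e s u a b z) (hρ : JB e s ρ (A * ρ z) (A * ρ z) z) :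
    JB e s (fun y => Real.log (mm u ρ y)) (a + A) (b + (A ^ 2 + A)) z := by
  have h1 := (hu.add (hρ.log h0)).addc (Real.log 2)
  refine h1.congr ?_
  filter_upwards [hρ.sm.continuousAt.eventually (lt_mem_nhds h0)] with y hy
  unfold mm
  rw [Real.log_mul (by positivity) hy.ne', Real.log_mul (by norm_num) (Real.exp_pos _).ne',
    Real.log_exp]
  ring

theorem jb_mm (hs : ∀ i, 0 ≤ s i) (h0 : 0 < ρ z) (hu : JB e s u a b z)
    (hρ : JB e s ρ (A * ρ z) (A * ρ z) z) :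
    JB e s (mm u ρ) ((a + A) * mm u ρ z) (((a + A) ^ 2 + (b + (A ^ 2 + A))) * mm u ρ z) z := by
  have h1 := (jb_logm h0 hu hρ).exp
  rw [Real.exp_log (mm_pos h0)] at h1
  have h2 : JB e s (mm u ρ) _ _ z := h1.congr (by
    filter_upwards [hρ.sm.continuousAt.eventually (lt_mem_nhds h0)] with y hy
    rw [Real.exp_log (mm_pos hy)])
  exact h2.mono hs (le_of_eq (by ring)) (le_of_eq (by ring))

/-- `K / (K + m)`. -/
def kq (K : ℝ → ℝ) (u ρ : E → ℝ) (z : E) : ℝ := K (u z) / (K (u z) + mm u ρ z)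

theorem jb_kq {K : ℝ → ℝ} {C : ℝ} (hs : ∀ i, 0 ≤ s i) (h0 : 0 < ρ z) (ha : 0 ≤ a) (hb : 0 ≤ b)
    (hA : 0 ≤ A) (hC : 0 ≤ C) (hu : JB e s u a b z) (hρ : JB e s ρ (A * ρ z) (A * ρ z) z)
    (hK : ContDiffAt ℝ 2 K (u z)) (K0 : 0 < K (u z)) (K1 : |deriv K (u z)| ≤ C * K (u z))
    (K2 : |deriv (deriv K) (u z)| ≤ C * K (u z)) :
    JB e s (kq K u ρ) ((a + A + C * a) * kq K u ρ z)
      ((3 * (a + A + C * a) ^ 2 + (b + (A ^ 2 + A) + ((C + C ^ 2) * a ^ 2 + C * b))) *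
        kq K u ρ z) z := by
  have h1 := (jb_logm h0 hu hρ).sub (jb_logK hu hK K0 K1 K2)
  have h2 := h1.exp.addc 1
  have hpK : ∀ᶠ y in 𝓝 z, 0 < K (u y) :=
    (hK.continuousAt.comp hu.sm.continuousAt).eventually (lt_mem_nhds K0)
  have hpρ : ∀ᶠ y in 𝓝 z, 0 < ρ y := hρ.sm.continuousAt.eventually (lt_mem_nhds h0)
  have key : ∀ y, 0 < K (u y) → 0 < ρ y → (Real.exp (Real.log (mm u ρ y) -
      Real.log (K (u y))) + 1)⁻¹ = kq K u ρ y := by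
    intro y k1 k2
    have := mm_pos (u := u) k2
    rw [Real.exp_sub, Real.exp_log this, Real.exp_log k1]
    unfold kq
    field_simp
    ring
  set X := Real.exp (Real.log (mm u ρ z) - Real.log (K (u z))) with hX
  have X0 : 0 < X := Real.exp_pos _
  have h3 := (h2.mono hs (a' := (a + A + C * a) * (X + 1))
    (b' := ((a + A + C * a) ^ 2 + (b + (A ^ 2 + A) + ((C + C ^ 2) * a ^ 2 + C * b))) * (X + 1))
    (by
      have : 0 ≤ a + A + C * a := by positivity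
      linarith)
    (by
      have : 0 ≤ (a + A + C * a) ^ 2 + (b + (A ^ 2 + A) + ((C + C ^ 2) * a ^ 2 + C * b)) := by
        positivity
      linarith)).inv' (by positivity)
  have h4 : JB e s (kq K u ρ) _ _ z := h3.congr (by
    filter_upwards [hpK, hpρ] with y k1 k2
    rw [key y k1 k2])
  rw [key z K0 h0] at h4
  exact h4.mono hs (le_of_eq (by ring)) (le_of_eq (by ring))

/-- `μ₂` of a function with bounded derivatives. -/
theorem jb_mu2 {Am C t₀ : ℝ} (hs : ∀ i, 0 ≤ s i) (hA : 0 < Am) (hC : 5 / 2 ≤ C) (h1 : 1 ≤ lm z)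
    (hl : JB e s lm a b z) : JB e s (fun y => mu2 Am C t₀ (lm y)) (C * a * mu2 Am C t₀ (lm z))
      ((3 * C ^ 2 * a ^ 2 + C * b) * mu2 Am C t₀ (lm z)) z := by
  have h0 : 0 < lm z := by linarith
  have h2 := hl.comp (φ := hm Am C t₀) (φ' := hm1 Am C t₀) (c := hm2 Am C t₀ (lm z))
    (hm_c2 h0) ((lt_mem_nhds h0).mono fun t ht => hm_d ht) (hm_dd h0) (hm_b1 hA hC h1)
    (hm_b2 hA hC h1)
  have hp := hm_pos (A := Am) (C := C) (t₀ := t₀) hA h0.le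
  have h4 : JB e s (fun y => hm Am C t₀ (lm y)) ((C * a) * hm Am C t₀ (lm z))
      ((C ^ 2 * a ^ 2 + C * b) * hm Am C t₀ (lm z)) z :=
    JB.mono hs h2 (le_of_eq (by ring)) (le_of_eq (by ring))
  have h3 := JB.inv' (f := fun y => hm Am C t₀ (lm y)) hp h4
  exact h3.mono hs (le_of_eq rfl) (le_of_eq (by unfold mu2; ring))

/-- **`k = c₁ m (K / (K + m) + μ₂ + S₀)`.** -/
def kk (c₁ S₀ : ℝ) (K m2 : ℝ → ℝ) (u ρ lm : E → ℝ) (z : E) : ℝ :=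
  c₁ * (mm u ρ z * (kq K u ρ z + m2 (lm z) + S₀))

omit [NormedAddCommGroup E] [NormedSpace ℝ E] in
theorem kq_pos {K : ℝ → ℝ} (h0 : 0 < ρ z) (K0 : 0 < K (u z)) : 0 < kq K u ρ z := by
  have := mm_pos (u := u) h0
  unfold kq; positivity

omit [NormedAddCommGroup E] [NormedSpace ℝ E] in
theorem kk_pos {c₁ S₀ : ℝ} {K m2 : ℝ → ℝ} (hc : 0 < c₁) (hS : 0 ≤ S₀) (h0 : 0 < ρ z)
    (K0 : 0 < K (u z)) (hm : 0 ≤ m2 (lm z)) : 0 < kk c₁ S₀ K m2 u ρ lm z := by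
  have h1 := mm_pos (u := u) h0
  have h2 := kq_pos h0 K0
  unfold kk; positivity

/-- The constant of the first derivatives of `k`. -/
def ca (a A C Cm : ℝ) : ℝ := a + A + (a + A + C * a + Cm * a)

/-- The constant of the second derivatives of `k`. -/
def cb (a b A C Cm : ℝ) : ℝ := (a + A) ^ 2 + (b + (A ^ 2 + A)) +
  2 * ((a + A) * (a + A + C * a + Cm * a)) +
  (3 * (a + A + C * a) ^ 2 + (b + (A ^ 2 + A) + ((C + C ^ 2) * a ^ 2 + C * b)) +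
    (3 * Cm ^ 2 * a ^ 2 + Cm * b))

/-- **The logarithmic derivatives of `k`.** -/
theorem jb_kk {K : ℝ → ℝ} {C Am Cm t₀ c₁ S₀ : ℝ} (hs : ∀ i, 0 ≤ s i) (h0 : 0 < ρ z) (ha : 0 ≤ a)
    (hb : 0 ≤ b) (hA : 0 ≤ A) (hC : 0 ≤ C) (hc : 0 ≤ c₁) (hS : 0 ≤ S₀) (hAm : 0 < Am)
    (hCm : 5 / 2 ≤ Cm) (h1 : 1 ≤ lm z) (hu : JB e s u a b z)
    (hρ : JB e s ρ (A * ρ z) (A * ρ z) z) (hl : JB e s lm a b z)
    (hK : ContDiffAt ℝ 2 K (u z)) (K0 : 0 < K (u z)) (K1 : |deriv K (u z)| ≤ C * K (u z))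
    (K2 : |deriv (deriv K) (u z)| ≤ C * K (u z)) :
    JB e s (kk c₁ S₀ K (mu2 Am Cm t₀) u ρ lm) (ca a A C Cm * kk c₁ S₀ K (mu2 Am Cm t₀) u ρ lm z)
      (cb a b A C Cm * kk c₁ S₀ K (mu2 Am Cm t₀) u ρ lm z) z := by
  have hm := (mm_pos (u := u) h0).le
  have hq := (kq_pos (u := u) (K := K) h0 K0).le
  have hv := (mu2_pos (A := Am) (C := Cm) (t₀ := t₀) (s := lm z) hAm (by linarith)).le
  have hCm0 : 0 ≤ Cm := by linarith
  have j1 := jb_kq hs h0 ha hb hA hC hu hρ hK K0 K1 K2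
  have j2 := jb_mu2 (t₀ := t₀) hs hAm hCm h1 hl
  set q := kq K u ρ z with hqq
  set v := mu2 Am Cm t₀ (lm z) with hvv
  have j3 : JB e s (fun y => kq K u ρ y + mu2 Am Cm t₀ (lm y) + S₀)
      ((a + A + C * a + Cm * a) * (q + v + S₀))
      ((3 * (a + A + C * a) ^ 2 + (b + (A ^ 2 + A) + ((C + C ^ 2) * a ^ 2 + C * b)) +
        (3 * Cm ^ 2 * a ^ 2 + Cm * b)) * (q + v + S₀)) z := by
    refine ((j1.add j2).addc S₀).mono hs ?_ ?_
    · have p1 : 0 ≤ a + A + C * a := by positivity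
      have p2 : 0 ≤ Cm * a := by positivity
      nlinarith [mul_nonneg p1 hv, mul_nonneg p1 hS, mul_nonneg p2 hq, mul_nonneg p2 hS]
    · have p1 : 0 ≤ 3 * (a + A + C * a) ^ 2 + (b + (A ^ 2 + A) + ((C + C ^ 2) * a ^ 2 + C * b)) := by
        positivity
      have p2 : 0 ≤ 3 * Cm ^ 2 * a ^ 2 + Cm * b := by positivity
      nlinarith [mul_nonneg p1 hv, mul_nonneg p1 hS, mul_nonneg p2 hq, mul_nonneg p2 hS]
  have j4 := ((jb_mm hs h0 hu hρ).mul j3 (F := mm u ρ z) (H := q + v + S₀)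
    (by rw [abs_of_nonneg hm])
    (by rw [abs_of_nonneg (by positivity)])).cmul c₁
  have j5 : JB e s (kk c₁ S₀ K (mu2 Am Cm t₀) u ρ lm) _ _ z := j4
  have ek : kk c₁ S₀ K (mu2 Am Cm t₀) u ρ lm z = c₁ * (mm u ρ z * (q + v + S₀)) := rfl
  rw [ek]
  rw [abs_of_nonneg hc] at j5
  refine j5.mono hs (le_of_eq ?_) (le_of_eq ?_)
  · unfold ca; ring
  · unfold cb; ring

/-- Two directions. -/
theorem JB.lin1 {i j : ι} {α β : ℝ} (hf : JB e s f a b z) :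
    |fderiv ℝ f z (α • e i + β • e j)| ≤ a * (|α| * s i + |β| * s j) := by
  rw [map_add, map_smul, map_smul, smul_eq_mul, smul_eq_mul]
  refine (abs_add_le _ _).trans ?_
  rw [abs_mul, abs_mul]
  have h1 := mul_le_mul_of_nonneg_left (hf.d1 i) (abs_nonneg α)
  have h2 := mul_le_mul_of_nonneg_left (hf.d1 j) (abs_nonneg β)
  linarith

theorem JB.lin2 {i j k l : ι} {α β α' β' : ℝ} (hf : JB e s f a b z) :
    |fderiv ℝ (fun y => fderiv ℝ f y (α • e i + β • e j)) z (α' • e k + β' • e l)| ≤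
      b * ((|α| * s i + |β| * s j) * (|α'| * s k + |β'| * s l)) := by
  have d := fun v => diff_fd hf.sm v
  have e1 : (fun y => fderiv ℝ f y (α • e i + β • e j)) = fun y => α * fderiv ℝ f y (e i) +
      β * fderiv ℝ f y (e j) := by
    funext y
    rw [map_add, map_smul, map_smul, smul_eq_mul, smul_eq_mul]
  rw [e1, fderiv_fun_add ((d (e i)).const_mul α) ((d (e j)).const_mul β),
    fderiv_const_mul (d (e i)), fderiv_const_mul (d (e j))]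
  simp only [_root_.add_apply, _root_.smul_apply, map_add, map_smul, smul_eq_mul]
  have q : ∀ (α α' : ℝ) (i k : ι), |α' * (α * fderiv ℝ (fun y => fderiv ℝ f y (e i)) z (e k))| ≤
      b * ((|α| * s i) * (|α'| * s k)) := by
    intro α α' i k
    rw [abs_mul, abs_mul]
    have h1 := mul_le_mul_of_nonneg_left (hf.d2 i k)
      (mul_nonneg (abs_nonneg α) (abs_nonneg α'))
    calc _ = |α| * |α'| * |fderiv ℝ (fun y => fderiv ℝ f y (e i)) z (e k)| := by ring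
      _ ≤ |α| * |α'| * (b * (s i * s k)) := h1
      _ = _ := by ring
  have h1 := q α α' i k
  have h2 := q β α' j k
  have h3 := q α β' i l
  have h4 := q β β' j l
  rw [mul_add, mul_add]
  refine (abs_add_le _ _).trans ((add_le_add ((abs_add_le _ _).trans (add_le_add h1 h2))
    ((abs_add_le _ _).trans (add_le_add h3 h4))).trans (le_of_eq ?_))
  ring

end gen

/-! ## The curved data -/

section cur

open Vale.Agent.P088.LR Vale.Agent.P088.HY Vale.Agent.P088.R2.H961.GW Vale.Agent.P088.R2.H464.Cu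

variable {n : ℕ} {D : ℝ} {O : Set (V n)} {g s : MF n} {l : V n → ℝ} {μ : ℝ → ℝ} {u f : VV n → ℝ}
  {z : VV n} {a b : ℝ}

theorem ex_ep (i : Fin n) : ((Pi.single i 1, 0) : VV n) =
    (1 / 2 : ℝ) • ep (Sum.inl i) + (1 : ℝ) • ep (Sum.inr i) := by
  refine Prod.ext ?_ ?_ <;> funext j <;>
    simp only [ep, Prod.smul_mk, Prod.mk_add_mk, Pi.add_apply, Pi.smul_apply, Pi.neg_apply,
      Pi.single_apply, smul_eq_mul, Pi.zero_apply] <;>
    split_ifs <;> norm_num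

theorem ey_ep (i : Fin n) : ((0, Pi.single i 1) : VV n) =
    (1 / 2 : ℝ) • ep (Sum.inl i) + (-1 : ℝ) • ep (Sum.inr i) := by
  refine Prod.ext ?_ ?_ <;> funext j <;>
    simp only [ep, Prod.smul_mk, Prod.mk_add_mk, Pi.add_apply, Pi.smul_apply, Pi.neg_apply,
      Pi.single_apply, smul_eq_mul, Pi.zero_apply] <;>
    split_ifs <;> norm_num

/-- **The directions `∂_{x_i}`, `∂_{y_i}`.** -/
theorem JB.dxy {ρ₀ : ℝ} (hf : JB ep (wt ρ₀) f a b z) (h0 : 0 < ρ₀) (h1 : ρ₀ ≤ 1) (ha : 0 ≤ a)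
    (i : Fin n) : |fderiv ℝ f z (Pi.single i 1, 0)| ≤ 3 / 2 * a / √ρ₀ ∧
      |fderiv ℝ f z (0, Pi.single i 1)| ≤ 3 / 2 * a / √ρ₀ ∧
      |fderiv ℝ f z (Pi.single i 1, 0) + fderiv ℝ f z (0, Pi.single i 1)| ≤ a := by
  have hs : 0 < √ρ₀ := Real.sqrt_pos.2 h0
  have hs1 : √ρ₀ ≤ 1 := Real.sqrt_le_one.2 h1
  have hi : 1 ≤ (√ρ₀)⁻¹ := (one_le_inv₀ hs).2 hs1
  have k1 : 1 / 2 * 1 + 1 * (√ρ₀)⁻¹ ≤ 3 / 2 * (√ρ₀)⁻¹ := by linarith
  have k2 := mul_le_mul_of_nonneg_left k1 ha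
  have k3 : a * (3 / 2 * (√ρ₀)⁻¹) = 3 / 2 * a / √ρ₀ := by ring
  refine ⟨?_, ?_, ?_⟩
  · rw [ex_ep]
    refine (hf.lin1 (i := Sum.inl i) (j := Sum.inr i)).trans ?_
    simp only [wt]
    rw [abs_of_pos (by norm_num : (0 : ℝ) < 1 / 2), abs_one]
    linarith
  · rw [ey_ep]
    refine (hf.lin1 (i := Sum.inl i) (j := Sum.inr i)).trans ?_
    simp only [wt]
    rw [abs_of_pos (by norm_num : (0 : ℝ) < 1 / 2), abs_neg, abs_one]
    linarith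
  · rw [← map_add]
    have e : ((Pi.single i 1, 0) : VV n) + (0, Pi.single i 1) = ep (Sum.inl i) := by
      simp [ep]
    rw [e]
    have := hf.d1 (Sum.inl i)
    simpa [wt] using this

/-- The second derivatives in the directions `∂_{x_i}`, `∂_{y_i}`. -/
theorem JB.dxy2 {ρ₀ : ℝ} (hf : JB ep (wt ρ₀) f a b z) (h0 : 0 < ρ₀) (h1 : ρ₀ ≤ 1) (hb : 0 ≤ b)
    (i j : Fin n) (v w : VV n) (hv : v = (Pi.single i 1, 0) ∨ v = (0, Pi.single i 1))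
    (hw : w = (Pi.single j 1, 0) ∨ w = (0, Pi.single j 1)) :
    |fderiv ℝ (fun y => fderiv ℝ f y v) z w| ≤ 9 / 4 * b / ρ₀ := by
  have hs : 0 < √ρ₀ := Real.sqrt_pos.2 h0
  have hs1 : √ρ₀ ≤ 1 := Real.sqrt_le_one.2 h1
  have hi : 1 ≤ (√ρ₀)⁻¹ := (one_le_inv₀ hs).2 hs1
  have k1 : 1 / 2 * 1 + 1 * (√ρ₀)⁻¹ ≤ 3 / 2 * (√ρ₀)⁻¹ := by linarith
  have k0 : 0 ≤ 1 / 2 * 1 + 1 * (√ρ₀)⁻¹ := by positivity
  have k2 := mul_le_mul_of_nonneg_left (mul_le_mul k1 k1 k0 (by positivity)) hb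
  have k3 : b * (3 / 2 * (√ρ₀)⁻¹ * (3 / 2 * (√ρ₀)⁻¹)) = 9 / 4 * b / ρ₀ := by
    have e : (√ρ₀)⁻¹ * (√ρ₀)⁻¹ = ρ₀⁻¹ := by
      rw [← mul_inv, Real.mul_self_sqrt h0.le]
    calc _ = 9 / 4 * b * ((√ρ₀)⁻¹ * (√ρ₀)⁻¹) := by ring
      _ = _ := by rw [e]; ring
  rw [k3] at k2
  have hv' : ∃ β : ℝ, |β| = 1 ∧ v = (1 / 2 : ℝ) • ep (Sum.inl i) + β • ep (Sum.inr i) := by
    rcases hv with h | h
    · exact ⟨1, abs_one, by rw [h, ex_ep]⟩
    · exact ⟨-1, by rw [abs_neg, abs_one], by rw [h, ey_ep]⟩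
  have hw' : ∃ β : ℝ, |β| = 1 ∧ w = (1 / 2 : ℝ) • ep (Sum.inl j) + β • ep (Sum.inr j) := by
    rcases hw with h | h
    · exact ⟨1, abs_one, by rw [h, ex_ep]⟩
    · exact ⟨-1, by rw [abs_neg, abs_one], by rw [h, ey_ep]⟩
  obtain ⟨β, b1, rfl⟩ := hv'
  obtain ⟨β', b2, rfl⟩ := hw'
  refine (hf.lin2 (i := Sum.inl i) (j := Sum.inr i) (k := Sum.inl j) (l := Sum.inr j)).trans ?_
  rw [b1, b2]
  simp only [wt]
  rw [abs_of_pos (by norm_num : (0 : ℝ) < 1 / 2)]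
  exact k2

/-- The mixed second derivatives `(∂_{x_j} + ∂_{y_j}) ∂_{x_i}`. -/
theorem JB.dpx {ρ₀ : ℝ} (hf : JB ep (wt ρ₀) f a b z) (h0 : 0 < ρ₀) (h1 : ρ₀ ≤ 1) (hb : 0 ≤ b)
    (i j : Fin n) (v : VV n) (hv : v = (Pi.single i 1, 0) ∨ v = (0, Pi.single i 1)) :
    |fderiv ℝ (fun y => fderiv ℝ f y v) z (Pi.single j 1, Pi.single j 1)| ≤
      3 / 2 * b / √ρ₀ := by
  have hs : 0 < √ρ₀ := Real.sqrt_pos.2 h0
  have hs1 : √ρ₀ ≤ 1 := Real.sqrt_le_one.2 h1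
  have hi : 1 ≤ (√ρ₀)⁻¹ := (one_le_inv₀ hs).2 hs1
  have k1 : 1 / 2 * 1 + 1 * (√ρ₀)⁻¹ ≤ 3 / 2 * (√ρ₀)⁻¹ := by linarith
  have k2 := mul_le_mul_of_nonneg_left k1 hb
  have k3 : b * (3 / 2 * (√ρ₀)⁻¹) = 3 / 2 * b / √ρ₀ := by ring
  have hv' : ∃ β : ℝ, |β| = 1 ∧ v = (1 / 2 : ℝ) • ep (Sum.inl i) + β • ep (Sum.inr i) := by
    rcases hv with h | h
    · exact ⟨1, abs_one, by rw [h, ex_ep]⟩
    · exact ⟨-1, by rw [abs_neg, abs_one], by rw [h, ey_ep]⟩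
  obtain ⟨β, b1, rfl⟩ := hv'
  have ej : ((Pi.single j 1, Pi.single j 1) : VV n) =
      (1 : ℝ) • ep (Sum.inl j) + (0 : ℝ) • ep (Sum.inr j) := by
    simp [ep]
  rw [ej]
  refine (hf.lin2 (i := Sum.inl i) (j := Sum.inr i) (k := Sum.inl j) (l := Sum.inr j)).trans ?_
  rw [b1]
  simp only [wt]
  rw [abs_of_pos (by norm_num : (0 : ℝ) < 1 / 2), abs_one, abs_zero]
  linarith

/-- **The slot form**: `|σ.D i k| ≤ 3 a (k / r)`, `r² = 2 ρ`. -/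
theorem JB.slot {α r : ℝ} (hf : JB ep (wt (rq g z)) f (α * f z) b z) (h0 : 0 < rq g z)
    (h1 : rq g z ≤ 1) (hα : 0 ≤ α) (hfz : 0 ≤ f z) (hr : 0 < r) (hr2 : r ^ 2 = 2 * rq g z)
    (i : Fin n) : |(sx s).D i f z| ≤ 3 * α * (f z / r) ∧ |(sy s).D i f z| ≤ 3 * α * (f z / r) := by
  have h := hf.dxy h0 h1 (mul_nonneg hα hfz) i
  have hs : 0 < √(rq g z) := Real.sqrt_pos.2 h0
  have hle : r ≤ 2 * √(rq g z) := by
    refine (abs_le_of_sq_le_sq' ?_ (by positivity)).2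
    rw [hr2, mul_pow, Real.sq_sqrt h0.le]
    linarith
  have k : 3 / 2 * (α * f z) / √(rq g z) ≤ 3 * α * (f z / r) := by
    rw [div_le_iff₀ hs]
    have e : 3 * α * (f z / r) * √(rq g z) = 3 / 2 * (α * f z) * (2 * √(rq g z) / r) := by
      field_simp
    rw [e]
    have h2 : 1 ≤ 2 * √(rq g z) / r := (one_le_div hr).2 hle
    have h3 : 0 ≤ 3 / 2 * (α * f z) := by positivity
    nlinarith
  rw [Dx1, Dy1]
  exact ⟨h.1.trans k, h.2.1.trans k⟩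

/-- **`k` for the curved data.** -/
theorem Cd.kk {K : ℝ → ℝ} {Am Cm t₀ c₁ S₀ : ℝ} (h : Cd D O g l μ u z) (hD : 0 ≤ D)
    (h0 : 0 < rq g z) (hc : 0 ≤ c₁) (hS : 0 ≤ S₀) (hAm : 0 < Am) (hCm : 5 / 2 ≤ Cm)
    (h1 : 1 ≤ l (mid z)) (hK : ContDiffAt ℝ 2 K (u z)) (K0 : 0 < K (u z))
    (K1 : |deriv K (u z)| ≤ D * K (u z)) (K2 : |deriv (deriv K) (u z)| ≤ D * K (u z)) :
    JB ep (wt (rq g z)) (EP.kk c₁ S₀ K (mu2 Am Cm t₀) u (rq g) fun y => l (mid y))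
      (ca (cQ n D) (cQ n D) D Cm *
        EP.kk c₁ S₀ K (mu2 Am Cm t₀) u (rq g) (fun y => l (mid y)) z)
      (cb (cQ n D) (cQ n D) (cQ n D) D Cm *
        EP.kk c₁ S₀ K (mu2 Am Cm t₀) u (rq g) (fun y => l (mid y)) z) z := by
  have hQ := cQ_nn (n := n) hD
  have hDQ : D ≤ cQ n D := by
    have := cA_nn (n := n) hD
    unfold cQ
    nlinarith [mul_nonneg hD hD, pow_nonneg hD 3, sq_nonneg D]
  have hl : JB ep (wt (rq g z)) (fun y => l (mid y)) (cQ n D) (cQ n D) z := by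
    have h2 := (jb_mid h.op h.lb h.hm).mono_s (Λ := 1) (s' := wt (rq g z)) hD hD
      (fun _ => zero_le_one) (fun i => by
        rcases i with i | i
        · simp [wt]
        · rw [one_mul]
          refine (one_le_inv₀ (Real.sqrt_pos.2 h0)).2 ?_
          rw [Real.sqrt_le_one]
          exact h.ρ1)
    exact h2.le (wt_nonneg _) (by linarith) (by linarith)
  exact jb_kk (wt_nonneg _) h0 hQ hQ hQ hD hc hS hAm hCm h1 (h.ju hD h0) (h.jr hD h0) hl hK K0 K1 K2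

end cur

end Vale.Agent.P088.R2.H932.EP
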