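import Vale.Agent.P088.R2.H932.EP.Kk

/-!
# P088: the slots `sx s₁`, `sy s₂` applied to a function in the natural scale

From `JB ep (wt ρ) f a b z`: `D`, `Γ`, `Λ` of both slots, and the cancellations in `∂_x + ∂_y` and
`Λ_x - Λ_y`.
-/

open Set Filter
open scoped Topology ContDiff Matrix

noncomputable section

namespace Vale.Agent.P088.R2.H932.EP

open Vale.Agent.P088.LR Vale.Agent.P088.HY Vale.Agent.P088.R2.H961.GW Vale.Agent.P088.R2.H464.Cu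
open Vale.Agent.P088.R2.H644 (Ch.Gr)

/-- The second derivative is bilinear. -/
theorem fd2_lin {E : Type*} [NormedAddCommGroup E] [NormedSpace ℝ E] {f : E → ℝ} {z : E}
    (hf : ContDiffAt ℝ 2 f z) (α β γ δ : ℝ) (v v' w w' : E) :
    fderiv ℝ (fun y => fderiv ℝ f y (α • v + β • v')) z (γ • w + δ • w') =
      α * (γ * fderiv ℝ (fun y => fderiv ℝ f y v) z w +
        δ * fderiv ℝ (fun y => fderiv ℝ f y v) z w') +
      β * (γ * fderiv ℝ (fun y => fderiv ℝ f y v') z w +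
        δ * fderiv ℝ (fun y => fderiv ℝ f y v') z w') := by
  have d := fun v => diff_fd hf v
  have e1 : (fun y => fderiv ℝ f y (α • v + β • v')) = fun y => α * fderiv ℝ f y v +
      β * fderiv ℝ f y v' := by
    funext y
    rw [map_add, map_smul, map_smul, smul_eq_mul, smul_eq_mul]
  rw [e1, fderiv_fun_add ((d v).const_mul α) ((d v').const_mul β),
    fderiv_const_mul (d v), fderiv_const_mul (d v')]
  simp only [_root_.add_apply, _root_.smul_apply, map_add, map_smul, smul_eq_mul]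
  ring

variable {n : ℕ} {O : Set (V n)} {ε δ₁ δ₂ h₀ h₁ κ a b ρ₀ : ℝ} {s s₁ s₂ : MF n} {f : VV n → ℝ}
  {z : VV n}

theorem DDx (i j : Fin n) : (sx s).D i ((sx s).D j f) z =
    fderiv ℝ (fun y => fderiv ℝ f y (Pi.single j 1, 0)) z (Pi.single i 1, 0) := by
  rw [Dx1]
  congr 2
  funext y
  exact Dx1 j f y

theorem DDy (i j : Fin n) : (sy s).D i ((sy s).D j f) z =
    fderiv ℝ (fun y => fderiv ℝ f y (0, Pi.single j 1)) z (0, Pi.single i 1) := by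
  rw [Dy1]
  congr 2
  funext y
  exact Dy1 j f y

theorem kx0 (i : Fin n) : (sx s).k i z = 0 := by
  simp [sx, slx, pd]

theorem ky0 (i : Fin n) : (sy s).k i z = 0 := by
  simp [sy, sly, pd]

theorem sx_s (i j : Fin n) : (sx s).s i j z = s z.1 i j := rfl

theorem sy_s (i j : Fin n) : (sy s).s i j z = s z.2 i j := rfl

theorem Dsx (hs : ∀ i j, DifferentiableAt ℝ (fun x => s x i j) z.1) (i j k : Fin n) :
    (sx s).D k ((sx s).s i j) z = pd k (fun y => s y i j) z.1 := by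
  have := Dx_fst (r := fun _ => (1 : ℝ)) (s := s) (z := z) (hs i j) k
  rw [one_mul] at this
  exact this

theorem Dsy (hs : ∀ i j, DifferentiableAt ℝ (fun x => s x i j) z.2) (i j k : Fin n) :
    (sy s).D k ((sy s).s i j) z = pd k (fun y => s y i j) z.2 := by
  have := Dy_snd (r := fun _ => (1 : ℝ)) (s := s) (z := z) (hs i j) k
  rw [one_mul] at this
  exact this

theorem Lx_eq (hs : ∀ i j, DifferentiableAt ℝ (fun x => s x i j) z.1) : (sx s).Λ f z =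
    ∑ i, ∑ j, (s z.1 i j *
      fderiv ℝ (fun y => fderiv ℝ f y (Pi.single j 1, 0)) z (Pi.single i 1, 0) +
      pd i (fun y => s y i j) z.1 * fderiv ℝ f z (Pi.single j 1, 0)) := by
  unfold Sl.Λ
  refine Finset.sum_congr rfl fun i _ => Finset.sum_congr rfl fun j _ => ?_
  rw [DDx, kx0, Dsx hs, Dx1, zero_mul, add_zero, sx_s]

theorem Ly_eq (hs : ∀ i j, DifferentiableAt ℝ (fun x => s x i j) z.2) : (sy s).Λ f z =
    ∑ i, ∑ j, (s z.2 i j *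
      fderiv ℝ (fun y => fderiv ℝ f y (0, Pi.single j 1)) z (0, Pi.single i 1) +
      pd i (fun y => s y i j) z.2 * fderiv ℝ f z (0, Pi.single j 1)) := by
  unfold Sl.Λ
  refine Finset.sum_congr rfl fun i _ => Finset.sum_congr rfl fun j _ => ?_
  rw [DDy, ky0, Dsy hs, Dy1, zero_mul, add_zero, sy_s]

/-- The cancellation in the second derivatives. -/
theorem xy_diff (hf : JB ep (wt ρ₀) f a b z) (i j : Fin n) :
    |fderiv ℝ (fun y => fderiv ℝ f y (Pi.single j 1, 0)) z (Pi.single i 1, 0) -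
      fderiv ℝ (fun y => fderiv ℝ f y (0, Pi.single j 1)) z (0, Pi.single i 1)| ≤
      2 * b / √ρ₀ := by
  rw [ex_ep, ex_ep, ey_ep, ey_ep, fd2_lin hf.sm, fd2_lin hf.sm]
  have h1 := hf.d2 (Sum.inl j) (Sum.inr i)
  have h2 := hf.d2 (Sum.inr j) (Sum.inl i)
  simp only [wt, one_mul, mul_one] at h1 h2
  have e : 2 * b / √ρ₀ = b * (√ρ₀)⁻¹ + b * (√ρ₀)⁻¹ := by ring
  rw [e]
  rw [abs_le] at h1 h2 ⊢
  constructor <;> linarith [h1.1, h1.2, h2.1, h2.2]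

theorem sq_le_of (h0 : 0 < ρ₀) (h1 : ρ₀ ≤ 1) : (√ρ₀)⁻¹ ≤ ρ₀⁻¹ := by
  have hs : 0 < √ρ₀ := Real.sqrt_pos.2 h0
  refine inv_anti₀ h0 ?_
  have h2 : √ρ₀ ≤ 1 := Real.sqrt_le_one.2 h1
  calc ρ₀ = √ρ₀ * √ρ₀ := (Real.mul_self_sqrt h0.le).symm
    _ ≤ √ρ₀ * 1 := mul_le_mul_of_nonneg_left h2 hs.le
    _ = √ρ₀ := mul_one _

/-- **`Λ` of the first slot.** -/
theorem Lx_le (hf : JB ep (wt ρ₀) f a b z) (h0 : 0 < ρ₀) (h1 : ρ₀ ≤ 1) (ha : 0 ≤ a) (hb : 0 ≤ b)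
    (hs : ∀ i j, DifferentiableAt ℝ (fun x => s x i j) z.1) (hs2 : ∀ i j, |s z.1 i j| ≤ 2)
    (hd : ∀ k i j, |pd k (fun y => s y i j) z.1| ≤ δ₁) :
    |(sx s).Λ f z| ≤ n ^ 2 * ((5 * b + 2 * (δ₁ * a)) / ρ₀) := by
  rw [Lx_eq hs]
  refine sum_le2 fun i j => ?_
  have k1 := hf.dxy2 h0 h1 hb j i (Pi.single j 1, 0) (Pi.single i 1, 0) (Or.inl rfl) (Or.inl rfl)
  have k2 := (hf.dxy h0 h1 ha j).1
  have hδ : 0 ≤ δ₁ := (abs_nonneg _).trans (hd i i j)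
  have q1 : |s z.1 i j *
      fderiv ℝ (fun y => fderiv ℝ f y (Pi.single j 1, 0)) z (Pi.single i 1, 0)| ≤
      2 * (9 / 4 * b / ρ₀) := by
    rw [abs_mul]
    exact mul_le_mul (hs2 i j) k1 (abs_nonneg _) (by norm_num)
  have q2 : |pd i (fun y => s y i j) z.1 * fderiv ℝ f z (Pi.single j 1, 0)| ≤
      δ₁ * (3 / 2 * a / √ρ₀) := by
    rw [abs_mul]
    exact mul_le_mul (hd i i j) k2 (abs_nonneg _) hδ
  have q3 : δ₁ * (3 / 2 * a / √ρ₀) ≤ 3 / 2 * (δ₁ * a) * ρ₀⁻¹ := by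
    have e : δ₁ * (3 / 2 * a / √ρ₀) = 3 / 2 * (δ₁ * a) * (√ρ₀)⁻¹ := by ring
    rw [e]
    exact mul_le_mul_of_nonneg_left (sq_le_of h0 h1) (by positivity)
  have hi : 0 < ρ₀⁻¹ := inv_pos.2 h0
  have p1 : 0 ≤ b * ρ₀⁻¹ := by positivity
  have p2 : 0 ≤ δ₁ * a * ρ₀⁻¹ := by positivity
  refine (abs_add_le _ _).trans ((add_le_add q1 (q2.trans q3)).trans ?_)
  calc _ = 9 / 2 * (b * ρ₀⁻¹) + 3 / 2 * (δ₁ * a * ρ₀⁻¹) := by ring
    _ ≤ 5 * (b * ρ₀⁻¹) + 2 * (δ₁ * a * ρ₀⁻¹) := by linarith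
    _ = _ := by ring

/-- **`Λ` of the second slot.** -/
theorem Ly_le (hf : JB ep (wt ρ₀) f a b z) (h0 : 0 < ρ₀) (h1 : ρ₀ ≤ 1) (ha : 0 ≤ a) (hb : 0 ≤ b)
    (hs : ∀ i j, DifferentiableAt ℝ (fun x => s x i j) z.2) (hs2 : ∀ i j, |s z.2 i j| ≤ 2)
    (hd : ∀ k i j, |pd k (fun y => s y i j) z.2| ≤ δ₁) :
    |(sy s).Λ f z| ≤ n ^ 2 * ((5 * b + 2 * (δ₁ * a)) / ρ₀) := by
  rw [Ly_eq hs]
  refine sum_le2 fun i j => ?_
  have k1 := hf.dxy2 h0 h1 hb j i (0, Pi.single j 1) (0, Pi.single i 1) (Or.inr rfl) (Or.inr rfl)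
  have k2 := (hf.dxy h0 h1 ha j).2.1
  have hδ : 0 ≤ δ₁ := (abs_nonneg _).trans (hd i i j)
  have q1 : |s z.2 i j *
      fderiv ℝ (fun y => fderiv ℝ f y (0, Pi.single j 1)) z (0, Pi.single i 1)| ≤
      2 * (9 / 4 * b / ρ₀) := by
    rw [abs_mul]
    exact mul_le_mul (hs2 i j) k1 (abs_nonneg _) (by norm_num)
  have q2 : |pd i (fun y => s y i j) z.2 * fderiv ℝ f z (0, Pi.single j 1)| ≤
      δ₁ * (3 / 2 * a / √ρ₀) := by
    rw [abs_mul]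
    exact mul_le_mul (hd i i j) k2 (abs_nonneg _) hδ
  have q3 : δ₁ * (3 / 2 * a / √ρ₀) ≤ 3 / 2 * (δ₁ * a) * ρ₀⁻¹ := by
    have e : δ₁ * (3 / 2 * a / √ρ₀) = 3 / 2 * (δ₁ * a) * (√ρ₀)⁻¹ := by ring
    rw [e]
    exact mul_le_mul_of_nonneg_left (sq_le_of h0 h1) (by positivity)
  have hi : 0 < ρ₀⁻¹ := inv_pos.2 h0
  have p1 : 0 ≤ b * ρ₀⁻¹ := by positivity
  have p2 : 0 ≤ δ₁ * a * ρ₀⁻¹ := by positivity
  refine (abs_add_le _ _).trans ((add_le_add q1 (q2.trans q3)).trans ?_)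
  calc _ = 9 / 2 * (b * ρ₀⁻¹) + 3 / 2 * (δ₁ * a * ρ₀⁻¹) := by ring
    _ ≤ 5 * (b * ρ₀⁻¹) + 2 * (δ₁ * a * ρ₀⁻¹) := by linarith
    _ = _ := by ring

/-- **The cancellation in `Λ_x - Λ_y`**, `|s₁(x) - s₂(y)| ≤ κ`. -/
theorem L_sub (hf : JB ep (wt ρ₀) f a b z) (h0 : 0 < ρ₀) (h1 : ρ₀ ≤ 1) (ha : 0 ≤ a) (hb : 0 ≤ b)
    (hs : ∀ i j, DifferentiableAt ℝ (fun x => s₁ x i j) z.1)
    (ht : ∀ i j, DifferentiableAt ℝ (fun x => s₂ x i j) z.2)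
    (hs2 : ∀ i j, |s₁ z.1 i j| ≤ 2) (hκ : ∀ i j, |s₁ z.1 i j - s₂ z.2 i j| ≤ κ)
    (hd : ∀ k i j, |pd k (fun y => s₁ y i j) z.1| ≤ δ₁)
    (hd' : ∀ k i j, |pd k (fun y => s₂ y i j) z.2| ≤ δ₁) :
    |(sx s₁).Λ f z - (sy s₂).Λ f z| ≤
      n ^ 2 * ((4 * b + 3 * (δ₁ * a)) / √ρ₀ + 9 / 4 * (κ * b) / ρ₀) := by
  rw [Lx_eq hs, Ly_eq ht]
  simp only [← Finset.sum_sub_distrib]
  refine sum_le2 fun i j => ?_
  have k1 := hf.dxy2 h0 h1 hb j i (0, Pi.single j 1) (0, Pi.single i 1) (Or.inr rfl) (Or.inr rfl)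
  have k2 := (hf.dxy h0 h1 ha j).1
  have k3 := (hf.dxy h0 h1 ha j).2.1
  have k4 := xy_diff hf i j
  have hδ : 0 ≤ δ₁ := (abs_nonneg _).trans (hd i i j)
  have hk : 0 ≤ κ := (abs_nonneg _).trans (hκ i j)
  set X := fderiv ℝ (fun y => fderiv ℝ f y (Pi.single j 1, 0)) z (Pi.single i 1, 0)
  set Y := fderiv ℝ (fun y => fderiv ℝ f y (0, Pi.single j 1)) z (0, Pi.single i 1)
  set x := fderiv ℝ f z (Pi.single j 1, 0)
  set y := fderiv ℝ f z (0, Pi.single j 1)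
  have q1 : |s₁ z.1 i j * (X - Y)| ≤ 2 * (2 * b / √ρ₀) := by
    rw [abs_mul]
    exact mul_le_mul (hs2 i j) k4 (abs_nonneg _) (by norm_num)
  have q2 : |(s₁ z.1 i j - s₂ z.2 i j) * Y| ≤ κ * (9 / 4 * b / ρ₀) := by
    rw [abs_mul]
    exact mul_le_mul (hκ i j) k1 (abs_nonneg _) hk
  have q3 : |pd i (fun y => s₁ y i j) z.1 * x| ≤ δ₁ * (3 / 2 * a / √ρ₀) := by
    rw [abs_mul]
    exact mul_le_mul (hd i i j) k2 (abs_nonneg _) hδ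
  have q4 : |pd i (fun y => s₂ y i j) z.2 * y| ≤ δ₁ * (3 / 2 * a / √ρ₀) := by
    rw [abs_mul]
    exact mul_le_mul (hd' i i j) k3 (abs_nonneg _) hδ
  have e : s₁ z.1 i j * X + pd i (fun y => s₁ y i j) z.1 * x -
      (s₂ z.2 i j * Y + pd i (fun y => s₂ y i j) z.2 * y) =
      s₁ z.1 i j * (X - Y) + (s₁ z.1 i j - s₂ z.2 i j) * Y +
        (pd i (fun y => s₁ y i j) z.1 * x - pd i (fun y => s₂ y i j) z.2 * y) := by ring
  rw [e]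
  refine (abs_add_le _ _).trans ((add_le_add ((abs_add_le _ _).trans (add_le_add q1 q2))
    ((abs_sub _ _).trans (add_le_add q3 q4))).trans (le_of_eq ?_))
  ring

/-- **The gradient of one slot.** -/
theorem Gr_le (hf : JB ep (wt ρ₀) f a b z) (h0 : 0 < ρ₀) (h1 : ρ₀ ≤ 1) (ha : 0 ≤ a)
    (hs2 : ∀ i j, |s₁ z.1 i j| ≤ 2) (ht2 : ∀ i j, |s₂ z.2 i j| ≤ 2) (i : Fin n) :
    |Ch.Gr (sx s₁) f i z| ≤ n * (3 * a / √ρ₀) ∧ |Ch.Gr (sy s₂) f i z| ≤ n * (3 * a / √ρ₀) := by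
  constructor
  · unfold Ch.Gr
    refine sum_le1 fun j => ?_
    rw [abs_mul, sx_s, Dx1]
    calc _ ≤ 2 * (3 / 2 * a / √ρ₀) :=
          mul_le_mul (hs2 i j) (hf.dxy h0 h1 ha j).1 (abs_nonneg _) (by norm_num)
      _ = _ := by ring
  · unfold Ch.Gr
    refine sum_le1 fun j => ?_
    rw [abs_mul, sy_s, Dy1]
    calc _ ≤ 2 * (3 / 2 * a / √ρ₀) :=
          mul_le_mul (ht2 i j) (hf.dxy h0 h1 ha j).2.1 (abs_nonneg _) (by norm_num)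
      _ = _ := by ring

/-- **The cancellation in the sum of the gradients.** -/
theorem Gr_add (hf : JB ep (wt ρ₀) f a b z) (h0 : 0 < ρ₀) (h1 : ρ₀ ≤ 1) (ha : 0 ≤ a)
    (hs2 : ∀ i j, |s₁ z.1 i j| ≤ 2) (hκ : ∀ i j, |s₁ z.1 i j - s₂ z.2 i j| ≤ κ) (i : Fin n) :
    |Ch.Gr (sx s₁) f i z + Ch.Gr (sy s₂) f i z| ≤ n * (2 * a + 3 / 2 * (κ * a) / √ρ₀) := by
  unfold Ch.Gr
  rw [← Finset.sum_add_distrib]
  refine sum_le1 fun j => ?_
  rw [sx_s, sy_s, Dx1, Dy1]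
  have k := hf.dxy h0 h1 ha j
  have hk : 0 ≤ κ := (abs_nonneg _).trans (hκ i j)
  set x := fderiv ℝ f z (Pi.single j 1, 0)
  set y := fderiv ℝ f z (0, Pi.single j 1)
  have e : s₁ z.1 i j * x + s₂ z.2 i j * y = s₁ z.1 i j * (x + y) -
      (s₁ z.1 i j - s₂ z.2 i j) * y := by ring
  rw [e]
  refine (abs_sub _ _).trans ?_
  rw [abs_mul, abs_mul]
  have q1 := mul_le_mul (hs2 i j) k.2.2 (abs_nonneg _) (by norm_num : (0 : ℝ) ≤ 2)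
  have q2 := mul_le_mul (hκ i j) k.2.1 (abs_nonneg _) hk
  calc _ ≤ 2 * a + κ * (3 / 2 * a / √ρ₀) := add_le_add q1 q2
    _ = _ := by ring

/-- The sum of the derivations. -/
theorem D_add (hf : JB ep (wt ρ₀) f a b z) (i : Fin n) :
    |(sx s₁).D i f z + (sy s₂).D i f z| ≤ a := by
  rw [Dx1, Dy1, ← map_add]
  have e : ((Pi.single i 1, 0) : VV n) + (0, Pi.single i 1) = ep (Sum.inl i) := by
    simp [ep]
  rw [e]
  simpa [wt] using hf.d1 (Sum.inl i)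

/-- The difference of two tensors at two points, near the diagonal. -/
theorem kap_le {O : Set (V n)} {ε' δ₂ : ℝ} {g : MF n} (hO : IsOpen O) (hc : Convex ℝ O)
    (h : Nr O ε δ₁ δ₂ s₁) (hh : Dst O h₀ h₁ s₁ s₂) (hδ : 0 ≤ δ₁) (hg : Nr O ε' h₁ δ₂ g)
    (hε : n * ε' ≤ 1 / 2) (hx : z.1 ∈ O) (hy : z.2 ∈ O) (hm : mid z ∈ O) (i j : Fin n) :
    |s₁ z.1 i j - s₂ z.2 i j| ≤ 3 * n * δ₁ * √(rq g z) + h₀ := by
  have a1 := h.mv hO hc hδ hx hy i j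
  have a2 := hh.b0 z.2 hy i j
  have a3 := nd_le hg hε hm
  have a4 : z.1 - z.2 = dif z := rfl
  rw [a4] at a1
  have e : s₁ z.1 i j - s₂ z.2 i j = (s₁ z.1 i j - s₁ z.2 i j) + (s₁ z.2 i j - s₂ z.2 i j) := by
    ring
  rw [e]
  have a5 := mul_le_mul_of_nonneg_left a3 (by positivity : 0 ≤ (n : ℝ) * δ₁)
  refine (abs_add_le _ _).trans ((add_le_add (a1.trans a5) a2).trans (le_of_eq ?_))
  ring

end Vale.Agent.P088.R2.H932.EP
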