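import Vale.Agent.P088.R2.H932.EP.Sh

/-!
# P088: the near weight `W = Φ(u) + e^u S(2ρ)`, first and second derivatives

Directions `D_p`, `D_q`; `m ~ E ρ`, `s = √ρ`. Also on the diagonal.
-/

open Set Filter
open scoped Topology ContDiff Matrix

noncomputable section

namespace Vale.Agent.P088.R2.H932.EP

section gen

variable {E : Type*} [NormedAddCommGroup E] [NormedSpace ℝ E]
variable {u ρ : E → ℝ} {Φ S : ℝ → ℝ} {z : E}

/-- The weight. -/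
def Wn (Φ S : ℝ → ℝ) (u ρ : E → ℝ) (z : E) : ℝ := Φ (u z) + Real.exp (u z) * S (2 * ρ z)

theorem hd1 {f : ℝ → ℝ} (hf : ContDiff ℝ ∞ f) (t : ℝ) : HasDerivAt f (deriv f t) t :=
  (hf.differentiable (by simp) t).hasDerivAt

theorem sm1 {f : ℝ → ℝ} (hf : ContDiff ℝ ∞ f) : ContDiff ℝ ∞ (deriv f) :=
  (contDiff_infty_iff_deriv.1 hf).2

theorem cd2 {f : ℝ → ℝ} (hf : ContDiff ℝ ∞ f) (t : ℝ) : ContDiffAt ℝ 2 f t :=
  hf.contDiffAt.of_le (WithTop.coe_le_coe.2 le_top)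

/-- The first derivative. -/
theorem fdW (hu : ContDiffAt ℝ 2 u z) (hρ : ContDiffAt ℝ 2 ρ z) (hΦ : ContDiff ℝ ∞ Φ)
    (hS : ContDiff ℝ ∞ S) (v : E) : fderiv ℝ (Wn Φ S u ρ) z v =
      (deriv Φ (u z) + Real.exp (u z) * S (2 * ρ z)) * fderiv ℝ u z v +
        2 * (Real.exp (u z) * deriv S (2 * ρ z)) * fderiv ℝ ρ z v := by
  have du := (ev_diff hu).self_of_nhds
  have dρ := (ev_diff hρ).self_of_nhds
  have h1 : HasFDerivAt (fun y => Φ (u y)) (deriv Φ (u z) • fderiv ℝ u z) z :=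
    (hd1 hΦ _).comp_hasFDerivAt z du.hasFDerivAt
  have h2 : HasFDerivAt (fun y => S (2 * ρ y)) (deriv S (2 * ρ z) • ((2 : ℝ) • fderiv ℝ ρ z)) z :=
    (hd1 hS _).comp_hasFDerivAt z (dρ.hasFDerivAt.const_mul 2)
  have h3 : HasFDerivAt (Wn Φ S u ρ) _ z := h1.fun_add (du.hasFDerivAt.exp.fun_mul h2)
  rw [h3.fderiv]
  simp only [_root_.add_apply, _root_.smul_apply, smul_eq_mul]
  ring

/-- The second derivative. -/
theorem fd2W (hu : ContDiffAt ℝ 2 u z) (hρ : ContDiffAt ℝ 2 ρ z) (hΦ : ContDiff ℝ ∞ Φ)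
    (hS : ContDiff ℝ ∞ S) (v w : E) : fderiv ℝ (fun y => fderiv ℝ (Wn Φ S u ρ) y v) z w =
      (deriv (deriv Φ) (u z) + Real.exp (u z) * S (2 * ρ z)) * fderiv ℝ u z v * fderiv ℝ u z w +
      (deriv Φ (u z) + Real.exp (u z) * S (2 * ρ z)) *
        fderiv ℝ (fun y => fderiv ℝ u y v) z w +
      2 * (Real.exp (u z) * deriv S (2 * ρ z)) * (fderiv ℝ u z v * fderiv ℝ ρ z w +
        fderiv ℝ u z w * fderiv ℝ ρ z v + fderiv ℝ (fun y => fderiv ℝ ρ y v) z w) +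
      4 * (Real.exp (u z) * deriv (deriv S) (2 * ρ z)) * fderiv ℝ ρ z v * fderiv ℝ ρ z w := by
  have du := (ev_diff hu).self_of_nhds
  have dρ := (ev_diff hρ).self_of_nhds
  have hρ2 : ContDiffAt ℝ 2 (fun y => 2 * ρ y) z := contDiffAt_const.mul hρ
  have dρ2 := (ev_diff hρ2).self_of_nhds
  have a1 : ContDiffAt ℝ 2 (fun y => Φ (u y)) z := (cd2 hΦ _).comp z hu
  have a2 : ContDiffAt ℝ 2 (fun y => Real.exp (u y)) z := hu.exp
  have a3 : ContDiffAt ℝ 2 (fun y => S (2 * ρ y)) z := (cd2 hS _).comp z hρ2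
  have e1 := fd2_add a1 (a2.mul a3) v w
  have e2 := fd2_comp (φ := Φ) (φ' := deriv Φ) hu (Eventually.of_forall fun t => hd1 hΦ t)
    (hd1 (sm1 hΦ) (u z)) v w
  have e3 := fd2_mul a2 a3 v w
  have e4 := fd2_comp (φ := Real.exp) (φ' := Real.exp) hu
    (Eventually.of_forall fun t => Real.hasDerivAt_exp t) (Real.hasDerivAt_exp (u z)) v w
  have e5 := fd2_comp (φ := S) (φ' := deriv S) hρ2 (Eventually.of_forall fun t => hd1 hS t)
    (hd1 (sm1 hS) (2 * ρ z)) v w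
  have e6 : ∀ v, fderiv ℝ (fun y => 2 * ρ y) z v = 2 * fderiv ℝ ρ z v := fun v => by
    rw [fderiv_const_mul dρ, _root_.smul_apply, smul_eq_mul]
  have e7 : fderiv ℝ (fun y => fderiv ℝ (fun y => 2 * ρ y) y v) z w =
      2 * fderiv ℝ (fun y => fderiv ℝ ρ y v) z w := by
    have h1 : (fun y => fderiv ℝ (fun y => 2 * ρ y) y v) =ᶠ[𝓝 z] fun y => 2 * fderiv ℝ ρ y v := by
      filter_upwards [ev_diff hρ] with y hy
      rw [fderiv_const_mul hy, _root_.smul_apply, smul_eq_mul]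
    rw [h1.fderiv_eq, fderiv_const_mul (diff_fd hρ v), _root_.smul_apply, smul_eq_mul]
  have e8 : ∀ v, fderiv ℝ (fun y => Real.exp (u y)) z v = Real.exp (u z) * fderiv ℝ u z v :=
    fun v => fd_comp (φ := Real.exp) du (Real.hasDerivAt_exp _) v
  have e9 : ∀ v, fderiv ℝ (fun y => S (2 * ρ y)) z v = deriv S (2 * ρ z) * (2 * fderiv ℝ ρ z v) :=
    fun v => by
      rw [← e6]
      exact fd_comp (φ := S) dρ2 (hd1 hS _) v
  have e : fderiv ℝ (fun y => fderiv ℝ (Wn Φ S u ρ) y v) z w =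
      fderiv ℝ (fun y => fderiv ℝ (fun y => Φ (u y) + Real.exp (u y) * S (2 * ρ y)) y v) z w := rfl
  rw [e, e1, e2, e3, e4, e5, e7, e8, e8, e9, e9, e6, e6]
  ring

theorem wn_c2 (hu : ContDiffAt ℝ 2 u z) (hρ : ContDiffAt ℝ 2 ρ z) (hΦ : ContDiff ℝ ∞ Φ)
    (hS : ContDiff ℝ ∞ S) : ContDiffAt ℝ 2 (Wn Φ S u ρ) z :=
  ((cd2 hΦ _).comp z hu).add (hu.exp.mul ((cd2 hS _).comp z (contDiffAt_const.mul hρ)))

end gen

/-! ## Bounds -/

section bd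

/-- The numbers of the profile at the point. -/
structure Pf (S : ℝ → ℝ) (B ρ₀ : ℝ) : Prop where
  b0 : |S (2 * ρ₀)| ≤ B * ρ₀
  b1 : |deriv S (2 * ρ₀)| ≤ B
  b2 : |deriv (deriv S) (2 * ρ₀)| ≤ B

theorem ab1 {E N S S₁ x y B ρ₀ X Y : ℝ} (hE : 0 < E) (hN : 0 ≤ N) (b0 : |S| ≤ B * ρ₀)
    (b1 : |S₁| ≤ B) (hx : |x| ≤ X) (hy : |y| ≤ Y) :
    |(N + E * S) * x + 2 * (E * S₁) * y| ≤ (N + E * (B * ρ₀)) * X + 2 * (E * B) * Y := by
  have h1 : |N + E * S| ≤ N + E * (B * ρ₀) := by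
    refine (abs_add_le _ _).trans ?_
    rw [abs_of_nonneg hN, abs_mul, abs_of_pos hE]
    have := mul_le_mul_of_nonneg_left b0 hE.le
    linarith
  have h2 : |2 * (E * S₁)| ≤ 2 * (E * B) := by
    rw [abs_mul, abs_mul, abs_of_pos hE, abs_of_pos (by norm_num : (0 : ℝ) < 2)]
    have := mul_le_mul_of_nonneg_left b1 hE.le
    linarith
  refine (abs_add_le _ _).trans (add_le_add ?_ ?_)
  · rw [abs_mul]
    exact mul_le_mul h1 hx (abs_nonneg _) ((abs_nonneg _).trans h1)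
  · rw [abs_mul]
    exact mul_le_mul h2 hy (abs_nonneg _) ((abs_nonneg _).trans h2)

theorem ab2 {E N K S S₁ S₂ x x' y y' t r B ρ₀ X X' Y Y' T R : ℝ} (hE : 0 < E) (hN : 0 ≤ N)
    (hK : 0 ≤ K) (b0 : |S| ≤ B * ρ₀) (b1 : |S₁| ≤ B) (b2 : |S₂| ≤ B) (hx : |x| ≤ X)
    (hx' : |x'| ≤ X') (hy : |y| ≤ Y) (hy' : |y'| ≤ Y') (ht : |t| ≤ T) (hr : |r| ≤ R) :
    |(K + E * S) * x * x' + (N + E * S) * t + 2 * (E * S₁) * (x * y' + x' * y + r) +
      4 * (E * S₂) * y * y'| ≤ (K + E * (B * ρ₀)) * (X * X') + (N + E * (B * ρ₀)) * T +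
      2 * (E * B) * (X * Y' + X' * Y + R) + 4 * (E * B) * (Y * Y') := by
  have X0 := (abs_nonneg _).trans hx
  have X0' := (abs_nonneg _).trans hx'
  have Y0 := (abs_nonneg _).trans hy
  have Y0' := (abs_nonneg _).trans hy'
  have h0 : |E * S| ≤ E * (B * ρ₀) := by
    rw [abs_mul, abs_of_pos hE]
    exact mul_le_mul_of_nonneg_left b0 hE.le
  have h1 : |N + E * S| ≤ N + E * (B * ρ₀) := by
    refine (abs_add_le _ _).trans ?_
    rw [abs_of_nonneg hN]; linarith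
  have h1' : |K + E * S| ≤ K + E * (B * ρ₀) := by
    refine (abs_add_le _ _).trans ?_
    rw [abs_of_nonneg hK]; linarith
  have h2 : |2 * (E * S₁)| ≤ 2 * (E * B) := by
    rw [abs_mul, abs_mul, abs_of_pos hE, abs_of_pos (by norm_num : (0 : ℝ) < 2)]
    have := mul_le_mul_of_nonneg_left b1 hE.le
    linarith
  have h3 : |4 * (E * S₂)| ≤ 4 * (E * B) := by
    rw [abs_mul, abs_mul, abs_of_pos hE, abs_of_pos (by norm_num : (0 : ℝ) < 4)]
    have := mul_le_mul_of_nonneg_left b2 hE.le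
    linarith
  have m1 : |x * x'| ≤ X * X' := by
    rw [abs_mul]; exact mul_le_mul hx hx' (abs_nonneg _) X0
  have m2 : |x * y'| ≤ X * Y' := by
    rw [abs_mul]; exact mul_le_mul hx hy' (abs_nonneg _) X0
  have m3 : |x' * y| ≤ X' * Y := by
    rw [abs_mul]; exact mul_le_mul hx' hy (abs_nonneg _) X0'
  have m4 : |y * y'| ≤ Y * Y' := by
    rw [abs_mul]; exact mul_le_mul hy hy' (abs_nonneg _) Y0
  have m5 : |x * y' + x' * y + r| ≤ X * Y' + X' * Y + R :=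
    (abs_add_le _ _).trans (add_le_add ((abs_add_le _ _).trans (add_le_add m2 m3)) hr)
  rw [mul_assoc (K + E * S), mul_assoc (4 * (E * S₂))]
  refine (abs_add_le _ _).trans (add_le_add ((abs_add_le _ _).trans (add_le_add
    ((abs_add_le _ _).trans (add_le_add ?_ ?_)) ?_)) ?_) <;> rw [abs_mul]
  · exact mul_le_mul h1' m1 (abs_nonneg _) ((abs_nonneg _).trans h1')
  · exact mul_le_mul h1 ht (abs_nonneg _) ((abs_nonneg _).trans h1)
  · exact mul_le_mul h2 m5 (abs_nonneg _) ((abs_nonneg _).trans h2)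
  · exact mul_le_mul h3 m4 (abs_nonneg _) ((abs_nonneg _).trans h3)

end bd

open Vale.Agent.P088.LR Vale.Agent.P088.HY Vale.Agent.P088.R2.H961.GW Vale.Agent.P088.R2.H464.Cu

variable {n : ℕ} {A B δ μ₂ : ℝ} {Φ S : ℝ → ℝ} {u ρ : VV n → ℝ} {z : VV n}

/-- The bounds of `u` and `ρ` in the directions `D_p`, `D_q` with the scale `s`, `s² = ρ`. -/
structure Ur (A δ μ₂ s : ℝ) (u ρ : VV n → ℝ) (z : VV n) : Prop where
  us : ContDiffAt ℝ 2 u z
  rs : ContDiffAt ℝ 2 ρ z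
  up : ∀ i, |fderiv ℝ u z (ep (Sum.inl i))| ≤ A
  uq : ∀ i, |fderiv ℝ u z (ep (Sum.inr i))| ≤ A * (δ * s)
  upp : ∀ i j, |fderiv ℝ (fun y => fderiv ℝ u y (ep (Sum.inl i))) z (ep (Sum.inl j))| ≤ A * (δ + μ₂)
  upq : ∀ i j, |fderiv ℝ (fun y => fderiv ℝ u y (ep (Sum.inl i))) z (ep (Sum.inr j))| ≤ A * δ
  uqp : ∀ i j, |fderiv ℝ (fun y => fderiv ℝ u y (ep (Sum.inr i))) z (ep (Sum.inl j))| ≤ A * δ
  uqq : ∀ i j, |fderiv ℝ (fun y => fderiv ℝ u y (ep (Sum.inr i))) z (ep (Sum.inr j))| ≤ A * δ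
  rp : ∀ i, |fderiv ℝ ρ z (ep (Sum.inl i))| ≤ A * s ^ 2
  rq : ∀ i, |fderiv ℝ ρ z (ep (Sum.inr i))| ≤ A * s
  rpp : ∀ i j, |fderiv ℝ (fun y => fderiv ℝ ρ y (ep (Sum.inl i))) z (ep (Sum.inl j))| ≤ A * s ^ 2
  rpq : ∀ i j, |fderiv ℝ (fun y => fderiv ℝ ρ y (ep (Sum.inl i))) z (ep (Sum.inr j))| ≤ A * s
  rqp : ∀ i j, |fderiv ℝ (fun y => fderiv ℝ ρ y (ep (Sum.inr i))) z (ep (Sum.inl j))| ≤ A * s
  rqq : ∀ i j, |fderiv ℝ (fun y => fderiv ℝ ρ y (ep (Sum.inr i))) z (ep (Sum.inr j))| ≤ A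

/-- The bounds of the weight in the directions `D_p`, `D_q`. -/
structure Wd (C δ μ₂ s E N K : ℝ) (W : VV n → ℝ) (z : VV n) : Prop where
  sm : ContDiffAt ℝ 2 W z
  p : ∀ i, |fderiv ℝ W z (ep (Sum.inl i))| ≤ C * (N + E * s ^ 2)
  q : ∀ i, |fderiv ℝ W z (ep (Sum.inr i))| ≤ C * (N * (δ * s) + E * s)
  pp : ∀ i j, |fderiv ℝ (fun y => fderiv ℝ W y (ep (Sum.inl i))) z (ep (Sum.inl j))| ≤
    C * (K + N * (δ + μ₂) + E * s ^ 2)
  pq : ∀ i j, |fderiv ℝ (fun y => fderiv ℝ W y (ep (Sum.inl i))) z (ep (Sum.inr j))| ≤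
    C * (K * (δ * s) + N * δ + E * s)
  qp : ∀ i j, |fderiv ℝ (fun y => fderiv ℝ W y (ep (Sum.inr i))) z (ep (Sum.inl j))| ≤
    C * (K * (δ * s) + N * δ + E * s)
  qq : ∀ i j, |fderiv ℝ (fun y => fderiv ℝ W y (ep (Sum.inr i))) z (ep (Sum.inr j))| ≤
    C * (K * (δ * s) ^ 2 + N * δ + E)

/-- The constant of the weight. -/
def cW (A B : ℝ) : ℝ := (1 + A) ^ 2 * (1 + B) * 20

theorem wd_of {s : ℝ} (h : Ur A δ μ₂ s u ρ z) (hs : s ^ 2 = ρ z) (hs0 : 0 ≤ s) (hs1 : s ≤ 1)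
    (hA : 0 ≤ A) (hB : 0 ≤ B) (hδ : 0 ≤ δ) (hδ1 : δ ≤ 1) (hμ : 0 ≤ μ₂) (hμ1 : μ₂ ≤ 1 + A)
    (hp : Pf S B (ρ z)) (hΦ : ContDiff ℝ ∞ Φ) (hS : ContDiff ℝ ∞ S) (hN : 0 ≤ deriv Φ (u z))
    (hK : 0 ≤ deriv (deriv Φ) (u z)) :
    Wd (cW A B) δ μ₂ s (Real.exp (u z)) (deriv Φ (u z)) (deriv (deriv Φ) (u z)) (Wn Φ S u ρ) z := by
  obtain ⟨b0', b1, b2⟩ := hp
  have b0 : |S (2 * ρ z)| ≤ B * s ^ 2 := by rw [hs]; exact b0'
  set E := Real.exp (u z) with hEd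
  have hE : 0 < E := Real.exp_pos _
  set N := deriv Φ (u z) with hNd
  set K := deriv (deriv Φ) (u z) with hKd
  have q1 : s ^ 2 ≤ s := by nlinarith
  have q2 : s ^ 2 ≤ 1 := by nlinarith
  have q3 : δ * s ≤ s := mul_le_of_le_one_left hs0 hδ1
  have q4 : 0 ≤ δ * s := by positivity
  have q5 : δ * s ≤ 1 := q3.trans hs1
  have c1 : cW A B = 20 * (1 + 2 * A + A ^ 2 + B + 2 * (A * B) + A ^ 2 * B) := by
    unfold cW; ring
  have hAB : 0 ≤ A * B := by positivity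
  have hAAB : 0 ≤ A ^ 2 * B := by positivity
  have hAA : 0 ≤ A ^ 2 := by positivity
  have f1 : A ≤ cW A B := by linarith
  have f2 : A ^ 2 ≤ cW A B := by linarith
  have f3 : 20 * (A * B) + 20 * (A ^ 2 * B) ≤ cW A B := by linarith
  have g1 : ∀ {X : ℝ}, 0 ≤ X → A * X ≤ cW A B * X := fun hX => mul_le_mul_of_nonneg_right f1 hX
  have g2 : ∀ {X : ℝ}, 0 ≤ X → A ^ 2 * X ≤ cW A B * X := fun hX => mul_le_mul_of_nonneg_right f2 hX
  have g3 : ∀ {X : ℝ}, 0 ≤ X → (20 * (A * B) + 20 * (A ^ 2 * B)) * X ≤ cW A B * X :=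
    fun hX => mul_le_mul_of_nonneg_right f3 hX
  refine ⟨wn_c2 h.us h.rs hΦ hS, fun i => ?_, fun i => ?_, fun i j => ?_, fun i j => ?_,
    fun i j => ?_, fun i j => ?_⟩
  · rw [fdW h.us h.rs hΦ hS]
    refine (ab1 hE hN b0 b1 (h.up i) (h.rp i)).trans ?_
    have e : (N + E * (B * s ^ 2)) * A + 2 * (E * B) * (A * s ^ 2) =
        A * N + 3 * ((A * B) * (E * s ^ 2)) := by ring
    rw [e]
    have p1 : 0 ≤ E * s ^ 2 := by positivity
    linarith [g1 hN, g3 p1, mul_nonneg hAB p1, mul_nonneg hAAB p1]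
  · rw [fdW h.us h.rs hΦ hS]
    refine (ab1 hE hN b0 b1 (h.uq i) (h.rq i)).trans ?_
    have e : (N + E * (B * s ^ 2)) * (A * (δ * s)) + 2 * (E * B) * (A * s) =
        A * (N * (δ * s)) + (A * B) * (E * s ^ 2 * (δ * s)) + 2 * ((A * B) * (E * s)) := by ring
    rw [e]
    have p1 : 0 ≤ E * s := by positivity
    have p2 : 0 ≤ N * (δ * s) := by positivity
    have p3 : E * s ^ 2 * (δ * s) ≤ E * s := by
      have : s ^ 2 * (δ * s) ≤ 1 * s := mul_le_mul q2 q3 q4 zero_le_one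
      have := mul_le_mul_of_nonneg_left this hE.le
      linarith
    have p4 := mul_le_mul_of_nonneg_left p3 hAB
    linarith [g1 p2, g3 p1, mul_nonneg hAB p1, mul_nonneg hAAB p1]
  · rw [fd2W h.us h.rs hΦ hS]
    refine (ab2 hE hN hK b0 b1 b2 (h.up i) (h.up j) (h.rp i) (h.rp j) (h.upp i j)
      (h.rpp i j)).trans ?_
    have e : (K + E * (B * s ^ 2)) * (A * A) + (N + E * (B * s ^ 2)) * (A * (δ + μ₂)) +
        2 * (E * B) * (A * (A * s ^ 2) + A * (A * s ^ 2) + A * s ^ 2) +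
        4 * (E * B) * (A * s ^ 2 * (A * s ^ 2)) =
        A ^ 2 * K + A * (N * (δ + μ₂)) + (5 * ((A ^ 2 * B) * (E * s ^ 2)) +
          2 * ((A * B) * (E * s ^ 2))) +
          (A * B) * (E * s ^ 2 * (δ + μ₂)) + 4 * ((A ^ 2 * B) * (E * s ^ 2 * s ^ 2)) := by ring
    rw [e]
    have p1 : 0 ≤ E * s ^ 2 := by positivity
    have p2 : 0 ≤ N * (δ + μ₂) := by positivity
    have p3 : E * s ^ 2 * (δ + μ₂) ≤ E * s ^ 2 * (2 + A) :=
      mul_le_mul_of_nonneg_left (by linarith) p1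
    have p4 : E * s ^ 2 * s ^ 2 ≤ E * s ^ 2 * 1 := mul_le_mul_of_nonneg_left q2 p1
    have p5 := mul_le_mul_of_nonneg_left p3 hAB
    have p6 := mul_le_mul_of_nonneg_left p4 hAAB
    have p7 : A * B * (E * s ^ 2 * (2 + A)) = 2 * ((A * B) * (E * s ^ 2)) +
        (A ^ 2 * B) * (E * s ^ 2) := by ring
    linarith [g2 hK, g1 p2, g3 p1, mul_nonneg hAB p1, mul_nonneg hAAB p1]
  · rw [fd2W h.us h.rs hΦ hS]
    refine (ab2 hE hN hK b0 b1 b2 (h.up i) (h.uq j) (h.rp i) (h.rq j) (h.upq i j)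
      (h.rpq i j)).trans ?_
    have e : (K + E * (B * s ^ 2)) * (A * (A * (δ * s))) + (N + E * (B * s ^ 2)) * (A * δ) +
        2 * (E * B) * (A * (A * s) + A * (δ * s) * (A * s ^ 2) + A * s) +
        4 * (E * B) * (A * s ^ 2 * (A * s)) =
        A ^ 2 * (K * (δ * s)) + A * (N * δ) + (A ^ 2 * B) * (E * (s ^ 2 * (δ * s))) +
        (A * B) * (E * (s * (δ * s))) + 2 * ((A ^ 2 * B) * (E * s)) + 2 * ((A * B) * (E * s)) +
        2 * ((A ^ 2 * B) * (E * (s ^ 2 * (δ * s)))) + 4 * ((A ^ 2 * B) * (E * (s ^ 2 * s))) := by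
      ring
    rw [e]
    have p1 : 0 ≤ E * s := by positivity
    have p2 : 0 ≤ N * δ := by positivity
    have p2' : 0 ≤ K * (δ * s) := by positivity
    have r1 : s ^ 2 * (δ * s) ≤ s := by
      have := mul_le_mul q2 q3 q4 zero_le_one
      linarith
    have r2 : s * (δ * s) ≤ s := mul_le_of_le_one_right hs0 q5
    have r3 : s ^ 2 * s ≤ s := mul_le_of_le_one_left hs0 q2
    have p3 := mul_le_mul_of_nonneg_left (mul_le_mul_of_nonneg_left r1 hE.le) hAAB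
    have p4 := mul_le_mul_of_nonneg_left (mul_le_mul_of_nonneg_left r2 hE.le) hAB
    have p5 := mul_le_mul_of_nonneg_left (mul_le_mul_of_nonneg_left r3 hE.le) hAAB
    linarith [g2 p2', g1 p2, g3 p1, mul_nonneg hAB p1, mul_nonneg hAAB p1]
  · rw [fd2W h.us h.rs hΦ hS]
    refine (ab2 hE hN hK b0 b1 b2 (h.uq i) (h.up j) (h.rq i) (h.rp j) (h.uqp i j)
      (h.rqp i j)).trans ?_
    have e : (K + E * (B * s ^ 2)) * (A * (δ * s) * A) + (N + E * (B * s ^ 2)) * (A * δ) +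
        2 * (E * B) * (A * (δ * s) * (A * s ^ 2) + A * (A * s) + A * s) +
        4 * (E * B) * (A * s * (A * s ^ 2)) =
        A ^ 2 * (K * (δ * s)) + A * (N * δ) + (A ^ 2 * B) * (E * (s ^ 2 * (δ * s))) +
        (A * B) * (E * (s * (δ * s))) + 2 * ((A ^ 2 * B) * (E * s)) + 2 * ((A * B) * (E * s)) +
        2 * ((A ^ 2 * B) * (E * (s ^ 2 * (δ * s)))) + 4 * ((A ^ 2 * B) * (E * (s ^ 2 * s))) := by
      ring
    rw [e]
    have p1 : 0 ≤ E * s := by positivity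
    have p2 : 0 ≤ N * δ := by positivity
    have p2' : 0 ≤ K * (δ * s) := by positivity
    have r1 : s ^ 2 * (δ * s) ≤ s := by
      have := mul_le_mul q2 q3 q4 zero_le_one
      linarith
    have r2 : s * (δ * s) ≤ s := mul_le_of_le_one_right hs0 q5
    have r3 : s ^ 2 * s ≤ s := mul_le_of_le_one_left hs0 q2
    have p3 := mul_le_mul_of_nonneg_left (mul_le_mul_of_nonneg_left r1 hE.le) hAAB
    have p4 := mul_le_mul_of_nonneg_left (mul_le_mul_of_nonneg_left r2 hE.le) hAB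
    have p5 := mul_le_mul_of_nonneg_left (mul_le_mul_of_nonneg_left r3 hE.le) hAAB
    linarith [g2 p2', g1 p2, g3 p1, mul_nonneg hAB p1, mul_nonneg hAAB p1]
  · rw [fd2W h.us h.rs hΦ hS]
    refine (ab2 hE hN hK b0 b1 b2 (h.uq i) (h.uq j) (h.rq i) (h.rq j) (h.uqq i j)
      (h.rqq i j)).trans ?_
    have e : (K + E * (B * s ^ 2)) * (A * (δ * s) * (A * (δ * s))) +
        (N + E * (B * s ^ 2)) * (A * δ) +
        2 * (E * B) * (A * (δ * s) * (A * s) + A * (δ * s) * (A * s) + A) +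
        4 * (E * B) * (A * s * (A * s)) =
        A ^ 2 * (K * (δ * s) ^ 2) + A * (N * δ) + (A ^ 2 * B) * (E * (s ^ 2 * (δ * s) ^ 2)) +
        (A * B) * (E * (s ^ 2 * δ)) + 4 * ((A ^ 2 * B) * (E * (s * (δ * s)))) +
        2 * ((A * B) * E) + 4 * ((A ^ 2 * B) * (E * s ^ 2)) := by
      ring
    rw [e]
    have p2 : 0 ≤ N * δ := by positivity
    have p2' : 0 ≤ K * (δ * s) ^ 2 := by positivity
    have r0 : (δ * s) ^ 2 ≤ 1 := pow_le_one₀ q4 q5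
    have r1 : s ^ 2 * (δ * s) ^ 2 ≤ 1 := mul_le_one₀ q2 (sq_nonneg _) r0
    have r2 : s * (δ * s) ≤ 1 := mul_le_one₀ hs1 q4 q5
    have r3 : s ^ 2 * δ ≤ 1 := mul_le_one₀ q2 hδ hδ1
    have p3 := mul_le_mul_of_nonneg_left (mul_le_mul_of_nonneg_left r1 hE.le) hAAB
    have p4 := mul_le_mul_of_nonneg_left (mul_le_mul_of_nonneg_left r2 hE.le) hAAB
    have p5 := mul_le_mul_of_nonneg_left (mul_le_mul_of_nonneg_left r3 hE.le) hAB
    have p6 := mul_le_mul_of_nonneg_left (mul_le_mul_of_nonneg_left q2 hE.le) hAAB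
    linarith [g2 p2', g1 p2, g3 hE.le, mul_nonneg hAB hE.le, mul_nonneg hAAB hE.le]

end Vale.Agent.P088.R2.H932.EP
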